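import Mathlib
import Vale.Agent.Lib.P074.Defs

/-!
# Power cells, upper envelopes and the semi-discrete dual functional.
-/

open MeasureTheory Metric Set Filter Topology
open scoped ENNReal NNReal

namespace Vale.Agent.Lib.P074.T

/-- The ambient Euclidean space. -/
abbrev E (d : ℕ) := EuclideanSpace ℝ (Fin d)

variable {d : ℕ} {ι : Type*} [Fintype ι]

/-- The power cell of the site `y i` with weights `a`, inside `K`. -/
def cell (K : Set (E d)) (y : ι → E d) (a : ι → ℝ) (i : ι) : Set (E d) :=
  {x | x ∈ K ∧ ∀ j, inner ℝ x (y j) - a j ≤ inner ℝ x (y i) - a i}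

/-- The upper envelope of the affine functions `⟪x, y j⟫ - a j`. -/
noncomputable def pot (y : ι → E d) (a : ι → ℝ) (x : E d) : ℝ :=
  ⨆ j, (inner ℝ x (y j) - a j)

/-- The semi-discrete dual functional with source density `r` on `K` and masses `m`. -/
noncomputable def dual (K : Set (E d)) (r : E d → ℝ) (m : ι → ℝ) (y : ι → E d) (a : ι → ℝ) : ℝ :=
  (∫ x in K, pot y a x * r x) + ∑ i, m i * a i

/-- `a` solves the mass equations: the cell of `i` has `r`-mass `m i`. -/
def Sol (K : Set (E d)) (r : E d → ℝ) (m : ι → ℝ) (y : ι → E d) (a : ι → ℝ) : Prop :=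
  ∀ i, ∫ x in cell K y a i, r x = m i

section basics

variable {K : Set (E d)} {y : ι → E d} {a a' : ι → ℝ} {i j : ι} {x x' : E d}

lemma isClosed_cell (hK : IsClosed K) (y : ι → E d) (a : ι → ℝ) (i : ι) :
    IsClosed (cell K y a i) := by
  have : cell K y a i = K ∩ ⋂ j, {x | inner ℝ x (y j) - a j ≤ inner ℝ x (y i) - a i} := by
    ext x
    simp [cell]
  rw [this]
  refine hK.inter (isClosed_iInter fun j => isClosed_le ?_ ?_) <;> fun_prop

lemma measurableSet_cell (hK : IsCompact K) (y : ι → E d) (a : ι → ℝ) (i : ι) :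
    MeasurableSet (cell K y a i) :=
  (isClosed_cell hK.isClosed y a i).measurableSet

lemma cell_subset (K : Set (E d)) (y : ι → E d) (a : ι → ℝ) (i : ι) : cell K y a i ⊆ K :=
  fun _ hx => hx.1

lemma le_pot (y : ι → E d) (a : ι → ℝ) (x : E d) (j : ι) :
    inner ℝ x (y j) - a j ≤ pot y a x :=
  le_ciSup (f := fun i => inner ℝ x (y i) - a i) (Set.finite_range _).bddAbove j

lemma pot_le [Nonempty ι] {c : ℝ} (h : ∀ j, inner ℝ x (y j) - a j ≤ c) : pot y a x ≤ c :=
  ciSup_le h

lemma pot_eq_of_mem_cell [Nonempty ι] (hx : x ∈ cell K y a i) :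
    pot y a x = inner ℝ x (y i) - a i :=
  le_antisymm (pot_le hx.2) (le_pot y a x i)

lemma continuous_pot (y : ι → E d) (a : ι → ℝ) : Continuous (pot y a) := by
  rcases isEmpty_or_nonempty ι with hι | hι
  · have : pot y a = fun _ => 0 := by
      funext x
      simp [pot]
    rw [this]
    exact continuous_const
  · have h : pot y a = fun x => Finset.univ.sup' Finset.univ_nonempty
        (fun i => inner ℝ x (y i) - a i) := by
      funext x
      exact (Finset.sup'_univ_eq_ciSup _).symm
    rw [h]
    exact Continuous.finset_sup'_apply _ fun i _ => by fun_prop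

lemma exists_mem_cell [Nonempty ι] (hx : x ∈ K) (y : ι → E d) (a : ι → ℝ) :
    ∃ i, x ∈ cell K y a i := by
  obtain ⟨i, -, hi⟩ := Finset.exists_max_image Finset.univ
    (fun i => inner ℝ x (y i) - a i) Finset.univ_nonempty
  exact ⟨i, hx, fun j => hi j (Finset.mem_univ _)⟩

/-- A hyperplane with nonzero normal is Lebesgue null. -/
lemma volume_hyperplane {v : E d} (hv : v ≠ 0) (c : ℝ) :
    volume {x : E d | inner ℝ x v = c} = 0 := by
  set ℓ : E d →ₗ[ℝ] ℝ := (innerₛₗ ℝ v) with hℓ
  have hℓx : ∀ x, ℓ x = inner ℝ x v := fun x => by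
    simp only [hℓ, innerₛₗ_apply_apply]
    exact real_inner_comm _ _
  have hvv : ℓ v ≠ 0 := by
    rw [hℓx, real_inner_self_eq_norm_sq]
    exact pow_ne_zero 2 (norm_ne_zero_iff.2 hv)
  have hker : LinearMap.ker ℓ ≠ ⊤ := by
    intro h
    have : v ∈ LinearMap.ker ℓ := by rw [h]; trivial
    exact hvv (LinearMap.mem_ker.1 this)
  have h0 : volume (LinearMap.ker ℓ : Set (E d)) = 0 := Measure.addHaar_submodule volume _ hker
  set v₀ : E d := (c / ℓ v) • v with hv₀
  have hℓv₀ : ℓ v₀ = c := by
    rw [hv₀, map_smul, smul_eq_mul]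
    field_simp
  have hsub : {x : E d | inner ℝ x v = c} =
      (fun x => x + (-v₀)) ⁻¹' (LinearMap.ker ℓ : Set (E d)) := by
    ext x
    simp only [mem_ofPred_eq, mem_preimage, SetLike.mem_coe, LinearMap.mem_ker, map_add, map_neg,
      hℓv₀, ← hℓx]
    constructor
    · intro h; rw [h]; ring
    · intro h; linarith
  rw [hsub, measure_preimage_add_right]
  exact h0

/-- Two different cells meet in a null set when the sites are distinct. -/
lemma inter_cell_null (hy : Function.Injective y) (hij : i ≠ j) :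
    volume (cell K y a i ∩ cell K y a j) = 0 := by
  have hv : y i - y j ≠ 0 := sub_ne_zero.2 (fun h => hij (hy h))
  refine measure_mono_null ?_ (volume_hyperplane hv (a i - a j))
  intro x hx
  have h1 := hx.1.2 j
  have h2 := hx.2.2 i
  simp only [mem_ofPred_eq, inner_sub_right]
  linarith

lemma iUnion_cell [Nonempty ι] (K : Set (E d)) (y : ι → E d) (a : ι → ℝ) :
    ⋃ i, cell K y a i = K := by
  apply subset_antisymm
  · exact iUnion_subset fun i => cell_subset K y a i
  · intro x hx
    obtain ⟨i, hi⟩ := exists_mem_cell hx y a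
    exact mem_iUnion.2 ⟨i, hi⟩

/-- The cells tile `K` up to null sets. -/
theorem sum_setIntegral_cell [Nonempty ι] (hK : IsCompact K) (hy : Function.Injective y)
    (a : ι → ℝ) {g : E d → ℝ} (hg : IntegrableOn g K) :
    ∑ i, ∫ x in cell K y a i, g x = ∫ x in K, g x := by
  have hm : ∀ i, MeasurableSet (cell K y a i) := fun i => measurableSet_cell hK y a i
  have hd : Pairwise (Function.onFun (AEDisjoint volume) (cell K y a)) := by
    intro i j hij
    exact inter_cell_null hy hij
  have hfi : IntegrableOn g (⋃ i, cell K y a i) := by rwa [iUnion_cell]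
  have h := integral_iUnion_ae (fun i => (hm i).nullMeasurableSet) hd hfi
  rw [iUnion_cell, tsum_fintype] at h
  exact h.symm

/-- The midpoint of two points of the cells of `i` for two weight vectors lies in the cell of `i`
for the mean weights. -/
lemma midpoint_mem_cell (hconv : Convex ℝ K) (hx : x ∈ cell K y a i) (hx' : x' ∈ cell K y a' i) :
    (1 / 2 : ℝ) • (x + x') ∈ cell K y (fun j => (a j + a' j) / 2) i := by
  refine ⟨?_, ?_⟩
  · have := hconv hx.1 hx'.1 (a := 1 / 2) (b := 1 / 2) (by norm_num) (by norm_num) (by norm_num)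
    rwa [smul_add]
  · intro j
    have h1 := hx.2 j
    have h2 := hx'.2 j
    simp only [inner_smul_left, inner_add_left, RCLike.conj_to_real]
    linarith

/-- A bounded measurable function is integrable on a compact set. -/
lemma integrableOn_of_bound (hK : IsCompact K) {g : E d → ℝ} (hg : Measurable g) {M : ℝ}
    (hM : ∀ x ∈ K, |g x| ≤ M) : IntegrableOn g K := by
  refine Measure.integrableOn_of_bounded hK.measure_lt_top.ne hg.aestronglyMeasurable (M := M) ?_
  filter_upwards [ae_restrict_mem hK.measurableSet] with x hx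
  simpa using hM x hx

/-- The integrand of `dual` is integrable. -/
lemma integrableOn_pot_mul (hK : IsCompact K) (y : ι → E d) (a : ι → ℝ) {r : E d → ℝ}
    (hrm : Measurable r) {M : ℝ} (hr : ∀ x ∈ K, |r x| ≤ M) :
    IntegrableOn (fun x => pot y a x * r x) K := by
  obtain ⟨B, hB⟩ := (hK.image_of_continuousOn (continuous_pot y a).continuousOn).isBounded.exists_norm_le
  refine integrableOn_of_bound hK ((continuous_pot y a).measurable.mul hrm) (M := B * M) ?_
  intro x hx
  rw [abs_mul]
  have h1 : |pot y a x| ≤ B := by simpa using hB _ (mem_image_of_mem _ hx)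
  have h2 := hr x hx
  have hB0 : 0 ≤ B := (abs_nonneg _).trans h1
  exact mul_le_mul h1 h2 (abs_nonneg _) hB0

end basics

end Vale.Agent.Lib.P074.T
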