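import Mathlib
import Vale.Agent.Lib.P074.T.Cells

/-!
# Existence of solutions of the mass equations.
-/

open MeasureTheory Metric Set Filter Topology
open scoped ENNReal NNReal

namespace Vale.Agent.Lib.P074.T

variable {d : ℕ} {ι : Type*} [Fintype ι]

lemma pot_add_const [Nonempty ι] (y : ι → E d) (a : ι → ℝ) (c : ℝ) (x : E d) :
    pot y (fun j => a j + c) x = pot y a x - c := by
  apply le_antisymm
  · refine pot_le fun j => ?_
    have := le_pot y a x j
    linarith
  · have : pot y a x ≤ pot y (fun j => a j + c) x + c := by
      refine pot_le fun j => ?_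
      have := le_pot y (fun j => a j + c) x j
      linarith
    linarith

lemma pot_le_add_dist [Nonempty ι] (y : ι → E d) (a a' : ι → ℝ) (x : E d) :
    pot y a x ≤ pot y a' x + dist a a' := by
  refine pot_le fun j => ?_
  have h1 := le_pot y a' x j
  have h2 : |a j - a' j| ≤ dist a a' := by
    have := dist_le_pi_dist a a' j
    rwa [Real.dist_eq] at this
  have h3 := abs_le.mp h2
  linarith [h3.1]

section

variable {K : Set (E d)} {y : ι → E d} {r : E d → ℝ} {M : ℝ} {m : ι → ℝ}

lemma abs_r_le (hr : ∀ x ∈ K, 0 ≤ r x ∧ r x ≤ M) : ∀ x ∈ K, |r x| ≤ M := fun x hx => by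
  rw [abs_of_nonneg (hr x hx).1]; exact (hr x hx).2

lemma dual_add_const [Nonempty ι] (hK : IsCompact K) (hrm : Measurable r)
    (hr : ∀ x ∈ K, 0 ≤ r x ∧ r x ≤ M) (hsum : ∑ i, m i = ∫ x in K, r x)
    (y : ι → E d) (a : ι → ℝ) (c : ℝ) :
    dual K r m y (fun j => a j + c) = dual K r m y a := by
  have hr' := abs_r_le hr
  have hI := integrableOn_pot_mul hK y a hrm hr'
  have hIr := integrableOn_of_bound hK hrm hr'
  unfold dual
  have h1 : ∫ x in K, pot y (fun j => a j + c) x * r x
      = (∫ x in K, pot y a x * r x) - c * ∫ x in K, r x := by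
    rw [← integral_const_mul, ← integral_sub hI (hIr.const_mul c)]
    refine integral_congr_ae (Eventually.of_forall fun x => ?_)
    simp only
    rw [pot_add_const]; ring
  have h2 : ∑ i, m i * (a i + c) = ∑ i, m i * a i + c * ∑ i, m i := by
    rw [Finset.mul_sum, ← Finset.sum_add_distrib]
    exact Finset.sum_congr rfl fun i _ => by ring
  rw [h1, h2, hsum]; ring

lemma continuous_dual [Nonempty ι] (hK : IsCompact K) (hrm : Measurable r)
    (hr : ∀ x ∈ K, 0 ≤ r x ∧ r x ≤ M) (y : ι → E d) (m : ι → ℝ) :
    Continuous (dual K r m y) := by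
  have hr' := abs_r_le hr
  have hIr := integrableOn_of_bound hK hrm hr'
  set Vr := ∫ x in K, r x with hVr
  have hVrnn : 0 ≤ Vr := setIntegral_nonneg hK.measurableSet fun x hx => (hr x hx).1
  have h1 : Continuous (fun a : ι → ℝ => ∫ x in K, pot y a x * r x) := by
    refine LipschitzWith.continuous (K := Vr.toNNReal) ?_
    refine LipschitzWith.of_dist_le_mul fun a a' => ?_
    rw [Real.coe_toNNReal _ hVrnn, Real.dist_eq,
      ← integral_sub (integrableOn_pot_mul hK y a hrm hr') (integrableOn_pot_mul hK y a' hrm hr')]
    have hb : ∫ x in K, |pot y a x * r x - pot y a' x * r x|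
        ≤ ∫ x in K, dist a a' * r x := by
      refine setIntegral_mono_on ?_ (hIr.const_mul _) hK.measurableSet ?_
      · exact ((integrableOn_pot_mul hK y a hrm hr').sub
          (integrableOn_pot_mul hK y a' hrm hr')).abs
      · intro x hx
        have hrx := (hr x hx).1
        rw [← sub_mul, abs_mul, abs_of_nonneg hrx]
        refine mul_le_mul_of_nonneg_right ?_ hrx
        refine abs_le.mpr ⟨?_, ?_⟩
        · have := pot_le_add_dist y a' a x
          rw [dist_comm] at this
          linarith
        · have := pot_le_add_dist y a a' x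
          linarith
    rw [integral_const_mul] at hb
    calc |∫ x in K, (pot y a x * r x - pot y a' x * r x)|
        ≤ ∫ x in K, |pot y a x * r x - pot y a' x * r x| := abs_integral_le_integral_abs
      _ ≤ dist a a' * Vr := hb
      _ = Vr * dist a a' := mul_comm _ _
  unfold dual
  exact h1.add (continuous_finsetSum _ fun i _ => continuous_const.mul (continuous_apply i))

end

/-- A minimizer of the dual functional solves the mass equations. -/
theorem sol_of_forall_le [Nonempty ι] {K : Set (E d)} (hK : IsCompact K) {y : ι → E d}
    (hy : Function.Injective y) {r : E d → ℝ} (hrm : Measurable r) {M : ℝ}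
    (hr : ∀ x ∈ K, 0 ≤ r x ∧ r x ≤ M) {m a : ι → ℝ} (hsum : ∑ i, m i = ∫ x in K, r x)
    (hmin : ∀ a', dual K r m y a ≤ dual K r m y a') : Sol K r m y a := by
  classical
  have hr' := abs_r_le hr
  have hIr := integrableOn_of_bound hK hrm hr'
  have hcellI : ∀ (b : ι → ℝ) (i : ι), IntegrableOn r (cell K y b i) := fun b i =>
    hIr.mono_set fun _ hx => hx.1
  -- step 1: perturbed cells have mass at least `m i`
  have hstep : ∀ i, ∀ t : ℝ, 0 < t →
      m i ≤ ∫ x in cell K y (Function.update a i (a i - t)) i, r x := by
    intro i t ht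
    set a' := Function.update a i (a i - t) with ha'
    have hc := measurableSet_cell hK y a' i
    have hI' := integrableOn_pot_mul hK y a' hrm hr'
    have hI := integrableOn_pot_mul hK y a hrm hr'
    have hpt : ∀ x ∈ K, pot y a' x * r x - pot y a x * r x
        ≤ (cell K y a' i).indicator (fun x => t * r x) x := by
      intro x hxK
      have hrx := (hr x hxK).1
      rw [← sub_mul]
      obtain ⟨j, hj⟩ := exists_mem_cell hxK y a'
      have hj' := pot_eq_of_mem_cell hj
      by_cases hxc : x ∈ cell K y a' i
      · rw [indicator_of_mem hxc]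
        refine mul_le_mul_of_nonneg_right ?_ hrx
        have h1 := pot_eq_of_mem_cell hxc
        have h2 := le_pot y a x i
        have h3 : a' i = a i - t := by simp [ha']
        rw [h3] at h1
        linarith
      · rw [indicator_of_notMem hxc]
        have hji : j ≠ i := fun h => hxc (h ▸ hj)
        have h3 : a' j = a j := by simp [ha', Function.update_of_ne hji]
        have h2 := le_pot y a x j
        rw [h3] at hj'
        have : pot y a' x - pot y a x ≤ 0 := by linarith
        exact mul_nonpos_of_nonpos_of_nonneg this hrx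
    have hint : ∫ x in K, (pot y a' x * r x - pot y a x * r x)
        ≤ t * ∫ x in cell K y a' i, r x := by
      have hind : ∫ x in K, (cell K y a' i).indicator (fun x => t * r x) x
          = t * ∫ x in cell K y a' i, r x := by
        rw [setIntegral_indicator hc, integral_const_mul]
        have : K ∩ cell K y a' i = cell K y a' i := inter_eq_right.mpr fun _ hx => hx.1
        rw [this]
      rw [← hind]
      refine setIntegral_mono_on (hI'.sub hI) ?_ hK.measurableSet hpt
      have hIt : IntegrableOn (fun x => t * r x) K := hIr.const_mul t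
      exact (IntegrableOn.integrable_indicator (hIt.mono_set fun _ hx => hx.1) hc).integrableOn
    have hdiff : dual K r m y a' - dual K r m y a
        = (∫ x in K, (pot y a' x * r x - pot y a x * r x)) - t * m i := by
      unfold dual
      rw [integral_sub hI' hI]
      have : ∑ j, m j * a' j = ∑ j, m j * a j - t * m i := by
        have h4 : ∀ j, m j * a' j = m j * a j - (if j = i then t * m i else 0) := by
          intro j
          by_cases hji : j = i
          · subst hji; simp [ha']; ring
          · simp [ha', hji]
        simp_rw [h4]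
        rw [Finset.sum_sub_distrib]
        simp
      rw [this]; ring
    have h0 := hmin a'
    have : t * m i ≤ t * ∫ x in cell K y a' i, r x := by linarith
    exact le_of_mul_le_mul_left this ht
  -- step 2: pass to the limit
  have hge : ∀ i, m i ≤ ∫ x in cell K y a i, r x := by
    intro i
    set s : ℕ → Set (E d) := fun k =>
      cell K y (Function.update a i (a i - 1 / ((k : ℝ) + 1))) i with hs
    have hsanti : Antitone s := by
      intro u v huv x hx
      refine ⟨hx.1, fun j => ?_⟩
      have h1 := hx.2 j
      have huv' : 1 / ((v : ℝ) + 1) ≤ 1 / ((u : ℝ) + 1) := by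
        apply one_div_le_one_div_of_le (by positivity)
        have : (u : ℝ) ≤ v := by exact_mod_cast huv
        linarith
      by_cases hji : j = i
      · subst hji
        simp only [Function.update_self] at h1 ⊢
        linarith
      · simp only [Function.update_of_ne hji, Function.update_self] at h1 ⊢
        linarith
    have hsinter : ⋂ k, s k = cell K y a i := by
      ext x
      simp only [mem_iInter]
      constructor
      · intro h
        have hx0 := h 0
        refine ⟨hx0.1, fun j => ?_⟩
        by_cases hji : j = i
        · subst hji; exact le_refl _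
        · have hle : ∀ k : ℕ, inner ℝ x (y j) - a j - (inner ℝ x (y i) - a i)
              ≤ 1 / ((k : ℝ) + 1) := by
            intro k
            have h1 := (h k).2 j
            simp only [Function.update_of_ne hji, Function.update_self] at h1
            linarith
          have hlim : Tendsto (fun k : ℕ => 1 / ((k : ℝ) + 1)) atTop (𝓝 0) :=
            tendsto_one_div_add_atTop_nhds_zero_nat
          have := ge_of_tendsto' hlim hle
          linarith
      · intro hx k
        refine ⟨hx.1, fun j => ?_⟩
        have h1 := hx.2 j
        have hk : (0 : ℝ) < 1 / ((k : ℝ) + 1) := by positivity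
        by_cases hji : j = i
        · subst hji
          simp only [Function.update_self]
          exact le_refl _
        · simp only [Function.update_of_ne hji, Function.update_self]
          linarith
    have hmeas : ∀ k, MeasurableSet (s k) := fun k => measurableSet_cell hK y _ i
    have htend := tendsto_setIntegral_of_antitone (μ := volume) (f := r) hmeas hsanti
      ⟨0, hcellI _ i⟩
    rw [hsinter] at htend
    exact ge_of_tendsto' htend fun k => hstep i _ (by positivity)
  -- step 3: total mass
  intro i
  have htot : ∑ i, m i = ∑ i, ∫ x in cell K y a i, r x := by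
    rw [hsum, sum_setIntegral_cell hK hy a hIr]
  exact ((Finset.sum_eq_sum_iff_of_le (fun i _ => hge i)).mp htot i (Finset.mem_univ i)).symm

/-- Existence of weights with prescribed cell masses, by minimizing the dual functional. -/
theorem exists_sol [Nonempty ι] {K : Set (E d)} (hK : IsCompact K) {y : ι → E d}
    (hy : Function.Injective y) {r : E d → ℝ} (hrm : Measurable r) {M : ℝ}
    (hr : ∀ x ∈ K, 0 ≤ r x ∧ r x ≤ M) {m : ι → ℝ} (hm : ∀ i, 0 < m i)
    (hsum : ∑ i, m i = ∫ x in K, r x) : ∃ a, Sol K r m y a := by
  have hr' := abs_r_le hr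
  have hIr := integrableOn_of_bound hK hrm hr'
  obtain ⟨L0, hL0⟩ := hK.isBounded.exists_norm_le
  set L := |L0| with hLdef
  have hL : ∀ x ∈ K, ‖x‖ ≤ L := fun x hx => (hL0 x hx).trans (le_abs_self _)
  have hLnn : 0 ≤ L := abs_nonneg _
  set Y := ∑ i, ‖y i‖ with hY
  have hYnn : 0 ≤ Y := Finset.sum_nonneg fun _ _ => norm_nonneg _
  set B := L * Y with hB
  have hBnn : 0 ≤ B := mul_nonneg hLnn hYnn
  set V := ∫ x in K, r x with hV
  have hVnn : 0 ≤ V := setIntegral_nonneg hK.measurableSet fun x hx => (hr x hx).1
  have hinner : ∀ x ∈ K, ∀ i, |inner ℝ x (y i)| ≤ B := by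
    intro x hx i
    calc |inner ℝ x (y i)| ≤ ‖x‖ * ‖y i‖ := abs_real_inner_le_norm _ _
      _ ≤ L * Y := by
          apply mul_le_mul (hL x hx) _ (norm_nonneg _) hLnn
          exact Finset.single_le_sum (f := fun i => ‖y i‖) (fun _ _ => norm_nonneg _)
            (Finset.mem_univ i)
  -- lower bound
  have hlow : ∀ a : ι → ℝ, ∀ i, -B * V - V * a i + ∑ j, m j * a j ≤ dual K r m y a := by
    intro a i
    have h1 : ∫ x in K, (-B - a i) * r x ≤ ∫ x in K, pot y a x * r x := by
      refine setIntegral_mono_on (hIr.const_mul _) (integrableOn_pot_mul hK y a hrm hr')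
        hK.measurableSet ?_
      intro x hx
      refine mul_le_mul_of_nonneg_right ?_ (hr x hx).1
      have h2 := le_pot y a x i
      have h3 := abs_le.mp (hinner x hx i)
      linarith [h3.1]
    rw [integral_const_mul] at h1
    unfold dual
    nlinarith
  -- upper bound at zero
  have hup : dual K r m y 0 ≤ B * V := by
    unfold dual
    have h1 : ∫ x in K, pot y (0 : ι → ℝ) x * r x ≤ ∫ x in K, B * r x := by
      refine setIntegral_mono_on (integrableOn_pot_mul hK y 0 hrm hr') (hIr.const_mul _)
        hK.measurableSet ?_
      intro x hx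
      refine mul_le_mul_of_nonneg_right ?_ (hr x hx).1
      refine pot_le fun i => ?_
      have h3 := abs_le.mp (hinner x hx i)
      simp only [Pi.zero_apply, sub_zero]
      exact h3.2
    rw [integral_const_mul] at h1
    simpa using h1
  obtain ⟨i0, -, hi0⟩ := Finset.exists_min_image Finset.univ m Finset.univ_nonempty
  set μ := m i0 with hμ
  have hμpos : 0 < μ := hm i0
  set R := 2 * B * V / μ + 1 with hR
  have hRpos : 0 < R := by positivity
  set S : Set (ι → ℝ) := Set.pi univ (fun _ => Icc 0 R) with hS
  have hScomp : IsCompact S := isCompact_univ_pi fun _ => isCompact_Icc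
  have h0S : (0 : ι → ℝ) ∈ S := by
    intro i _; exact ⟨le_refl _, hRpos.le⟩
  obtain ⟨astar, hwS, hwmin⟩ := hScomp.exists_isMinOn ⟨0, h0S⟩
    (continuous_dual hK hrm hr y m).continuousOn
  refine ⟨astar, sol_of_forall_le hK hy hrm hr hsum fun a => ?_⟩
  obtain ⟨i1, -, hi1⟩ := Finset.exists_min_image Finset.univ a Finset.univ_nonempty
  set a' : ι → ℝ := fun i => a i + (-a i1) with ha'
  have heq : dual K r m y a' = dual K r m y a := dual_add_const hK hrm hr hsum y a _
  rw [← heq]
  have ha'nn : ∀ j, 0 ≤ a' j := fun j => by
    have := hi1 j (Finset.mem_univ j)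
    simp only [ha']; linarith
  by_cases hbox : ∀ j, a' j ≤ R
  · exact hwmin (a := a') (fun i _ => ⟨ha'nn i, hbox i⟩)
  · push Not at hbox
    obtain ⟨j, hj⟩ := hbox
    have h1 := hlow a' i1
    have hi1zero : a' i1 = 0 := by simp [ha']
    rw [hi1zero] at h1
    have h2 : m j * a' j ≤ ∑ l, m l * a' l :=
      Finset.single_le_sum (f := fun l => m l * a' l)
        (fun l _ => mul_nonneg (hm l).le (ha'nn l)) (Finset.mem_univ j)
    have h3 : μ * R ≤ m j * a' j :=
      mul_le_mul (hi0 j (Finset.mem_univ j)) hj.le hRpos.le (hm j).le
    have h4 : μ * R = 2 * B * V + μ := by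
      rw [hR]; field_simp
    have h5 : dual K r m y astar ≤ dual K r m y 0 := hwmin h0S
    nlinarith

end Vale.Agent.Lib.P074.T
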