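import Mathlib

/-!
# Midpoint Prekopa-Leindler inequality on `Fin n → ℝ`

`prekopa_leindler_midpoint`: for measurable `f g h : (Fin n → ℝ) → ℝ≥0∞` with
`f x * g y ≤ h ((1/2) • (x + y)) ^ 2`, one has `(∫⁻ f) * (∫⁻ g) ≤ (∫⁻ h) ^ 2`.
-/

open MeasureTheory ProbabilityTheory Set
open scoped ENNReal NNReal

namespace Vale.Agent.Lib.P074.T

lemma volume_scaled (A : Set ℝ) (b : ℝ) : 2 * volume {y : ℝ | 2 * y - b ∈ A} = volume A := by
  have h1 : {y : ℝ | 2 * y - b ∈ A} = (fun y : ℝ => 2 * y) ⁻¹' ((fun z : ℝ => z + (-b)) ⁻¹' A) := by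
    ext y; simp [sub_eq_add_neg]
  rw [h1, Real.volume_preimage_mul_left (two_ne_zero), measure_preimage_add_right,
    ← mul_assoc]
  have h2 : (2 : ℝ≥0∞) * ENNReal.ofReal |(2 : ℝ)⁻¹| = 1 := by
    have : |(2 : ℝ)⁻¹| = 2⁻¹ := by norm_num
    rw [this, ENNReal.ofReal_inv_of_pos (by norm_num)]
    simp [ENNReal.mul_inv_cancel]
  rw [h2, one_mul]

/-- One dimensional Brunn-Minkowski, midpoint form, for compact sets. -/
lemma pl_bm_compact {A B C : Set ℝ} (hA : IsCompact A) (hB : IsCompact B) (hA' : A.Nonempty)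
    (hB' : B.Nonempty) (hC : ∀ a ∈ A, ∀ b ∈ B, (a + b) / 2 ∈ C) :
    volume A + volume B ≤ 2 * volume C := by
  obtain ⟨a, haA, ha⟩ := hA.exists_isGreatest hA'
  obtain ⟨b, hbB, hb⟩ := hB.exists_isLeast hB'
  set S : Set ℝ := {y : ℝ | 2 * y - b ∈ A} with hS
  set T : Set ℝ := {y : ℝ | 2 * y - a ∈ B} with hT
  set m : ℝ := (a + b) / 2 with hm
  have hSm : ∀ y ∈ S, y ≤ m := by
    intro y hy
    have := ha hy
    rw [hm]; linarith
  have hTm : ∀ y ∈ T, m ≤ y := by
    intro y hy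
    have := hb hy
    rw [hm]; linarith
  have hSC : S ⊆ C := by
    intro y hy
    have := hC _ hy b hbB
    convert this using 1
    ring
  have hTC : T ⊆ C := by
    intro y hy
    have := hC a haA _ hy
    convert this using 1
    ring
  have hSmeas : MeasurableSet S :=
    hA.isClosed.measurableSet.preimage (by fun_prop : Measurable fun y : ℝ => 2 * y - b)
  have hTmeas : MeasurableSet T :=
    hB.isClosed.measurableSet.preimage (by fun_prop : Measurable fun y : ℝ => 2 * y - a)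
  have hdisj : Disjoint S (T \ {m}) := by
    rw [Set.disjoint_left]
    rintro y hyS ⟨hyT, hne⟩
    exact hne (le_antisymm (hSm y hyS) (hTm y hyT))
  have hT' : volume (T \ {m}) = volume T := measure_sdiff_null (by simp)
  have hunion : volume S + volume T ≤ volume C := by
    rw [← hT', ← measure_union hdisj (hTmeas.diff (measurableSet_singleton m))]
    apply measure_mono
    exact union_subset hSC (sdiff_subset.trans hTC)
  calc volume A + volume B = 2 * volume S + 2 * volume T := by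
        rw [hS, hT, volume_scaled, volume_scaled]
    _ = 2 * (volume S + volume T) := by ring
    _ ≤ 2 * volume C := by gcongr

/-- One dimensional Brunn-Minkowski, midpoint form, for measurable sets (and arbitrary target). -/
lemma pl_bm_measurable {A B C : Set ℝ} (hA : MeasurableSet A) (hB : MeasurableSet B)
    (hA' : A.Nonempty) (hB' : B.Nonempty) (hC : ∀ a ∈ A, ∀ b ∈ B, (a + b) / 2 ∈ C) :
    volume A + volume B ≤ 2 * volume C := by
  obtain ⟨a0, ha0⟩ := hA'
  obtain ⟨b0, hb0⟩ := hB'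
  have key : ∀ K, K ⊆ A → IsCompact K → ∀ K', K' ⊆ B → IsCompact K' →
      volume K + volume K' ≤ 2 * volume C := by
    intro K hK hKc K' hK' hKc'
    have h := pl_bm_compact (A := K ∪ {a0}) (B := K' ∪ {b0}) (C := C)
      (hKc.union isCompact_singleton) (hKc'.union isCompact_singleton)
      ⟨a0, by simp⟩ ⟨b0, by simp⟩
      (fun a ha b hb => hC a (union_subset hK (by simpa using ha0) ha) b
        (union_subset hK' (by simpa using hb0) hb))
    refine le_trans ?_ h
    gcongr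
    · exact subset_union_left
    · exact subset_union_left
  have hbB : volume B ≤ 2 * volume C := by
    apply le_of_forall_lt
    intro s hs
    obtain ⟨K', hK', hKc', hlt⟩ := hB.exists_lt_isCompact hs
    refine lt_of_lt_of_le hlt ?_
    have := key ∅ (empty_subset _) isCompact_empty K' hK' hKc'
    simpa using this
  have haA : volume A ≤ 2 * volume C := by
    apply le_of_forall_lt
    intro s hs
    obtain ⟨K, hK, hKc, hlt⟩ := hA.exists_lt_isCompact hs
    refine lt_of_lt_of_le hlt ?_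
    have := key K hK hKc ∅ (empty_subset _) isCompact_empty
    simpa using this
  by_cases h0 : volume A = 0
  · simpa [h0] using hbB
  by_cases h1 : volume B = 0
  · simpa [h1] using haA
  by_contra hcon
  push Not at hcon
  obtain ⟨u, hu, v, hv, huv⟩ := ENNReal.exists_lt_add_of_lt_add hcon h0 h1
  obtain ⟨K, hK, hKc, hlt⟩ := hA.exists_lt_isCompact hu
  obtain ⟨K', hK', hKc', hlt'⟩ := hB.exists_lt_isCompact hv
  have h2 := key K hK hKc K' hK' hKc'
  have h3 : u + v ≤ volume K + volume K' := add_le_add hlt.le hlt'.le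
  exact absurd (lt_of_lt_of_le huv (h3.trans h2)) (lt_irrefl _)

/-- Normalized one dimensional inequality (sup of `f`, `g` equal to one). -/
lemma pl_normalized {f g h : ℝ → ℝ≥0∞} (hf : Measurable f) (hg : Measurable g)
    (hh : Measurable h) (hf1 : ∀ x, f x ≤ 1) (hg1 : ∀ x, g x ≤ 1)
    (hfs : ∀ t < 1, ∃ x, t < f x) (hgs : ∀ t < 1, ∃ y, t < g y)
    (H : ∀ x y, min (f x) (g y) ≤ h ((x + y) / 2)) :
    (∫⁻ x, f x) + ∫⁻ x, g x ≤ 2 * ∫⁻ x, h x := by
  set φ : ℝ → ℝ := fun x => (f x).toReal with hφ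
  set ψ : ℝ → ℝ := fun x => (g x).toReal with hψ
  set χ : ℝ → ℝ := fun x => (min (h x) 1).toReal with hχ
  have hfT : ∀ x, f x ≠ ⊤ := fun x => ne_top_of_le_ne_top ENNReal.one_ne_top (hf1 x)
  have hgT : ∀ x, g x ≠ ⊤ := fun x => ne_top_of_le_ne_top ENNReal.one_ne_top (hg1 x)
  have hhT : ∀ x, min (h x) 1 ≠ ⊤ :=
    fun x => ne_top_of_le_ne_top ENNReal.one_ne_top (min_le_right _ _)
  have hφm : Measurable φ := hf.ennreal_toReal
  have hψm : Measurable ψ := hg.ennreal_toReal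
  have hχm : Measurable χ := (hh.min measurable_const).ennreal_toReal
  have hφ0 : ∀ x, 0 ≤ φ x := fun x => ENNReal.toReal_nonneg
  have hψ0 : ∀ x, 0 ≤ ψ x := fun x => ENNReal.toReal_nonneg
  have hχ0 : ∀ x, 0 ≤ χ x := fun x => ENNReal.toReal_nonneg
  have e1 : ∫⁻ x, f x = ∫⁻ t in Ioi (0 : ℝ), volume {a | t < φ a} := by
    rw [← lintegral_eq_lintegral_meas_lt volume (Filter.Eventually.of_forall hφ0)
      hφm.aemeasurable]
    refine lintegral_congr fun x => ?_
    simp [hφ, ENNReal.ofReal_toReal (hfT x)]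
  have e2 : ∫⁻ x, g x = ∫⁻ t in Ioi (0 : ℝ), volume {a | t < ψ a} := by
    rw [← lintegral_eq_lintegral_meas_lt volume (Filter.Eventually.of_forall hψ0)
      hψm.aemeasurable]
    refine lintegral_congr fun x => ?_
    simp [hψ, ENNReal.ofReal_toReal (hgT x)]
  have e3 : ∫⁻ t in Ioi (0 : ℝ), volume {a | t < χ a} ≤ ∫⁻ x, h x := by
    rw [← lintegral_eq_lintegral_meas_lt volume (Filter.Eventually.of_forall hχ0)
      hχm.aemeasurable]
    refine lintegral_mono fun x => ?_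
    simp only [hχ, ENNReal.ofReal_toReal (hhT x)]
    exact min_le_left _ _
  have hanti : ∀ u : ℝ → ℝ, Measurable fun t : ℝ => volume {a | t < u a} := by
    intro u
    apply Antitone.measurable
    intro s t hst
    apply measure_mono
    intro a ha
    exact lt_of_le_of_lt hst ha
  have hlevel : ∀ t ∈ Ioi (0 : ℝ),
      volume {a | t < φ a} + volume {a | t < ψ a} ≤ 2 * volume {a | t < χ a} := by
    intro t ht
    have ht0 : (0 : ℝ) < t := ht
    by_cases ht1 : 1 ≤ t
    · have h1 : {a | t < φ a} = ∅ := by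
        ext a
        simp only [mem_ofPred_eq, mem_empty_iff_false, iff_false, not_lt]
        have : φ a ≤ 1 := by
          have := ENNReal.toReal_mono ENNReal.one_ne_top (hf1 a)
          simpa using this
        linarith
      have h2 : {a | t < ψ a} = ∅ := by
        ext a
        simp only [mem_ofPred_eq, mem_empty_iff_false, iff_false, not_lt]
        have : ψ a ≤ 1 := by
          have := ENNReal.toReal_mono ENNReal.one_ne_top (hg1 a)
          simpa using this
        linarith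
      simp [h1, h2]
    · push Not at ht1
      have htE : ENNReal.ofReal t < 1 := by
        rw [← ENNReal.ofReal_one]
        exact (ENNReal.ofReal_lt_ofReal_iff one_pos).2 ht1
      obtain ⟨x0, hx0⟩ := hfs _ htE
      obtain ⟨y0, hy0⟩ := hgs _ htE
      apply pl_bm_measurable (measurableSet_lt measurable_const hφm)
        (measurableSet_lt measurable_const hψm)
      · exact ⟨x0, (ENNReal.ofReal_lt_iff_lt_toReal ht0.le (hfT x0)).1 hx0⟩
      · exact ⟨y0, (ENNReal.ofReal_lt_iff_lt_toReal ht0.le (hgT y0)).1 hy0⟩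
      · intro a ha b hb
        have ha' : ENNReal.ofReal t < f a :=
          (ENNReal.ofReal_lt_iff_lt_toReal ht0.le (hfT a)).2 ha
        have hb' : ENNReal.ofReal t < g b :=
          (ENNReal.ofReal_lt_iff_lt_toReal ht0.le (hgT b)).2 hb
        have h3 : ENNReal.ofReal t < h ((a + b) / 2) := lt_of_lt_of_le (lt_min ha' hb') (H a b)
        have h4 : ENNReal.ofReal t < min (h ((a + b) / 2)) 1 := lt_min h3 htE
        exact (ENNReal.ofReal_lt_iff_lt_toReal ht0.le (hhT _)).1 h4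
  calc (∫⁻ x, f x) + ∫⁻ x, g x
      = ∫⁻ t in Ioi (0 : ℝ), (volume {a | t < φ a} + volume {a | t < ψ a}) := by
        rw [e1, e2, lintegral_add_left (hanti φ)]
    _ ≤ ∫⁻ t in Ioi (0 : ℝ), 2 * volume {a | t < χ a} :=
        setLIntegral_mono' measurableSet_Ioi hlevel
    _ = 2 * ∫⁻ t in Ioi (0 : ℝ), volume {a | t < χ a} :=
        lintegral_const_mul' _ _ (by simp)
    _ ≤ 2 * ∫⁻ x, h x := by gcongr

lemma amgm_ennreal (x y : ℝ≥0∞) : 4 * (x * y) ≤ (x + y) ^ 2 := by
  by_cases hx : x = ⊤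
  · subst hx; simp
  by_cases hy : y = ⊤
  · subst hy; simp
  lift x to ℝ≥0 using hx
  lift y to ℝ≥0 using hy
  have : (4 : ℝ) * (x * y) ≤ (x + y) ^ 2 := by nlinarith [sq_nonneg ((x : ℝ) - y)]
  exact_mod_cast this

lemma min_le_of_mul_le_sq {a b c : ℝ≥0∞} (h : a * b ≤ c ^ 2) : min a b ≤ c := by
  by_contra hcon
  push Not at hcon
  have h1 : c < a := lt_of_lt_of_le hcon (min_le_left _ _)
  have h2 : c < b := lt_of_lt_of_le hcon (min_le_right _ _)
  have h3 : c * c < a * b := ENNReal.mul_lt_mul h1 h2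
  rw [sq] at h
  exact absurd (lt_of_lt_of_le h3 h) (lt_irrefl _)

/-- One dimensional Prekopa-Leindler for bounded `f`, `g`. -/
lemma pl_bounded {f g h : ℝ → ℝ≥0∞} (hf : Measurable f) (hg : Measurable g) (hh : Measurable h)
    (hfb : (⨆ x, f x) ≠ ⊤) (hgb : (⨆ x, g x) ≠ ⊤)
    (H : ∀ x y, f x * g y ≤ h ((x + y) / 2) ^ 2) :
    (∫⁻ x, f x) * (∫⁻ x, g x) ≤ (∫⁻ x, h x) ^ 2 := by
  set F := ⨆ x, f x with hF
  set G := ⨆ x, g x with hG
  by_cases hF0 : F = 0
  · have : ∀ x, f x = 0 := fun x => by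
      have := le_iSup f x
      rw [← hF, hF0] at this
      simpa using this
    simp [this]
  by_cases hG0 : G = 0
  · have : ∀ x, g x = 0 := fun x => by
      have := le_iSup g x
      rw [← hG, hG0] at this
      simpa using this
    simp [this]
  -- the square root of `F * G`
  obtain ⟨s, hs0, hsT, hss⟩ : ∃ s : ℝ≥0∞, s ≠ 0 ∧ s ≠ ⊤ ∧ s * s = F * G := by
    refine ⟨ENNReal.ofReal (Real.sqrt (F.toReal * G.toReal)), ?_, ENNReal.ofReal_ne_top, ?_⟩
    · have h1 : 0 < F.toReal := ENNReal.toReal_pos hF0 hfb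
      have h2 : 0 < G.toReal := ENNReal.toReal_pos hG0 hgb
      have h3 : 0 < Real.sqrt (F.toReal * G.toReal) := Real.sqrt_pos.2 (mul_pos h1 h2)
      exact (ENNReal.ofReal_pos.2 h3).ne'
    · rw [← ENNReal.ofReal_mul (Real.sqrt_nonneg _),
        Real.mul_self_sqrt (mul_nonneg ENNReal.toReal_nonneg ENNReal.toReal_nonneg),
        ENNReal.ofReal_mul ENNReal.toReal_nonneg, ENNReal.ofReal_toReal hfb,
        ENNReal.ofReal_toReal hgb]
  have hFi : F⁻¹ ≠ ⊤ := ENNReal.inv_ne_top.2 hF0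
  have hGi : G⁻¹ ≠ ⊤ := ENNReal.inv_ne_top.2 hG0
  have hsi : s⁻¹ ≠ ⊤ := ENNReal.inv_ne_top.2 hs0
  have hFi0 : F⁻¹ ≠ 0 := ENNReal.inv_ne_zero.2 hfb
  have hGi0 : G⁻¹ ≠ 0 := ENNReal.inv_ne_zero.2 hgb
  have hκ : s⁻¹ * s⁻¹ = F⁻¹ * G⁻¹ := by
    rw [← ENNReal.mul_inv (Or.inr hsT) (Or.inl hsT), hss,
      ENNReal.mul_inv (Or.inr hgb) (Or.inl hfb)]
  have hfle : ∀ x, f x ≤ F := fun x => le_iSup f x
  have hgle : ∀ x, g x ≤ G := fun x => le_iSup g x
  have hn := pl_normalized (f := fun x => f x * F⁻¹) (g := fun x => g x * G⁻¹)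
    (h := fun x => h x * s⁻¹) (hf.mul_const _) (hg.mul_const _) (hh.mul_const _)
    (fun x => by
      calc f x * F⁻¹ ≤ F * F⁻¹ := by gcongr; exact hfle x
        _ = 1 := ENNReal.mul_inv_cancel hF0 hfb)
    (fun x => by
      calc g x * G⁻¹ ≤ G * G⁻¹ := by gcongr; exact hgle x
        _ = 1 := ENNReal.mul_inv_cancel hG0 hgb)
    (fun t ht => by
      have h1 : t * F < F := by
        calc t * F < 1 * F := by
              exact (ENNReal.mul_lt_mul_iff_left hF0 hfb).2 ht
          _ = F := one_mul F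
      obtain ⟨x, hx⟩ := lt_iSup_iff.1 h1
      refine ⟨x, ?_⟩
      have h2 : t * F * F⁻¹ < f x * F⁻¹ :=
        (ENNReal.mul_lt_mul_iff_left hFi0 hFi).2 hx
      rwa [mul_assoc, ENNReal.mul_inv_cancel hF0 hfb, mul_one] at h2)
    (fun t ht => by
      have h1 : t * G < G := by
        calc t * G < 1 * G := by
              exact (ENNReal.mul_lt_mul_iff_left hG0 hgb).2 ht
          _ = G := one_mul G
      obtain ⟨x, hx⟩ := lt_iSup_iff.1 h1
      refine ⟨x, ?_⟩
      have h2 : t * G * G⁻¹ < g x * G⁻¹ :=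
        (ENNReal.mul_lt_mul_iff_left hGi0 hGi).2 hx
      rwa [mul_assoc, ENNReal.mul_inv_cancel hG0 hgb, mul_one] at h2)
    (fun x y => by
      apply min_le_of_mul_le_sq
      calc f x * F⁻¹ * (g y * G⁻¹) = (f x * g y) * (F⁻¹ * G⁻¹) := by ring
        _ ≤ h ((x + y) / 2) ^ 2 * (F⁻¹ * G⁻¹) := by gcongr; exact H x y
        _ = (h ((x + y) / 2) * s⁻¹) ^ 2 := by rw [← hκ]; ring)
  rw [lintegral_mul_const _ hf, lintegral_mul_const _ hg, lintegral_mul_const _ hh] at hn
  set a := ∫⁻ x, f x with ha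
  set b := ∫⁻ x, g x with hb
  set c := ∫⁻ x, h x with hc
  have h1 : 4 * ((a * F⁻¹) * (b * G⁻¹)) ≤ (2 * (c * s⁻¹)) ^ 2 :=
    (amgm_ennreal _ _).trans (pow_le_pow_left' hn 2)
  have h2 : (2 * (c * s⁻¹)) ^ 2 = 4 * (c ^ 2 * (F⁻¹ * G⁻¹)) := by
    rw [← hκ]; ring
  have h3 : (a * F⁻¹) * (b * G⁻¹) = (a * b) * (F⁻¹ * G⁻¹) := by ring
  rw [h2, h3] at h1
  have h4 : (a * b) * (F⁻¹ * G⁻¹) ≤ c ^ 2 * (F⁻¹ * G⁻¹) :=
    (ENNReal.mul_le_mul_iff_right (by norm_num) (by norm_num)).1 h1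
  exact (ENNReal.mul_le_mul_iff_left (mul_ne_zero hFi0 hGi0)
    (ENNReal.mul_ne_top hFi hGi)).1 h4

/-- One dimensional midpoint Prekopa-Leindler. -/
lemma pl_one {f g h : ℝ → ℝ≥0∞} (hf : Measurable f) (hg : Measurable g) (hh : Measurable h)
    (H : ∀ x y, f x * g y ≤ h ((x + y) / 2) ^ 2) :
    (∫⁻ x, f x) * (∫⁻ x, g x) ≤ (∫⁻ x, h x) ^ 2 := by
  have hfN : ∀ x, f x = ⨆ N : ℕ, min (f x) (N : ℝ≥0∞) := fun x => by
    have := inf_iSup_eq (f x) (fun N : ℕ => (N : ℝ≥0∞))
    simpa [ENNReal.iSup_natCast] using this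
  have hgN : ∀ x, g x = ⨆ N : ℕ, min (g x) (N : ℝ≥0∞) := fun x => by
    have := inf_iSup_eq (g x) (fun N : ℕ => (N : ℝ≥0∞))
    simpa [ENNReal.iSup_natCast] using this
  have hmono : ∀ (u : ℝ → ℝ≥0∞), Monotone fun (N : ℕ) (x : ℝ) => min (u x) (N : ℝ≥0∞) := by
    intro u N M hNM x
    exact min_le_min le_rfl (by exact_mod_cast hNM)
  have e1 : ∫⁻ x, f x = ⨆ N : ℕ, ∫⁻ x, min (f x) (N : ℝ≥0∞) := by
    rw [← lintegral_iSup (fun N => hf.min measurable_const) (hmono f)]
    exact lintegral_congr hfN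
  have e2 : ∫⁻ x, g x = ⨆ N : ℕ, ∫⁻ x, min (g x) (N : ℝ≥0∞) := by
    rw [← lintegral_iSup (fun N => hg.min measurable_const) (hmono g)]
    exact lintegral_congr hgN
  rw [e1, e2, ENNReal.iSup_mul]
  refine iSup_le fun N => ?_
  rw [ENNReal.mul_iSup]
  refine iSup_le fun M => ?_
  refine pl_bounded (hf.min measurable_const) (hg.min measurable_const) hh ?_ ?_ ?_
  · exact ne_top_of_le_ne_top (ENNReal.natCast_ne_top N) (iSup_le fun x => min_le_right _ _)
  · exact ne_top_of_le_ne_top (ENNReal.natCast_ne_top M) (iSup_le fun x => min_le_right _ _)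
  · intro x y
    refine le_trans ?_ (H x y)
    exact mul_le_mul' (min_le_left _ _) (min_le_left _ _)

/-- Midpoint Prekopa-Leindler on `Fin n → ℝ`. -/
theorem prekopa_leindler_midpoint {n : ℕ} {f g h : (Fin n → ℝ) → ℝ≥0∞}
    (hf : Measurable f) (hg : Measurable g) (hh : Measurable h)
    (H : ∀ x y, f x * g y ≤ h ((1 / 2 : ℝ) • (x + y)) ^ 2) :
    (∫⁻ x, f x) * (∫⁻ x, g x) ≤ (∫⁻ x, h x) ^ 2 := by
  induction n with
  | zero =>
    have e : ∀ u : (Fin 0 → ℝ) → ℝ≥0∞, ∫⁻ x, u x = u 0 := by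
      intro u
      rw [Measure.volume_pi_eq_dirac (0 : Fin 0 → ℝ)]
      simp
    rw [e f, e g, e h]
    have := H 0 0
    simpa using this
  | succ n ih =>
    let e := MeasurableEquiv.piFinSuccAbove (fun _ : Fin (n + 1) => ℝ) 0
    have hmp : MeasurePreserving e.symm :=
      (volume_preserving_piFinSuccAbove (fun _ : Fin (n + 1) => ℝ) 0).symm
    have hint : ∀ u : (Fin (n + 1) → ℝ) → ℝ≥0∞, Measurable u →
        ∫⁻ x, u x = ∫⁻ s : ℝ, ∫⁻ y : Fin n → ℝ, u (e.symm (s, y)) := by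
      intro u hu
      rw [← hmp.lintegral_comp hu, Measure.volume_eq_prod]
      exact lintegral_prod (fun p => u (e.symm p)) (hu.comp e.symm.measurable).aemeasurable
    rw [hint f hf, hint g hg, hint h hh]
    have hsec : ∀ u : (Fin (n + 1) → ℝ) → ℝ≥0∞, Measurable u →
        Measurable fun s : ℝ => ∫⁻ y : Fin n → ℝ, u (e.symm (s, y)) := by
      intro u hu
      exact (hu.comp e.symm.measurable).lintegral_prod_right'
    apply pl_one (hsec f hf) (hsec g hg) (hsec h hh)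
    intro s t
    apply ih
    · exact hf.comp (e.symm.measurable.comp measurable_prodMk_left)
    · exact hg.comp (e.symm.measurable.comp measurable_prodMk_left)
    · exact hh.comp (e.symm.measurable.comp measurable_prodMk_left)
    · intro y z
      have hmid : e.symm ((s + t) / 2, (1 / 2 : ℝ) • (y + z)) =
          (1 / 2 : ℝ) • (e.symm (s, y) + e.symm (t, z)) := by
        funext i
        refine Fin.cases ?_ (fun j => ?_) i
        · simp [e, MeasurableEquiv.piFinSuccAbove]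
          ring
        · simp [e, MeasurableEquiv.piFinSuccAbove]
          ring
      rw [hmid]
      exact H _ _

/-- Midpoint Prekopa-Leindler on Euclidean space. -/

theorem pl_E {n : ℕ} {f g h : EuclideanSpace ℝ (Fin n) → ℝ≥0∞}
    (hf : Measurable f) (hg : Measurable g) (hh : Measurable h)
    (H : ∀ x y, f x * g y ≤ h ((1 / 2 : ℝ) • (x + y)) ^ 2) :
    (∫⁻ x, f x) * (∫⁻ x, g x) ≤ (∫⁻ x, h x) ^ 2 := by
  have key : ∀ u : EuclideanSpace ℝ (Fin n) → ℝ≥0∞, Measurable u →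
      ∫⁻ x, u x = ∫⁻ x : Fin n → ℝ, u (WithLp.toLp 2 x) := fun u hu =>
    ((PiLp.volume_preserving_toLp (Fin n)).lintegral_comp hu).symm
  rw [key f hf, key g hg, key h hh]
  have hm : Measurable (WithLp.toLp 2 : (Fin n → ℝ) → EuclideanSpace ℝ (Fin n)) :=
    (PiLp.volume_preserving_toLp (Fin n)).measurable
  apply prekopa_leindler_midpoint (hf.comp hm) (hg.comp hm) (hh.comp hm)
  intro x y
  have := H (WithLp.toLp 2 x) (WithLp.toLp 2 y)
  simpa using this

end Vale.Agent.Lib.P074.T
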