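import Mathlib
import Vale.Agent.Lib.P074.T.PL
import Vale.Agent.Lib.P074.T.Cells

/-!
# The finite lemma: first moments of power cells are Lipschitz in the masses.
-/

open MeasureTheory Metric Set Filter Topology
open scoped ENNReal NNReal

namespace Vale.Agent.Lib.P074.T

variable {d : ℕ} {ι : Type*} [Fintype ι]

/-- Lebesgue mass of a cell. -/
noncomputable def mass (K : Set (E d)) (y : ι → E d) (a : ι → ℝ) (i : ι) : ℝ :=
  ∫ _x in cell K y a i, (1 : ℝ)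

/-- First moment of a cell. -/
noncomputable def moment (K : Set (E d)) (y : ι → E d) (a : ι → ℝ) (i : ι) : E d :=
  ∫ x in cell K y a i, x

/-- Second moment of a cell. -/
noncomputable def smoment (K : Set (E d)) (y : ι → E d) (a : ι → ℝ) (i : ι) : ℝ :=
  ∫ x in cell K y a i, ‖x‖ ^ 2

lemma mass_eq (K : Set (E d)) (y : ι → E d) (a : ι → ℝ) (i : ι) :
    mass K y a i = (volume (cell K y a i)).toReal := by
  simp [mass, Measure.real]

/-- Norm of the first moment. -/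
lemma norm_moment_le {K : Set (E d)} (hK : IsCompact K) {L : ℝ} (hL : ∀ x ∈ K, ‖x‖ ≤ L)
    (y : ι → E d) (a : ι → ℝ) (i : ι) : ‖moment K y a i‖ ≤ L * mass K y a i := by
  have hfin : volume (cell K y a i) < ∞ :=
    (measure_mono (cell_subset K y a i)).trans_lt hK.measure_lt_top
  have := norm_setIntegral_le_of_norm_le_const (μ := volume) (s := cell K y a i)
    (f := fun x : E d => x) (C := L) hfin (fun x hx => hL x (cell_subset K y a i hx))
  rw [mass_eq]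
  simpa [moment, Measure.real] using this

/-- Prekopa-Leindler for continuous nonnegative densities on bounded measurable sets. -/
theorem pl_sets {A B C : Set (E d)} (hA : MeasurableSet A) (hB : MeasurableSet B)
    (hC : MeasurableSet C) (hAb : Bornology.IsBounded A) (hBb : Bornology.IsBounded B)
    (hCb : Bornology.IsBounded C) {a b c : E d → ℝ} (ha : Continuous a) (hb : Continuous b)
    (hc : Continuous c) (ha0 : ∀ x ∈ A, 0 ≤ a x) (hb0 : ∀ x ∈ B, 0 ≤ b x) (hc0 : ∀ x ∈ C, 0 ≤ c x)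
    (hmid : ∀ x ∈ A, ∀ x' ∈ B, (1 / 2 : ℝ) • (x + x') ∈ C ∧
      a x * b x' ≤ c ((1 / 2 : ℝ) • (x + x')) ^ 2) :
    (∫ x in A, a x) * (∫ x in B, b x) ≤ (∫ x in C, c x) ^ 2 := by
  classical
  -- the three functions
  set f : E d → ℝ≥0∞ := A.indicator fun x => ENNReal.ofReal (a x) with hf
  set g : E d → ℝ≥0∞ := B.indicator fun x => ENNReal.ofReal (b x) with hg
  set h : E d → ℝ≥0∞ := C.indicator fun x => ENNReal.ofReal (c x) with hh
  have hfm : Measurable f := (ENNReal.measurable_ofReal.comp ha.measurable).indicator hA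
  have hgm : Measurable g := (ENNReal.measurable_ofReal.comp hb.measurable).indicator hB
  have hhm : Measurable h := (ENNReal.measurable_ofReal.comp hc.measurable).indicator hC
  have hPL := pl_E hfm hgm hhm (by
    intro x y
    by_cases hx : x ∈ A
    · by_cases hy : y ∈ B
      · obtain ⟨hm, hle⟩ := hmid x hx y hy
        simp only [hf, hg, hh, indicator_of_mem hx, indicator_of_mem hy, indicator_of_mem hm]
        rw [← ENNReal.ofReal_mul (ha0 x hx), ← ENNReal.ofReal_pow (hc0 _ hm)]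
        exact ENNReal.ofReal_le_ofReal hle
      · simp [hg, hy]
    · simp [hf, hx])
  -- convert the integrals
  have hconv : ∀ {D : Set (E d)} {u : E d → ℝ}, MeasurableSet D → Bornology.IsBounded D →
      Continuous u → (∀ x ∈ D, 0 ≤ u x) →
      ∫⁻ x, D.indicator (fun x => ENNReal.ofReal (u x)) x = ENNReal.ofReal (∫ x in D, u x) := by
    intro D u hD hDb hu hu0
    rw [lintegral_indicator hD]
    have hint : IntegrableOn u D := by
      have hcl : IsCompact (closure D) := hDb.isCompact_closure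
      exact (hu.continuousOn.integrableOn_compact hcl).mono_set subset_closure
    rw [ofReal_integral_eq_lintegral_ofReal hint]
    filter_upwards [ae_restrict_mem hD] with x hx using hu0 x hx
  rw [hconv hA hAb ha ha0, hconv hB hBb hb hb0, hconv hC hCb hc hc0] at hPL
  have h1 : 0 ≤ ∫ x in A, a x := setIntegral_nonneg hA ha0
  have h2 : 0 ≤ ∫ x in B, b x := setIntegral_nonneg hB hb0
  have h3 : 0 ≤ ∫ x in C, c x := setIntegral_nonneg hC hc0
  rw [← ENNReal.ofReal_mul h1, ← ENNReal.ofReal_pow h3] at hPL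
  exact (ENNReal.ofReal_le_ofReal_iff (by positivity)).1 hPL

/-- The reversed Cauchy-Schwarz inequality on the Lorentz cone, in the form needed for
Prekopa-Leindler. -/
theorem lorentz_ineq {E : Type*} [NormedAddCommGroup E] [InnerProductSpace ℝ E] {p p' : ℝ}
    {u u' : E} (hp : 0 < p) (hp' : 0 < p') (hu : ‖u‖ ≤ p) (hu' : ‖u'‖ ≤ p') :
    (p ^ 2 - ‖u‖ ^ 2) * (p' ^ 2 - ‖u'‖ ^ 2) ≤ (((p + p') ^ 2 - ‖u + u'‖ ^ 2) / 4) ^ 2 := by
  set A : ℝ := p ^ 2 - ‖u‖ ^ 2 with hA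
  set B : ℝ := p' ^ 2 - ‖u'‖ ^ 2 with hB
  set g : ℝ := inner ℝ u u' with hg
  set Λ : ℝ := p * p' - g with hΛ
  have hA0 : 0 ≤ A := by
    have := pow_le_pow_left₀ (norm_nonneg u) hu 2
    linarith
  have hB0 : 0 ≤ B := by
    have := pow_le_pow_left₀ (norm_nonneg u') hu' 2
    linarith
  have hgle : g ≤ ‖u‖ * ‖u'‖ := real_inner_le_norm u u'
  have hΛ0 : 0 ≤ Λ := by
    have : ‖u‖ * ‖u'‖ ≤ p * p' := mul_le_mul hu hu' (norm_nonneg _) hp.le
    simp only [hΛ]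
    linarith
  have hsum : ‖u + u'‖ ^ 2 = ‖u‖ ^ 2 + 2 * g + ‖u'‖ ^ 2 := norm_add_sq_real u u'
  have h4 : (p + p') ^ 2 - ‖u + u'‖ ^ 2 = A + B + 2 * Λ := by
    rw [hsum]
    simp only [hA, hB, hΛ]
    ring
  -- the quadratic at t = p'/p
  have hq : 0 ≤ ‖p' • u - p • u'‖ ^ 2 := by positivity
  have hq' : ‖p' • u - p • u'‖ ^ 2 = p' ^ 2 * ‖u‖ ^ 2 - 2 * (p' * p) * g + p ^ 2 * ‖u'‖ ^ 2 := by
    rw [norm_sub_sq_real, norm_smul, norm_smul, real_inner_smul_left, real_inner_smul_right,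
      Real.norm_eq_abs, Real.norm_eq_abs, abs_of_pos hp, abs_of_pos hp']
    ring
  -- A p'^2 + B p^2 ≤ 2 Λ p p'
  have hkey : A * p' ^ 2 + B * p ^ 2 ≤ 2 * Λ * (p * p') := by
    simp only [hA, hB, hΛ]
    nlinarith [hq, hq']
  have hkey0 : 0 ≤ A * p' ^ 2 + B * p ^ 2 := by positivity
  have hpp : 0 < (p * p') ^ 2 := by positivity
  have hΛ2 : A * B ≤ Λ ^ 2 := by
    have h1 : (A * p' ^ 2 + B * p ^ 2) ^ 2 ≤ (2 * Λ * (p * p')) ^ 2 :=
      pow_le_pow_left₀ hkey0 hkey 2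
    have h2 : 4 * (A * B) * (p * p') ^ 2 ≤ (A * p' ^ 2 + B * p ^ 2) ^ 2 := by
      nlinarith [sq_nonneg (A * p' ^ 2 - B * p ^ 2)]
    have h3 : 4 * (A * B) * (p * p') ^ 2 ≤ 4 * Λ ^ 2 * (p * p') ^ 2 := by
      calc _ ≤ _ := h2
        _ ≤ _ := h1
        _ = _ := by ring
    have h5 : 4 * (A * B) ≤ 4 * Λ ^ 2 := le_of_mul_le_mul_right h3 hpp
    linarith
  have hAB : 2 * (A * B) ≤ (A + B) * Λ := by
    by_contra hcon
    push Not at hcon
    have h0 : 0 ≤ (A + B) * Λ := by positivity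
    have h1 : ((A + B) * Λ) ^ 2 < (2 * (A * B)) ^ 2 := pow_lt_pow_left₀ hcon h0 (by norm_num)
    have h2 : 4 * (A * B) * (A * B) ≤ (A + B) ^ 2 * Λ ^ 2 := by
      have h6 : 4 * (A * B) ≤ (A + B) ^ 2 := by nlinarith [sq_nonneg (A - B)]
      have h7 : 0 ≤ A * B := by positivity
      calc 4 * (A * B) * (A * B) ≤ (A + B) ^ 2 * (A * B) := mul_le_mul_of_nonneg_right h6 h7
        _ ≤ (A + B) ^ 2 * Λ ^ 2 := mul_le_mul_of_nonneg_left hΛ2 (by positivity)
    nlinarith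
  rw [h4]
  have hfin : 16 * (A * B) ≤ (A + B + 2 * Λ) ^ 2 := by
    nlinarith [sq_nonneg (A - B)]
  calc A * B = 16 * (A * B) / 16 := by ring
    _ ≤ (A + B + 2 * Λ) ^ 2 / 16 := by linarith
    _ = ((A + B + 2 * Λ) / 4) ^ 2 := by ring

/-- Lorentz cone inequality: for `p, p' ≥ 0` with `|u| ≤ p`, `|u'| ≤ p'`, the Lorentz form at the
midpoint dominates the geometric mean of the Lorentz forms. -/
lemma lorentz_mid {p p' : ℝ} {u u' : E d} (hu : ‖u‖ ≤ p) (hu' : ‖u'‖ ≤ p') :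
    (p ^ 2 - ‖u‖ ^ 2) * (p' ^ 2 - ‖u'‖ ^ 2) ≤
      (((p + p') / 2) ^ 2 - ‖(1 / 2 : ℝ) • (u + u')‖ ^ 2) ^ 2 := by
  have e : ((p + p') / 2) ^ 2 - ‖(1 / 2 : ℝ) • (u + u')‖ ^ 2 = ((p + p') ^ 2 - ‖u + u'‖ ^ 2) / 4 := by
    rw [norm_smul, mul_pow]
    norm_num
    ring
  rw [e]
  have hp0 : 0 ≤ p := (norm_nonneg _).trans hu
  have hp0' : 0 ≤ p' := (norm_nonneg _).trans hu'
  rcases hp0.eq_or_lt with h | hp
  · subst h
    have : ‖u‖ = 0 := le_antisymm hu (norm_nonneg _)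
    rw [this]
    simp only [ne_eq, OfNat.ofNat_ne_zero, not_false_eq_true, zero_pow, sub_self, zero_mul]
    positivity
  rcases hp0'.eq_or_lt with h | hp'
  · subst h
    have : ‖u'‖ = 0 := le_antisymm hu' (norm_nonneg _)
    rw [this]
    simp only [ne_eq, OfNat.ofNat_ne_zero, not_false_eq_true, zero_pow, sub_self, mul_zero]
    positivity
  exact lorentz_ineq hp hp' hu hu'

/-- Integral of the quadratic density over a compact set. -/
theorem integral_quad {A : Set (E d)} (hA : IsCompact A) (p : ℝ) (b : E d) :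
    ∫ x in A, (p ^ 2 - ‖x - b‖ ^ 2) =
      p ^ 2 * (volume A).toReal - (∫ x in A, ‖x‖ ^ 2) + 2 * inner ℝ b (∫ x in A, x)
        - ‖b‖ ^ 2 * (volume A).toReal := by
  have hfin : volume A ≠ ∞ := hA.measure_lt_top.ne
  have hIx : IntegrableOn (fun x : E d => x) A :=
    continuous_id.continuousOn.integrableOn_compact hA
  have hIn : IntegrableOn (fun x : E d => ‖x‖ ^ 2) A :=
    (continuous_norm.pow 2).continuousOn.integrableOn_compact hA
  have hIc : ∀ c : ℝ, IntegrableOn (fun _ : E d => c) A := fun c =>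
    continuousOn_const.integrableOn_compact hA
  have hIi : IntegrableOn (fun x : E d => inner ℝ b x) A :=
    (continuous_const.inner continuous_id).continuousOn.integrableOn_compact hA
  have hpt : ∀ x : E d, p ^ 2 - ‖x - b‖ ^ 2 =
      (p ^ 2 - ‖b‖ ^ 2) - ‖x‖ ^ 2 + 2 * inner ℝ b x := by
    intro x
    rw [norm_sub_sq_real, real_inner_comm]
    ring
  simp_rw [hpt]
  have h1 : IntegrableOn (fun x : E d => (p ^ 2 - ‖b‖ ^ 2) - ‖x‖ ^ 2) A := (hIc _).sub hIn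
  have h2 : IntegrableOn (fun x : E d => 2 * inner ℝ b x) A := hIi.const_mul 2
  rw [integral_add h1 h2, integral_sub (hIc _) hIn,
    integral_const_mul, setIntegral_const, integral_inner hIx b]
  simp only [smul_eq_mul, Measure.real]
  ring

/-- The root of the balance equation. -/
theorem theta_root {L mA mB SA SB ia ib b2 : ℝ} (hL0 : 0 < L) (hmA0 : 0 ≤ mA) (hmB0 : 0 ≤ mB)
    (hsmall : |mA - mB| ≤ (mA + mB) / 4) (hpos : 0 < mA + mB) (hSA0 : 0 ≤ SA)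
    (hSA1 : SA ≤ L ^ 2 * mA) (hSB0 : 0 ≤ SB) (hSB1 : SB ≤ L ^ 2 * mB)
    (hia : |ia| ≤ L * (L * mA)) (hib : |ib| ≤ L * (L * mB)) (hb0 : 0 ≤ b2) (hb1 : b2 ≤ L ^ 2) :
    ∃ τ : ℝ, -L ≤ τ ∧ τ ≤ L ∧
      ((4 * L + τ) ^ 2 * mA - SA + 2 * ia - b2 * mA) -
        ((4 * L - τ) ^ 2 * mB - SB - 2 * ib - b2 * mB) = 0 := by
  set s : ℝ := 4 * L with hs
  set Θ : ℝ → ℝ := fun τ =>
    ((s + τ) ^ 2 * mA - SA + 2 * ia - b2 * mA) -
      ((s - τ) ^ 2 * mB - SB - 2 * ib - b2 * mB) with hΘ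
  have hΘc : Continuous Θ := by
    simp only [hΘ]
    fun_prop
  have hΘexp : ∀ τ, Θ τ = (s ^ 2 + τ ^ 2 - b2) * (mA - mB) + 2 * s * τ * (mA + mB) +
      2 * (ia + ib) - (SA - SB) := by
    intro τ
    simp only [hΘ]
    ring
  have hss : s ^ 2 = 16 * L ^ 2 := by rw [hs]; ring
  have hLL : 0 < L ^ 2 := by positivity
  obtain ⟨hi1, hi2⟩ := abs_le.1 hia
  obtain ⟨hj1, hj2⟩ := abs_le.1 hib
  have e2 : L * (L * mA) = L ^ 2 * mA := by ring
  have e3 : L * (L * mB) = L ^ 2 * mB := by ring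
  rw [e2] at hi1 hi2
  rw [e3] at hj1 hj2
  have hbigterm : ∀ τ : ℝ, τ ^ 2 = L ^ 2 →
      |(s ^ 2 + τ ^ 2 - b2) * (mA - mB)| ≤ 17 * L ^ 2 * ((mA + mB) / 4) := by
    intro τ hτ
    have h1 : 0 ≤ s ^ 2 + τ ^ 2 - b2 := by rw [hss, hτ]; linarith
    have h2 : s ^ 2 + τ ^ 2 - b2 ≤ 17 * L ^ 2 := by rw [hss, hτ]; linarith
    rw [abs_mul, abs_of_nonneg h1]
    exact mul_le_mul h2 hsmall (abs_nonneg _) (by positivity)
  have hmA2 : 0 ≤ L ^ 2 * mA := by positivity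
  have hmB2 : 0 ≤ L ^ 2 * mB := by positivity
  have hSL : 0 < L ^ 2 * (mA + mB) := by positivity
  have e4 : L ^ 2 * (mA + mB) = L ^ 2 * mA + L ^ 2 * mB := by ring
  have e5 : 17 * L ^ 2 * ((mA + mB) / 4) = 17 / 4 * (L ^ 2 * (mA + mB)) := by ring
  have hpos1 : 0 ≤ Θ L := by
    rw [hΘexp]
    have h := abs_le.1 (hbigterm L rfl)
    have e1 : 2 * s * L * (mA + mB) = 8 * (L ^ 2 * (mA + mB)) := by rw [hs]; ring
    rw [e1]
    rw [e5] at h
    linarith [h.1]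
  have hneg1 : Θ (-L) ≤ 0 := by
    rw [hΘexp]
    have h := abs_le.1 (hbigterm (-L) (by ring))
    have e1 : 2 * s * (-L) * (mA + mB) = - (8 * (L ^ 2 * (mA + mB))) := by rw [hs]; ring
    rw [e1]
    rw [e5] at h
    linarith [h.2]
  obtain ⟨τ, hτmem, hτ⟩ : ∃ τ ∈ Icc (-L) L, Θ τ = 0 :=
    intermediate_value_Icc (by linarith) hΘc.continuousOn ⟨hneg1, hpos1⟩
  exact ⟨τ, hτmem.1, hτmem.2, hτ⟩

/-- Prekopa-Leindler for the quadratic densities. -/
theorem quad_pl {K A B C : Set (E d)} {L : ℝ} (hL0 : 0 < L) (hL : ∀ x ∈ K, ‖x‖ ≤ L)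
    (hA : IsCompact A) (hB : IsCompact B) (hC : IsCompact C) (hAK : A ⊆ K) (hBK : B ⊆ K)
    (hCK : C ⊆ K) (hmid : ∀ x ∈ A, ∀ x' ∈ B, (1 / 2 : ℝ) • (x + x') ∈ C) {β : E d}
    (hβ : ‖β‖ ≤ L) {τ : ℝ} (hτ1 : -L ≤ τ) (hτ2 : τ ≤ L) :
    0 ≤ (∫ x in A, ((4 * L + τ) ^ 2 - ‖x - β‖ ^ 2)) ∧
    0 ≤ (∫ x in C, ((4 * L) ^ 2 - ‖x‖ ^ 2)) ∧
    (∫ x in A, ((4 * L + τ) ^ 2 - ‖x - β‖ ^ 2)) * (∫ x in B, ((4 * L - τ) ^ 2 - ‖x - (-β)‖ ^ 2)) ≤
      (∫ x in C, ((4 * L) ^ 2 - ‖x‖ ^ 2)) ^ 2 := by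
  set s : ℝ := 4 * L with hs
  set a : E d → ℝ := fun x => (s + τ) ^ 2 - ‖x - β‖ ^ 2 with ha
  set b : E d → ℝ := fun x => (s - τ) ^ 2 - ‖x - (-β)‖ ^ 2 with hb
  set c : E d → ℝ := fun x => s ^ 2 - ‖x‖ ^ 2 with hc
  have hac : Continuous a := by simp only [ha]; fun_prop
  have hbc : Continuous b := by simp only [hb]; fun_prop
  have hcc : Continuous c := by simp only [hc]; fun_prop
  have hp : 0 < s + τ := by rw [hs]; linarith
  have hp' : 0 < s - τ := by rw [hs]; linarith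
  have hnA : ∀ x ∈ A, ‖x - β‖ ≤ s + τ := by
    intro x hx
    have h1 := hL x (hAK hx)
    have h2 := norm_sub_le x β
    rw [hs]
    linarith
  have hnB : ∀ x ∈ B, ‖x - (-β)‖ ≤ s - τ := by
    intro x hx
    have h1 := hL x (hBK hx)
    have h2 := norm_sub_le x (-β)
    rw [norm_neg] at h2
    rw [hs]
    linarith
  have ha0 : ∀ x ∈ A, 0 ≤ a x := by
    intro x hx
    have := pow_le_pow_left₀ (norm_nonneg _) (hnA x hx) 2
    simp only [ha]
    linarith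
  have hb0 : ∀ x ∈ B, 0 ≤ b x := by
    intro x hx
    have := pow_le_pow_left₀ (norm_nonneg _) (hnB x hx) 2
    simp only [hb]
    linarith
  have hc0 : ∀ x ∈ C, 0 ≤ c x := by
    intro x hx
    have h1 := hL x (hCK hx)
    have h3 : ‖x‖ ≤ s := by rw [hs]; linarith
    have := pow_le_pow_left₀ (norm_nonneg _) h3 2
    simp only [hc]
    linarith
  refine ⟨setIntegral_nonneg hA.measurableSet ha0, setIntegral_nonneg hC.measurableSet hc0, ?_⟩
  refine pl_sets hA.measurableSet hB.measurableSet hC.measurableSet hA.isBounded hB.isBounded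
    hC.isBounded hac hbc hcc ha0 hb0 hc0 ?_
  intro x hx x' hx'
  refine ⟨hmid x hx x' hx', ?_⟩
  have h := lorentz_ineq hp hp' (hnA x hx) (hnB x' hx')
  have e2 : x - β + (x' - -β) = x + x' := by abel
  have e1 : (s + τ + (s - τ)) ^ 2 - ‖x - β + (x' - -β)‖ ^ 2 =
      4 * (s ^ 2 - ‖(1 / 2 : ℝ) • (x + x')‖ ^ 2) := by
    rw [e2, norm_smul, mul_pow]
    norm_num
    ring
  rw [e1] at h
  have e3 : (4 * (s ^ 2 - ‖(1 / 2 : ℝ) • (x + x')‖ ^ 2)) / 4 =
      s ^ 2 - ‖(1 / 2 : ℝ) • (x + x')‖ ^ 2 := by ring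
  rw [e3] at h
  exact h

/-- The inequality for one cell. Compact sets `A`, `B`, `C` in `K` with the midpoint of `A` and `B`
in `C`; `β` is an arbitrary vector of norm at most `L`. -/
theorem cell_ineq {K A B C : Set (E d)} {L : ℝ} (hL0 : 0 < L) (hL : ∀ x ∈ K, ‖x‖ ≤ L)
    (hA : IsCompact A) (hB : IsCompact B) (hC : IsCompact C) (hAK : A ⊆ K) (hBK : B ⊆ K)
    (hCK : C ⊆ K) (hmid : ∀ x ∈ A, ∀ x' ∈ B, (1 / 2 : ℝ) • (x + x') ∈ C)
    {mA mB SA SB : ℝ} {MA MB β : E d} (hmA : mA = (volume A).toReal) (hmB : mB = (volume B).toReal)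
    (hMA : MA = ∫ x in A, x) (hMB : MB = ∫ x in B, x)
    (hSA : SA = ∫ x in A, ‖x‖ ^ 2) (hSB : SB = ∫ x in B, ‖x‖ ^ 2)
    (hsmall : |mA - mB| ≤ (mA + mB) / 4) (hpos : 0 < mA + mB) (hβ : ‖β‖ ≤ L) :
    ∃ τ : ℝ,
      ((4 * L) ^ 2 + τ ^ 2 - ‖β‖ ^ 2) * ((mA + mB) / 2) + (4 * L) * τ * (mA - mB) +
        inner ℝ β (MA - MB) - (SA + SB) / 2 ≤ ∫ x in C, ((4 * L) ^ 2 - ‖x‖ ^ 2) := by
  have hmA0 : 0 ≤ mA := by rw [hmA]; exact ENNReal.toReal_nonneg
  have hmB0 : 0 ≤ mB := by rw [hmB]; exact ENNReal.toReal_nonneg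
  have hnorm : ∀ {D : Set (E d)}, IsCompact D → D ⊆ K →
      ‖∫ x in D, x‖ ≤ L * (volume D).toReal := by
    intro D hD hDK
    have := norm_setIntegral_le_of_norm_le_const (μ := volume) (s := D) (f := fun x : E d => x)
      (C := L) hD.measure_lt_top (fun x hx => hL x (hDK hx))
    simpa [Measure.real] using this
  have hnormA : ‖MA‖ ≤ L * mA := by rw [hMA, hmA]; exact hnorm hA hAK
  have hnormB : ‖MB‖ ≤ L * mB := by rw [hMB, hmB]; exact hnorm hB hBK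
  have hSbound : ∀ {D : Set (E d)}, IsCompact D → D ⊆ K →
      0 ≤ ∫ x in D, ‖x‖ ^ 2 ∧ ∫ x in D, ‖x‖ ^ 2 ≤ L ^ 2 * (volume D).toReal := by
    intro D hD hDK
    refine ⟨integral_nonneg fun x => by positivity, ?_⟩
    have h := norm_setIntegral_le_of_norm_le_const (μ := volume) (s := D)
      (f := fun x : E d => ‖x‖ ^ 2) (C := L ^ 2) hD.measure_lt_top
      (fun x hx => by
        rw [Real.norm_of_nonneg (by positivity)]
        exact pow_le_pow_left₀ (norm_nonneg _) (hL x (hDK hx)) 2)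
    have h2 := (le_abs_self _).trans h
    simpa [Measure.real] using h2
  obtain ⟨hSA0, hSA1⟩ := hSbound hA hAK
  obtain ⟨hSB0, hSB1⟩ := hSbound hB hBK
  rw [← hSA] at hSA0 hSA1
  rw [← hSB] at hSB0 hSB1
  rw [← hmA] at hSA1
  rw [← hmB] at hSB1
  have hb1 : |inner ℝ β MA| ≤ L * (L * mA) :=
    (abs_real_inner_le_norm β MA).trans (mul_le_mul hβ hnormA (norm_nonneg _) hL0.le)
  have hb2 : |inner ℝ β MB| ≤ L * (L * mB) :=
    (abs_real_inner_le_norm β MB).trans (mul_le_mul hβ hnormB (norm_nonneg _) hL0.le)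
  have hβ2 : ‖β‖ ^ 2 ≤ L ^ 2 := pow_le_pow_left₀ (norm_nonneg _) hβ 2
  obtain ⟨τ, hτ1, hτ2, hτ⟩ := theta_root hL0 hmA0 hmB0 hsmall hpos hSA0 hSA1 hSB0 hSB1 hb1 hb2
    (by positivity) hβ2
  refine ⟨τ, ?_⟩
  obtain ⟨hIa0, hIc0, hPL⟩ := quad_pl hL0 hL hA hB hC hAK hBK hCK hmid hβ hτ1 hτ2
  have hIa : ∫ x in A, ((4 * L + τ) ^ 2 - ‖x - β‖ ^ 2) =
      (4 * L + τ) ^ 2 * mA - SA + 2 * inner ℝ β MA - ‖β‖ ^ 2 * mA := by
    rw [integral_quad hA, hMA, hSA, hmA]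
  have hIb : ∫ x in B, ((4 * L - τ) ^ 2 - ‖x - (-β)‖ ^ 2) =
      (4 * L - τ) ^ 2 * mB - SB - 2 * inner ℝ β MB - ‖β‖ ^ 2 * mB := by
    rw [integral_quad hB, norm_neg, inner_neg_left, hMB, hSB, hmB]
    ring
  rw [hIb, hIa] at hPL
  rw [hIa] at hIa0
  set I1 : ℝ := (4 * L + τ) ^ 2 * mA - SA + 2 * inner ℝ β MA - ‖β‖ ^ 2 * mA with hI1
  set I2 : ℝ := (4 * L - τ) ^ 2 * mB - SB - 2 * inner ℝ β MB - ‖β‖ ^ 2 * mB with hI2
  have hEq : I1 = I2 := by linarith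
  have hle : I1 ≤ ∫ x in C, ((4 * L) ^ 2 - ‖x‖ ^ 2) := by
    rw [← hEq] at hPL
    nlinarith [hPL]
  have hmean : ((4 * L) ^ 2 + τ ^ 2 - ‖β‖ ^ 2) * ((mA + mB) / 2) + (4 * L) * τ * (mA - mB) +
      inner ℝ β (MA - MB) - (SA + SB) / 2 = (I1 + I2) / 2 := by
    rw [inner_sub_right, hI1, hI2]
    ring
  rw [hmean, ← hEq]
  linarith

/-- The Finite Lemma. Two weight vectors on the same injective sites: with `mbar` the mean mass,
`∑ ‖ΔM‖²/mbar ≤ (4L)² ∑ (Δm)²/mbar`, provided `|Δm| ≤ mbar/2`. -/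
theorem finite_lemma [Nonempty ι] {K : Set (E d)} (hK : IsCompact K) (hconv : Convex ℝ K)
    {L : ℝ} (hL0 : 0 < L) (hL : ∀ x ∈ K, ‖x‖ ≤ L) {y : ι → E d}
    (hy : Function.Injective y) (w₁ w₂ : ι → ℝ)
    (hsmall : ∀ i, |mass K y w₁ i - mass K y w₂ i| ≤ (mass K y w₁ i + mass K y w₂ i) / 4) :
    ∑ i, ‖moment K y w₁ i - moment K y w₂ i‖ ^ 2 / ((mass K y w₁ i + mass K y w₂ i) / 2) ≤
      (4 * L) ^ 2 *
        ∑ i, (mass K y w₁ i - mass K y w₂ i) ^ 2 / ((mass K y w₁ i + mass K y w₂ i) / 2) := by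
  set s : ℝ := 4 * L with hs
  set w₀ : ι → ℝ := fun j => (w₁ j + w₂ j) / 2 with hw₀
  have hcomp : ∀ w : ι → ℝ, ∀ i, IsCompact (cell K y w i) := fun w i =>
    hK.of_isClosed_subset (isClosed_cell hK.isClosed y w i) (cell_subset K y w i)
  have hKfin : volume K ≠ ∞ := hK.measure_lt_top.ne
  -- the inequality for each index
  have hQ : ∀ i,
      s ^ 2 * ((mass K y w₁ i + mass K y w₂ i) / 2) - (smoment K y w₁ i + smoment K y w₂ i) / 2 +
        ‖moment K y w₁ i - moment K y w₂ i‖ ^ 2 / (4 * ((mass K y w₁ i + mass K y w₂ i) / 2)) -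
        s ^ 2 * (mass K y w₁ i - mass K y w₂ i) ^ 2 /
          (4 * ((mass K y w₁ i + mass K y w₂ i) / 2)) ≤
        ∫ x in cell K y w₀ i, (s ^ 2 - ‖x‖ ^ 2) := by
    intro i
    set m₁ := mass K y w₁ i with hm₁
    set m₂ := mass K y w₂ i with hm₂
    set D := moment K y w₁ i - moment K y w₂ i with hD
    have hm₁0 : 0 ≤ m₁ := by rw [hm₁, mass_eq]; exact ENNReal.toReal_nonneg
    have hm₂0 : 0 ≤ m₂ := by rw [hm₂, mass_eq]; exact ENNReal.toReal_nonneg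
    have hC0 : 0 ≤ ∫ x in cell K y w₀ i, (s ^ 2 - ‖x‖ ^ 2) := by
      apply setIntegral_nonneg (hcomp w₀ i).measurableSet
      intro x hx
      have h1 := hL x (cell_subset K y w₀ i hx)
      have h3 : ‖x‖ ≤ s := by rw [hs]; linarith
      have := pow_le_pow_left₀ (norm_nonneg _) h3 2
      linarith
    rcases (add_nonneg hm₁0 hm₂0).eq_or_lt with h0 | hpos
    · -- both cells are null
      have h1 : m₁ = 0 := by linarith
      have h2 : m₂ = 0 := by linarith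
      have hnull : ∀ w : ι → ℝ, mass K y w i = 0 → smoment K y w i = 0 := by
        intro w hw
        have hv : volume (cell K y w i) = 0 := by
          rw [mass_eq] at hw
          have := (ENNReal.toReal_eq_zero_iff _).1 hw
          rcases this with h | h
          · exact h
          · exact absurd h (hcomp w i).measure_lt_top.ne
        unfold smoment
        exact setIntegral_measure_zero _ hv
      rw [hnull w₁ h1, hnull w₂ h2, h1, h2]
      simpa using hC0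
    · have hmbar : 0 < (m₁ + m₂) / 2 := by linarith
      set mbar := (m₁ + m₂) / 2 with hmbardef
      set β : E d := (1 / (2 * mbar)) • D with hβ
      have hnorm₁ := norm_moment_le hK hL y w₁ i
      have hnorm₂ := norm_moment_le hK hL y w₂ i
      have hDn : ‖D‖ ≤ L * (m₁ + m₂) := by
        calc ‖D‖ ≤ ‖moment K y w₁ i‖ + ‖moment K y w₂ i‖ := norm_sub_le _ _
          _ ≤ L * m₁ + L * m₂ := add_le_add hnorm₁ hnorm₂
          _ = _ := by ring
      have hβn : ‖β‖ = ‖D‖ / (2 * mbar) := by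
        rw [hβ, norm_smul, Real.norm_eq_abs, abs_of_pos (by positivity)]
        ring
      have hβL : ‖β‖ ≤ L := by
        rw [hβn, div_le_iff₀ (by positivity)]
        calc ‖D‖ ≤ L * (m₁ + m₂) := hDn
          _ = L * (2 * mbar) := by rw [hmbardef]; ring
      obtain ⟨τ, hτ⟩ := cell_ineq hL0 hL (hcomp w₁ i) (hcomp w₂ i) (hcomp w₀ i)
        (cell_subset K y w₁ i) (cell_subset K y w₂ i) (cell_subset K y w₀ i)
        (fun x hx x' hx' => midpoint_mem_cell hconv hx hx')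
        (mA := m₁) (mB := m₂) (SA := smoment K y w₁ i) (SB := smoment K y w₂ i)
        (MA := moment K y w₁ i) (MB := moment K y w₂ i) (β := β) (mass_eq K y w₁ i) (mass_eq K y w₂ i)
        rfl rfl rfl rfl (hsmall i) hpos hβL
      rw [← hs, ← hD, ← hmbardef] at hτ
      have hinn : inner ℝ β D = ‖D‖ ^ 2 / (2 * mbar) := by
        rw [hβ, real_inner_smul_left, real_inner_self_eq_norm_sq]
        ring
      have hβ2 : ‖β‖ ^ 2 = ‖D‖ ^ 2 / (4 * mbar ^ 2) := by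
        rw [hβn, div_pow]
        ring
      rw [hinn, hβ2] at hτ
      have hsq : 0 ≤ mbar * (τ + s * (m₁ - m₂) / (2 * mbar)) ^ 2 := by positivity
      have hexp : mbar * (τ + s * (m₁ - m₂) / (2 * mbar)) ^ 2 =
          τ ^ 2 * mbar + s * τ * (m₁ - m₂) + s ^ 2 * (m₁ - m₂) ^ 2 / (4 * mbar) := by
        field_simp
        ring
      have hexp2 : (s ^ 2 + τ ^ 2 - ‖D‖ ^ 2 / (4 * mbar ^ 2)) * mbar + s * τ * (m₁ - m₂) +
          ‖D‖ ^ 2 / (2 * mbar) = s ^ 2 * mbar + (τ ^ 2 * mbar + s * τ * (m₁ - m₂)) +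
            ‖D‖ ^ 2 / (4 * mbar) := by
        field_simp
        ring
      have : s ^ 2 * mbar - (smoment K y w₁ i + smoment K y w₂ i) / 2 + ‖D‖ ^ 2 / (4 * mbar) -
          s ^ 2 * (m₁ - m₂) ^ 2 / (4 * mbar) ≤ ∫ x in cell K y w₀ i, (s ^ 2 - ‖x‖ ^ 2) := by
        rw [hexp] at hsq
        rw [hexp2] at hτ
        linarith
      exact this
  -- sum over the indices
  have hsumQ := Finset.sum_le_sum (fun i (_ : i ∈ Finset.univ) => hQ i)
  have hIn : IntegrableOn (fun x : E d => ‖x‖ ^ 2) K :=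
    (continuous_norm.pow 2).continuousOn.integrableOn_compact hK
  have hIc : IntegrableOn (fun x : E d => s ^ 2 - ‖x‖ ^ 2) K :=
    (continuous_const.sub (continuous_norm.pow 2)).continuousOn.integrableOn_compact hK
  have hR : ∑ i, ∫ x in cell K y w₀ i, (s ^ 2 - ‖x‖ ^ 2) = ∫ x in K, (s ^ 2 - ‖x‖ ^ 2) :=
    sum_setIntegral_cell hK hy w₀ hIc
  have hS1 : ∑ i, smoment K y w₁ i = ∫ x in K, ‖x‖ ^ 2 := sum_setIntegral_cell hK hy w₁ hIn
  have hS2 : ∑ i, smoment K y w₂ i = ∫ x in K, ‖x‖ ^ 2 := sum_setIntegral_cell hK hy w₂ hIn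
  have hI1 : IntegrableOn (fun _ : E d => (1 : ℝ)) K := continuousOn_const.integrableOn_compact hK
  have hM1 : ∑ i, mass K y w₁ i = ∫ _x in K, (1 : ℝ) := sum_setIntegral_cell hK hy w₁ hI1
  have hM2 : ∑ i, mass K y w₂ i = ∫ _x in K, (1 : ℝ) := sum_setIntegral_cell hK hy w₂ hI1
  have hKint : ∫ x in K, (s ^ 2 - ‖x‖ ^ 2) = s ^ 2 * (∫ _x in K, (1 : ℝ)) - ∫ x in K, ‖x‖ ^ 2 := by
    rw [integral_sub (continuousOn_const.integrableOn_compact hK) hIn, setIntegral_const,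
      setIntegral_const]
    simp only [smul_eq_mul, mul_one]
    ring
  -- the zero order terms cancel
  have hzero : ∑ i, (s ^ 2 * ((mass K y w₁ i + mass K y w₂ i) / 2) -
      (smoment K y w₁ i + smoment K y w₂ i) / 2) = ∫ x in K, (s ^ 2 - ‖x‖ ^ 2) := by
    rw [Finset.sum_sub_distrib, ← Finset.mul_sum, ← Finset.sum_div, ← Finset.sum_div,
      Finset.sum_add_distrib, Finset.sum_add_distrib, hM1, hM2, hS1, hS2, hKint]
    ring
  set a : ι → ℝ := fun i => ‖moment K y w₁ i - moment K y w₂ i‖ ^ 2 /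
    ((mass K y w₁ i + mass K y w₂ i) / 2) with ha
  set b : ι → ℝ := fun i => (mass K y w₁ i - mass K y w₂ i) ^ 2 /
    ((mass K y w₁ i + mass K y w₂ i) / 2) with hb
  have hterm : ∀ i, s ^ 2 * ((mass K y w₁ i + mass K y w₂ i) / 2) -
      (smoment K y w₁ i + smoment K y w₂ i) / 2 +
      ‖moment K y w₁ i - moment K y w₂ i‖ ^ 2 / (4 * ((mass K y w₁ i + mass K y w₂ i) / 2)) -
      s ^ 2 * (mass K y w₁ i - mass K y w₂ i) ^ 2 /
        (4 * ((mass K y w₁ i + mass K y w₂ i) / 2)) =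
      (s ^ 2 * ((mass K y w₁ i + mass K y w₂ i) / 2) - (smoment K y w₁ i + smoment K y w₂ i) / 2) +
        (a i - s ^ 2 * b i) / 4 := by
    intro i
    simp only [ha, hb]
    rw [mul_comm (4 : ℝ), ← div_div, ← div_div, mul_div_assoc]
    ring
  simp_rw [hterm] at hsumQ
  rw [Finset.sum_add_distrib, hzero, hR] at hsumQ
  have h4 : ∑ i, (a i - s ^ 2 * b i) / 4 ≤ 0 := by linarith
  rw [← Finset.sum_div, div_le_iff₀ (by norm_num), zero_mul, Finset.sum_sub_distrib,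
    ← Finset.mul_sum] at h4
  linarith

end Vale.Agent.Lib.P074.T
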