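import Mathlib
import Vale.Agent.Lib.P074.T.Finite

/-!
# The finite lemma with a source density.
-/

open MeasureTheory Metric Set Filter Topology
open scoped ENNReal NNReal

namespace Vale.Agent.Lib.P074.T

variable {d : ℕ} {ι : Type*} [Fintype ι]

/-- Cauchy-Schwarz on a set of finite measure. -/
lemma sq_setIntegral_le {S : Set (E d)} (hfin : volume S ≠ ∞) {f : E d → ℝ}
    (hf : IntegrableOn f S) (hf2 : IntegrableOn (fun x => f x ^ 2) S) :
    (∫ x in S, f x) ^ 2 ≤ (∫ _x in S, (1 : ℝ)) * ∫ x in S, f x ^ 2 := by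
  set V := ∫ _x in S, (1 : ℝ) with hV
  set I := ∫ x in S, f x with hI
  set J := ∫ x in S, f x ^ 2 with hJ
  have hV0 : 0 ≤ V := by
    rw [hV]
    exact integral_nonneg fun _ => zero_le_one
  have h1 : IntegrableOn (fun _ : E d => (1 : ℝ)) S := integrableOn_const hfin
  have key : 0 ≤ V ^ 2 * J - 2 * V * I * I + I ^ 2 * V := by
    have h0 : 0 ≤ ∫ x in S, (V * f x - I) ^ 2 := integral_nonneg fun x => sq_nonneg _
    have heq : ∫ x in S, (V * f x - I) ^ 2 =
        ∫ x in S, (V ^ 2 * f x ^ 2 - (2 * V * I) * f x + I ^ 2 * 1) := by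
      congr 1
      ext x
      ring
    have e1 : ∫ x in S, (V ^ 2 * f x ^ 2 - (2 * V * I) * f x + I ^ 2 * 1) =
        (∫ x in S, (V ^ 2 * f x ^ 2 - (2 * V * I) * f x)) + ∫ _x in S, I ^ 2 * (1 : ℝ) :=
      integral_add (Integrable.sub (hf2.const_mul _) (hf.const_mul _)) (h1.const_mul _)
    have e2 : ∫ x in S, (V ^ 2 * f x ^ 2 - (2 * V * I) * f x) =
        (∫ x in S, V ^ 2 * f x ^ 2) - ∫ x in S, (2 * V * I) * f x :=
      integral_sub (hf2.const_mul _) (hf.const_mul _)
    rw [heq, e1, e2, integral_const_mul, integral_const_mul, integral_const_mul] at h0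
    exact h0
  rcases hV0.eq_or_lt with h | h
  · have hnull : volume S = 0 := by
      have h2 : V = (volume S).toReal := by
        rw [hV]
        simp [Measure.real]
      rw [← h] at *
      have := (ENNReal.toReal_eq_zero_iff _).1 h2.symm
      rcases this with h3 | h3
      · exact h3
      · exact absurd h3 hfin
    have hI0 : I = 0 := by
      rw [hI]
      exact setIntegral_measure_zero _ hnull
    rw [hI0, ← h]
    simp
  · have h2 : 0 ≤ V * (V * J - I ^ 2) := by nlinarith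
    have h3 : 0 ≤ V * J - I ^ 2 := nonneg_of_mul_nonneg_right h2 h
    linarith

/-- For the uniform source and a source density `r` close to `1`, with the same sites and the same
masses, the first moments of the cells differ by at most `‖r - 1‖` in the mass weighted norm. -/
theorem pairing_bound [Nonempty ι] {K : Set (E d)} (hK : IsCompact K) (hconv : Convex ℝ K)
    {L : ℝ} (hL0 : 0 < L) (hL : ∀ x ∈ K, ‖x‖ ≤ L) {y : ι → E d} (hy : Function.Injective y)
    {r : E d → ℝ} (hrm : Measurable r) (hr : ∀ x ∈ K, 3 / 4 ≤ r x ∧ r x ≤ 5 / 4)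
    {m : ι → ℝ} (hm : ∀ i, 0 < m i) {a a' : ι → ℝ}
    (ha : Sol K (fun _ => 1) m y a) (ha' : Sol K r m y a') (e : ι → E d) :
    ∑ i, inner ℝ ((∫ x in cell K y a' i, r x • x) - ∫ x in cell K y a i, x) (e i) ≤
      7 * L * √(∫ x in K, (r x - 1) ^ 2) * √(∑ i, m i * ‖e i‖ ^ 2) := by
  classical
  -- names
  have hBsub : ∀ i, cell K y a' i ⊆ K := cell_subset K y a'
  have hBm : ∀ i, MeasurableSet (cell K y a' i) := measurableSet_cell hK y a'
  have hBfin : ∀ i, volume (cell K y a' i) ≠ ∞ := fun i =>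
    ((measure_mono (hBsub i)).trans_lt hK.measure_lt_top).ne
  have hmA : ∀ i, mass K y a i = m i := fun i => ha i
  set b : ι → ℝ := fun i => mass K y a' i with hb
  have hb0 : ∀ i, 0 ≤ b i := fun i => by
    simp only [hb, mass_eq]
    exact ENNReal.toReal_nonneg
  -- integrability
  have hrabs : ∀ x ∈ K, |r x| ≤ 5 / 4 := fun x hx => by
    rw [abs_le]
    constructor <;> linarith [(hr x hx).1, (hr x hx).2]
  have hrI : IntegrableOn r K := integrableOn_of_bound hK hrm hrabs
  have h1I : IntegrableOn (fun _ : E d => (1 : ℝ)) K := continuousOn_const.integrableOn_compact hK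
  have hr1abs : ∀ x ∈ K, |r x - 1| ≤ 1 / 4 := fun x hx => by
    rw [abs_le]
    constructor <;> linarith [(hr x hx).1, (hr x hx).2]
  have hr1I : IntegrableOn (fun x => r x - 1) K := hrI.sub h1I
  have hr1absI : IntegrableOn (fun x => |r x - 1|) K := hr1I.abs
  have hr2I : IntegrableOn (fun x => (r x - 1) ^ 2) K := by
    refine integrableOn_of_bound hK ((hrm.sub_const 1).pow_const 2) (M := (1 / 4) ^ 2) ?_
    intro x hx
    rw [abs_pow]
    exact pow_le_pow_left₀ (abs_nonneg _) (hr1abs x hx) 2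
  have hxI : IntegrableOn (fun x : E d => x) K := continuous_id.continuousOn.integrableOn_compact hK
  have hrxI : IntegrableOn (fun x => r x • x) K := by
    refine Measure.integrableOn_of_bounded (M := 5 / 4 * L) hK.measure_lt_top.ne
      (hrm.aestronglyMeasurable.smul continuous_id.aestronglyMeasurable) ?_
    filter_upwards [ae_restrict_mem hK.measurableSet] with x hx
    rw [norm_smul, Real.norm_eq_abs]
    exact mul_le_mul (hrabs x hx) (hL x hx) (norm_nonneg _) (by norm_num)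
  -- the integrals over the cells
  set Δ : ι → ℝ := fun i => ∫ x in cell K y a' i, (r x - 1) ^ 2 with hΔ
  set D : ℝ := ∫ x in K, (r x - 1) ^ 2 with hD
  have hΔ0 : ∀ i, 0 ≤ Δ i := fun i => integral_nonneg fun x => sq_nonneg _
  have hΔsum : ∑ i, Δ i = D := sum_setIntegral_cell hK hy a' hr2I
  have hD0 : 0 ≤ D := integral_nonneg fun x => sq_nonneg _
  -- mass comparison
  have hmb1 : ∀ i, m i ≤ 5 / 4 * b i := fun i => by
    have h := setIntegral_mono_on (μ := volume) (s := cell K y a' i) (f := r)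
      (g := fun _ => (5 / 4 : ℝ)) (hrI.mono_set (hBsub i))
      (integrableOn_const (hBfin i)) (hBm i) (fun x hx => (hr x (hBsub i hx)).2)
    rw [ha' i, setIntegral_const] at h
    simp only [hb, mass_eq, Measure.real, smul_eq_mul] at h ⊢
    linarith
  have hmb2 : ∀ i, 3 / 4 * b i ≤ m i := fun i => by
    have h := setIntegral_mono_on (μ := volume) (s := cell K y a' i) (f := fun _ => (3 / 4 : ℝ))
      (g := r) (integrableOn_const (hBfin i)) (hrI.mono_set (hBsub i)) (hBm i)
      (fun x hx => (hr x (hBsub i hx)).1)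
    rw [ha' i, setIntegral_const] at h
    simp only [hb, mass_eq, Measure.real, smul_eq_mul] at h ⊢
    linarith
  -- mass defect
  have hDm : ∀ i, m i - b i = ∫ x in cell K y a' i, (r x - 1) := fun i => by
    rw [integral_sub (hrI.mono_set (hBsub i)) (h1I.mono_set (hBsub i)), ha' i]
    rfl
  have hDm2 : ∀ i, (m i - b i) ^ 2 ≤ b i * Δ i := fun i => by
    rw [hDm i]
    exact sq_setIntegral_le (hBfin i) (hr1I.mono_set (hBsub i)) (hr2I.mono_set (hBsub i))
  -- the moment defect of the density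
  set G : ι → E d := fun i => ∫ x in cell K y a' i, (r x - 1) • x with hG
  have hG2 : ∀ i, ‖G i‖ ^ 2 ≤ L ^ 2 * (b i * Δ i) := fun i => by
    have h1 : ‖G i‖ ≤ L * ∫ x in cell K y a' i, |r x - 1| := by
      calc ‖G i‖ ≤ ∫ x in cell K y a' i, ‖(r x - 1) • x‖ := norm_integral_le_integral_norm _
        _ ≤ ∫ x in cell K y a' i, L * |r x - 1| := by
            refine setIntegral_mono_on ?_ ?_ (hBm i) ?_
            · have : IntegrableOn (fun x => (r x - 1) • x) K := by
                have : (fun x => (r x - 1) • x) = fun x => r x • x - x := by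
                  funext x
                  rw [sub_smul, one_smul]
                rw [this]
                exact hrxI.sub hxI
              exact (this.mono_set (hBsub i)).norm
            · exact (hr1absI.mono_set (hBsub i)).const_mul L
            · intro x hx
              rw [norm_smul, Real.norm_eq_abs, mul_comm]
              exact mul_le_mul_of_nonneg_right (hL x (hBsub i hx)) (abs_nonneg _)
        _ = _ := integral_const_mul _ _
    have h2 : (∫ x in cell K y a' i, |r x - 1|) ^ 2 ≤ b i * Δ i := by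
      have := sq_setIntegral_le (hBfin i) (f := fun x => |r x - 1|)
        (hr1absI.mono_set (hBsub i)) (by
          simp only [sq_abs]
          exact hr2I.mono_set (hBsub i))
      simp only [sq_abs] at this
      exact this
    calc ‖G i‖ ^ 2 ≤ (L * ∫ x in cell K y a' i, |r x - 1|) ^ 2 :=
          pow_le_pow_left₀ (norm_nonneg _) h1 2
      _ = L ^ 2 * (∫ x in cell K y a' i, |r x - 1|) ^ 2 := by ring
      _ ≤ _ := mul_le_mul_of_nonneg_left h2 (by positivity)
  -- the decomposition of X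
  set DM : ι → E d := fun i => moment K y a i - moment K y a' i with hDM
  have hX : ∀ i, (∫ x in cell K y a' i, r x • x) - ∫ x in cell K y a i, x = G i - DM i := fun i => by
    have h1 : G i = (∫ x in cell K y a' i, r x • x) - ∫ x in cell K y a' i, x := by
      rw [← integral_sub (hrxI.mono_set (hBsub i)) (hxI.mono_set (hBsub i))]
      simp only [hG]
      congr 1
      funext x
      rw [sub_smul, one_smul]
    rw [h1]
    simp only [hDM, moment]
    abel
  -- the mean mass
  set mbar : ι → ℝ := fun i => (mass K y a i + mass K y a' i) / 2 with hmbar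
  have hmbar' : ∀ i, mbar i = (m i + b i) / 2 := fun i => by
    simp only [hmbar, hb, hmA]
  have hmbar0 : ∀ i, 0 < mbar i := fun i => by
    rw [hmbar']
    have := hm i
    have := hb0 i
    linarith
  have hb_mbar : ∀ i, b i ≤ 8 / 7 * mbar i := fun i => by
    rw [hmbar']
    have := hmb2 i
    linarith
  have hmbar_m : ∀ i, mbar i ≤ 7 / 6 * m i := fun i => by
    rw [hmbar']
    have := hmb2 i
    linarith
  -- the hypothesis of the finite lemma
  have hsmall : ∀ i, |mass K y a i - mass K y a' i| ≤ (mass K y a i + mass K y a' i) / 4 := fun i => by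
    rw [hmA]
    change |m i - b i| ≤ (m i + b i) / 4
    rw [abs_le]
    constructor <;> linarith [hmb1 i, hmb2 i, hb0 i, hm i]
  have hFL := finite_lemma hK hconv hL0 hL hy a a' hsmall
  have hFL' : ∑ i, ‖DM i‖ ^ 2 / mbar i ≤ (4 * L) ^ 2 * ∑ i, (m i - b i) ^ 2 / mbar i := by
    have : ∀ i, mass K y a i - mass K y a' i = m i - b i := fun i => by rw [hmA]
    simpa only [this] using hFL
  -- the termwise bounds
  have hT1 : ∀ i, ‖G i‖ ^ 2 / mbar i ≤ 8 / 7 * L ^ 2 * Δ i := fun i => by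
    rw [div_le_iff₀ (hmbar0 i)]
    have h1 := hG2 i
    have h2 : b i * Δ i ≤ 8 / 7 * mbar i * Δ i := mul_le_mul_of_nonneg_right (hb_mbar i) (hΔ0 i)
    have h3 : L ^ 2 * (b i * Δ i) ≤ L ^ 2 * (8 / 7 * mbar i * Δ i) :=
      mul_le_mul_of_nonneg_left h2 (by positivity)
    nlinarith
  have hT2 : ∀ i, (m i - b i) ^ 2 / mbar i ≤ 8 / 7 * Δ i := fun i => by
    rw [div_le_iff₀ (hmbar0 i)]
    have h1 := hDm2 i
    have h2 : b i * Δ i ≤ 8 / 7 * mbar i * Δ i := mul_le_mul_of_nonneg_right (hb_mbar i) (hΔ0 i)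
    nlinarith
  have hS1 : ∑ i, ‖G i‖ ^ 2 / mbar i ≤ 8 / 7 * L ^ 2 * D := by
    rw [← hΔsum, Finset.mul_sum]
    exact Finset.sum_le_sum fun i _ => hT1 i
  have hS2 : ∑ i, (m i - b i) ^ 2 / mbar i ≤ 8 / 7 * D := by
    rw [← hΔsum, Finset.mul_sum]
    exact Finset.sum_le_sum fun i _ => hT2 i
  have hS3 : ∑ i, ‖DM i‖ ^ 2 / mbar i ≤ (4 * L) ^ 2 * (8 / 7 * D) :=
    hFL'.trans (mul_le_mul_of_nonneg_left hS2 (by positivity))
  -- Cauchy-Schwarz
  set f : ι → ℝ := fun i => ‖G i - DM i‖ / √(mbar i) with hf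
  set g : ι → ℝ := fun i => √(mbar i) * ‖e i‖ with hg
  have hf2 : ∀ i, f i ^ 2 = ‖G i - DM i‖ ^ 2 / mbar i := fun i => by
    simp only [hf, div_pow, Real.sq_sqrt (hmbar0 i).le]
  have hg2 : ∀ i, g i ^ 2 = mbar i * ‖e i‖ ^ 2 := fun i => by
    simp only [hg, mul_pow, Real.sq_sqrt (hmbar0 i).le]
  have hfg : ∀ i, inner ℝ (G i - DM i) (e i) ≤ f i * g i := fun i => by
    have h1 := real_inner_le_norm (G i - DM i) (e i)
    have h2 : f i * g i = ‖G i - DM i‖ * ‖e i‖ := by
      simp only [hf, hg]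
      have : √(mbar i) ≠ 0 := (Real.sqrt_pos.2 (hmbar0 i)).ne'
      field_simp
    rw [h2]
    exact h1
  have hsumf : ∑ i, f i ^ 2 ≤ 272 / 7 * L ^ 2 * D := by
    have h1 : ∀ i, f i ^ 2 ≤ 2 * (‖G i‖ ^ 2 / mbar i) + 2 * (‖DM i‖ ^ 2 / mbar i) := fun i => by
      rw [hf2, ← mul_div_assoc, ← mul_div_assoc, ← add_div]
      refine div_le_div_of_nonneg_right ?_ (hmbar0 i).le
      have h2 := norm_sub_le (G i) (DM i)
      have h3 : ‖G i - DM i‖ ^ 2 ≤ (‖G i‖ + ‖DM i‖) ^ 2 := pow_le_pow_left₀ (norm_nonneg _) h2 2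
      nlinarith [sq_nonneg (‖G i‖ - ‖DM i‖)]
    calc ∑ i, f i ^ 2 ≤ ∑ i, (2 * (‖G i‖ ^ 2 / mbar i) + 2 * (‖DM i‖ ^ 2 / mbar i)) :=
          Finset.sum_le_sum fun i _ => h1 i
      _ = 2 * ∑ i, ‖G i‖ ^ 2 / mbar i + 2 * ∑ i, ‖DM i‖ ^ 2 / mbar i := by
          rw [Finset.sum_add_distrib, Finset.mul_sum, Finset.mul_sum]
      _ ≤ 2 * (8 / 7 * L ^ 2 * D) + 2 * ((4 * L) ^ 2 * (8 / 7 * D)) := by linarith
      _ = _ := by ring
  set Em : ℝ := ∑ i, m i * ‖e i‖ ^ 2 with hEm
  have hEm0 : 0 ≤ Em := Finset.sum_nonneg fun i _ => mul_nonneg (hm i).le (by positivity)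
  have hsumg : ∑ i, g i ^ 2 ≤ 7 / 6 * Em := by
    rw [hEm, Finset.mul_sum]
    refine Finset.sum_le_sum fun i _ => ?_
    rw [hg2, ← mul_assoc]
    exact mul_le_mul_of_nonneg_right (hmbar_m i) (by positivity)
  have hCS : (∑ i, f i * g i) ^ 2 ≤ (∑ i, f i ^ 2) * ∑ i, g i ^ 2 :=
    Finset.sum_mul_sq_le_sq_mul_sq _ _ _
  have hf0 : 0 ≤ ∑ i, f i ^ 2 := Finset.sum_nonneg fun i _ => sq_nonneg _
  have hg0 : 0 ≤ ∑ i, g i ^ 2 := Finset.sum_nonneg fun i _ => sq_nonneg _
  have hsqD : √D ^ 2 = D := Real.sq_sqrt hD0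
  have hsqE : √Em ^ 2 = Em := Real.sq_sqrt hEm0
  have hmain : (∑ i, f i * g i) ^ 2 ≤ (7 * L * √D * √Em) ^ 2 := by
    calc (∑ i, f i * g i) ^ 2 ≤ (∑ i, f i ^ 2) * ∑ i, g i ^ 2 := hCS
      _ ≤ (272 / 7 * L ^ 2 * D) * (7 / 6 * Em) := mul_le_mul hsumf hsumg hg0 (by positivity)
      _ ≤ 49 * L ^ 2 * D * Em := by
          have : 0 ≤ L ^ 2 * D * Em := by positivity
          nlinarith
      _ = (7 * L * √D * √Em) ^ 2 := by
          rw [mul_pow, mul_pow, mul_pow, hsqD, hsqE]
          ring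
  have hfinal : ∑ i, f i * g i ≤ 7 * L * √D * √Em :=
    (le_abs_self _).trans (abs_le_of_sq_le_sq hmain (by positivity))
  calc ∑ i, inner ℝ ((∫ x in cell K y a' i, r x • x) - ∫ x in cell K y a i, x) (e i)
      = ∑ i, inner ℝ (G i - DM i) (e i) := by
        refine Finset.sum_congr rfl fun i _ => ?_
        rw [hX]
    _ ≤ ∑ i, f i * g i := Finset.sum_le_sum fun i _ => hfg i
    _ ≤ _ := hfinal

end Vale.Agent.Lib.P074.T
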