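import Mathlib
import Vale.Agent.Lib.P074.T.Pairing
import Vale.Agent.Lib.P074.T.Exist

/-!
# Weak duality and the chain along the sites.
-/

open MeasureTheory Metric Set Filter Topology
open scoped ENNReal NNReal

namespace Vale.Agent.Lib.P074.T

variable {d : ℕ} {ι : Type*} [Fintype ι]

section
variable {K : Set (E d)} {r : E d → ℝ} {M : ℝ}

lemma integrableOn_inner_mul (hK : IsCompact K) (hrm : Measurable r)
    (hr : ∀ x ∈ K, 0 ≤ r x ∧ r x ≤ M) (v : E d) :
    IntegrableOn (fun x => inner ℝ x v * r x) K := by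
  have hc : Continuous (fun x : E d => inner ℝ x v) := continuous_id.inner continuous_const
  obtain ⟨L, hL⟩ := hK.isBounded.exists_norm_le
  refine integrableOn_of_bound hK ((hc.measurable).mul hrm) (M := |L| * ‖v‖ * M) ?_
  intro x hx
  rw [abs_mul, abs_of_nonneg (hr x hx).1]
  refine mul_le_mul ?_ (hr x hx).2 (hr x hx).1 (by positivity)
  calc |inner ℝ x v| ≤ ‖x‖ * ‖v‖ := abs_real_inner_le_norm _ _
    _ ≤ |L| * ‖v‖ := mul_le_mul_of_nonneg_right ((hL x hx).trans (le_abs_self _)) (norm_nonneg _)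

end

/-- At a solution the dual functional equals the primal value. -/
theorem dual_eq_of_sol [Nonempty ι] {K : Set (E d)} (hK : IsCompact K) {y : ι → E d}
    (hy : Function.Injective y) {r : E d → ℝ} (hrm : Measurable r) {M : ℝ}
    (hr : ∀ x ∈ K, 0 ≤ r x ∧ r x ≤ M) {m : ι → ℝ} {a : ι → ℝ} (ha : Sol K r m y a) :
    dual K r m y a = ∑ i, ∫ x in cell K y a i, inner ℝ x (y i) * r x := by
  have hr' := abs_r_le hr
  have hIr := integrableOn_of_bound hK hrm hr'
  have key : ∀ i, (∫ x in cell K y a i, pot y a x * r x) + m i * a i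
      = ∫ x in cell K y a i, inner ℝ x (y i) * r x := by
    intro i
    have hc := measurableSet_cell hK y a i
    have hsub : cell K y a i ⊆ K := fun _ hx => hx.1
    have h1 : IntegrableOn (fun x => inner ℝ x (y i) * r x) (cell K y a i) :=
      (integrableOn_inner_mul hK hrm hr (y i)).mono_set hsub
    have h2 : IntegrableOn (fun x => a i * r x) (cell K y a i) := by
      have hIt : IntegrableOn (fun x => a i * r x) K := hIr.const_mul _
      exact hIt.mono_set hsub
    have h3 : ∫ x in cell K y a i, pot y a x * r x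
        = ∫ x in cell K y a i, (inner ℝ x (y i) * r x - a i * r x) := by
      refine setIntegral_congr_fun hc fun x hx => ?_
      change pot y a x * r x = _
      rw [pot_eq_of_mem_cell hx]; ring
    rw [h3, integral_sub h1 h2, integral_const_mul, ha i]
    ring
  unfold dual
  rw [← sum_setIntegral_cell hK hy a (integrableOn_pot_mul hK y a hrm hr'),
    ← Finset.sum_add_distrib]
  exact Finset.sum_congr rfl fun i _ => key i

/-- Weak duality. -/
theorem primal_le_dual [Nonempty ι] {K : Set (E d)} (hK : IsCompact K) {y : ι → E d}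
    (hy : Function.Injective y) {r : E d → ℝ} (hrm : Measurable r) {M : ℝ}
    (hr : ∀ x ∈ K, 0 ≤ r x ∧ r x ≤ M) {m : ι → ℝ} {a : ι → ℝ} (ha : Sol K r m y a)
    (y' : ι → E d) (a' : ι → ℝ) :
    ∑ i, ∫ x in cell K y a i, inner ℝ x (y' i) * r x ≤ dual K r m y' a' := by
  have hr' := abs_r_le hr
  have hIr := integrableOn_of_bound hK hrm hr'
  have hIpot := integrableOn_pot_mul hK y' a' hrm hr'
  have key : ∀ i, ∫ x in cell K y a i, inner ℝ x (y' i) * r x
      ≤ (∫ x in cell K y a i, pot y' a' x * r x) + m i * a' i := by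
    intro i
    have hc := measurableSet_cell hK y a i
    have hsub : cell K y a i ⊆ K := fun _ hx => hx.1
    have h1 : IntegrableOn (fun x => inner ℝ x (y' i) * r x) (cell K y a i) :=
      (integrableOn_inner_mul hK hrm hr (y' i)).mono_set hsub
    have h2 : IntegrableOn (fun x => a' i * r x) (cell K y a i) := by
      have hIt : IntegrableOn (fun x => a' i * r x) K := hIr.const_mul _
      exact hIt.mono_set hsub
    have h3 : IntegrableOn (fun x => pot y' a' x * r x) (cell K y a i) := hIpot.mono_set hsub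
    have h4 : (∫ x in cell K y a i, pot y' a' x * r x) + m i * a' i
        = ∫ x in cell K y a i, (pot y' a' x * r x + a' i * r x) := by
      rw [integral_add h3 h2, integral_const_mul, ha i]; ring
    rw [h4]
    refine setIntegral_mono_on h1 (h3.add h2) hc fun x hx => ?_
    have h5 := le_pot y' a' x i
    have hrx := (hr x hx.1).1
    have : inner ℝ x (y' i) * r x ≤ (pot y' a' x + a' i) * r x :=
      mul_le_mul_of_nonneg_right (by linarith) hrx
    linarith
  calc ∑ i, ∫ x in cell K y a i, inner ℝ x (y' i) * r x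
      ≤ ∑ i, ((∫ x in cell K y a i, pot y' a' x * r x) + m i * a' i) :=
        Finset.sum_le_sum fun i _ => key i
    _ = dual K r m y' a' := by
        rw [Finset.sum_add_distrib, sum_setIntegral_cell hK hy a hIpot]; rfl

/-- Mixed differences of two functions with subgradients, off a finite set. -/
theorem mixed_chain {g₁ g₂ Q₁ Q₂ : ℝ → ℝ} {S : Set ℝ} {B : ℝ} (hS : S.Finite)
    (h0 : (0 : ℝ) ∉ S) (h1 : (1 : ℝ) ∉ S)
    (H₁ : ∀ s ∈ Icc (0 : ℝ) 1 \ S, ∀ s' ∈ Icc (0 : ℝ) 1 \ S, g₁ s + (s' - s) * Q₁ s ≤ g₁ s')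
    (H₂ : ∀ s ∈ Icc (0 : ℝ) 1 \ S, ∀ s' ∈ Icc (0 : ℝ) 1 \ S, g₂ s + (s' - s) * Q₂ s ≤ g₂ s')
    (hB : ∀ s ∈ Icc (0 : ℝ) 1 \ S, Q₁ s - Q₂ s ≤ B) :
    g₁ 1 - g₁ 0 - g₂ 1 + g₂ 0 ≤ B := by
  set G : Set ℝ := Icc (0 : ℝ) 1 \ S with hG
  set h : ℝ → ℝ := fun s => g₁ s - g₂ s - B * s with hh
  -- monotonicity of `Q₂` on good points
  have hmono : ∀ a ∈ G, ∀ b ∈ G, a < b → Q₂ a ≤ Q₂ b := by
    intro a ha b hb hab
    have h2 := H₂ a ha b hb
    have h3 := H₂ b hb a ha
    have h4 : (b - a) * Q₂ a ≤ (b - a) * Q₂ b := by nlinarith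
    exact le_of_mul_le_mul_left h4 (by linarith)
  -- basic estimate on good pairs
  have hbase : ∀ a ∈ G, ∀ b ∈ G, a < b → h b - h a ≤ (b - a) * (Q₂ b - Q₂ a) := by
    intro a ha b hb hab
    have h2 := H₁ b hb a ha
    have h3 := H₂ a ha b hb
    have h4 := hB b hb
    have hpos : 0 < b - a := by linarith
    have h5 : (b - a) * (Q₁ b - Q₂ b) ≤ (b - a) * B := mul_le_mul_of_nonneg_left h4 hpos.le
    simp only [hh]
    nlinarith
  -- subdivision: for all `k`
  have hk : ∀ k : ℕ, ∀ a ∈ G, ∀ b ∈ G, a < b →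
      h b - h a ≤ (2 / 3 : ℝ) ^ k * ((b - a) * (Q₂ b - Q₂ a)) := by
    intro k
    induction k with
    | zero =>
      intro a ha b hb hab
      simpa using hbase a ha b hb hab
    | succ k ih =>
      intro a ha b hb hab
      have hlt : a + (b - a) / 3 < a + 2 * (b - a) / 3 := by linarith
      obtain ⟨c, hc1, hc2⟩ := ((Set.Ioo_infinite hlt).sdiff hS).nonempty
      have hcl : a < c := by linarith [hc1.1]
      have hcu : c < b := by linarith [hc1.2]
      have hcG : c ∈ G := by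
        refine ⟨⟨by linarith [ha.1.1], by linarith [hb.1.2]⟩, hc2⟩
      have hA := ih a ha c hcG hcl
      have hC := ih c hcG b hb hcu
      have hq1 := hmono a ha c hcG hcl
      have hq2 := hmono c hcG b hb hcu
      have hpow : (0 : ℝ) ≤ (2 / 3 : ℝ) ^ k := by positivity
      have h6 : (c - a) * (Q₂ c - Q₂ a) ≤ (2 / 3 * (b - a)) * (Q₂ c - Q₂ a) :=
        mul_le_mul_of_nonneg_right (by linarith [hc1.2]) (by linarith)
      have h7 : (b - c) * (Q₂ b - Q₂ c) ≤ (2 / 3 * (b - a)) * (Q₂ b - Q₂ c) :=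
        mul_le_mul_of_nonneg_right (by linarith [hc1.1]) (by linarith)
      have h8 : (c - a) * (Q₂ c - Q₂ a) + (b - c) * (Q₂ b - Q₂ c)
          ≤ 2 / 3 * ((b - a) * (Q₂ b - Q₂ a)) := by nlinarith
      have h9 := mul_le_mul_of_nonneg_left h8 hpow
      calc h b - h a = (h b - h c) + (h c - h a) := by ring
        _ ≤ (2 / 3 : ℝ) ^ k * ((b - c) * (Q₂ b - Q₂ c))
            + (2 / 3 : ℝ) ^ k * ((c - a) * (Q₂ c - Q₂ a)) := add_le_add hC hA
        _ = (2 / 3 : ℝ) ^ k * ((c - a) * (Q₂ c - Q₂ a) + (b - c) * (Q₂ b - Q₂ c)) := by ring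
        _ ≤ (2 / 3 : ℝ) ^ k * (2 / 3 * ((b - a) * (Q₂ b - Q₂ a))) := h9
        _ = (2 / 3 : ℝ) ^ (k + 1) * ((b - a) * (Q₂ b - Q₂ a)) := by rw [pow_succ]; ring
  have h0G : (0 : ℝ) ∈ G := ⟨⟨le_refl _, zero_le_one⟩, h0⟩
  have h1G : (1 : ℝ) ∈ G := ⟨⟨zero_le_one, le_refl _⟩, h1⟩
  have hlim : Tendsto (fun k : ℕ => (2 / 3 : ℝ) ^ k * ((1 - 0) * (Q₂ 1 - Q₂ 0))) atTop
      (𝓝 (0 * ((1 - 0) * (Q₂ 1 - Q₂ 0)))) :=
    (tendsto_pow_atTop_nhds_zero_of_lt_one (by norm_num) (by norm_num)).mul_const _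
  have hfin : h 1 - h 0 ≤ 0 * ((1 - 0) * (Q₂ 1 - Q₂ 0)) :=
    ge_of_tendsto' hlim fun k => hk k 0 h0G 1 h1G zero_lt_one
  simp only [hh, zero_mul, mul_one, mul_zero] at hfin
  linarith

/-- The primal value of a solution. -/
noncomputable def val (K : Set (E d)) (r : E d → ℝ) (y : ι → E d) (a : ι → ℝ) : ℝ :=
  ∑ i, ∫ x in cell K y a i, inner ℝ x (y i) * r x

/-- The first moments of the cells, tested against `e`. -/
noncomputable def mom (K : Set (E d)) (r : E d → ℝ) (y : ι → E d) (a : ι → ℝ) (e : ι → E d) : ℝ :=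
  ∑ i, inner ℝ (∫ x in cell K y a i, r x • x) (e i)

/-- The subgradient inequality along a segment of sites. -/
lemma val_step [Nonempty ι] {K : Set (E d)} (hK : IsCompact K) {y y' : ι → E d}
    (hy : Function.Injective y) (hy' : Function.Injective y') {r : E d → ℝ} (hrm : Measurable r)
    {M : ℝ} (hr : ∀ x ∈ K, 0 ≤ r x ∧ r x ≤ M) {m : ι → ℝ} {a a' : ι → ℝ}
    (ha : Sol K r m y a) (ha' : Sol K r m y' a') (e : ι → E d) (t : ℝ)
    (hyy : ∀ i, y' i = y i + t • e i) {L : ℝ} (hL : ∀ x ∈ K, ‖x‖ ≤ L) :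
    val K r y a + t * mom K r y a e ≤ val K r y' a' := by
  have h1 := primal_le_dual hK hy hrm hr ha y' a'
  rw [dual_eq_of_sol hK hy' hrm hr ha'] at h1
  refine le_trans (le_of_eq ?_) h1
  have hsub : ∀ i, cell K y a i ⊆ K := cell_subset K y a
  have hrabs : ∀ x ∈ K, |r x| ≤ M := fun x hx => by
    rw [abs_of_nonneg (hr x hx).1]
    exact (hr x hx).2
  have hI : ∀ v : E d, IntegrableOn (fun x => inner ℝ x v * r x) K := fun v => by
    have hc : Continuous fun x : E d => inner ℝ x v := by fun_prop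
    refine integrableOn_of_bound hK (hc.measurable.mul hrm) (M := L * ‖v‖ * M) ?_
    intro x hx
    rw [abs_mul]
    have h2 : |inner ℝ x v| ≤ L * ‖v‖ :=
      (abs_real_inner_le_norm x v).trans (mul_le_mul_of_nonneg_right (hL x hx) (norm_nonneg _))
    exact mul_le_mul h2 (hrabs x hx) (abs_nonneg _) ((abs_nonneg _).trans h2)
  have hrxI : IntegrableOn (fun x => r x • x) K := by
    refine Measure.integrableOn_of_bounded (M := M * L) hK.measure_lt_top.ne
      (hrm.aestronglyMeasurable.smul continuous_id.aestronglyMeasurable) ?_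
    filter_upwards [ae_restrict_mem hK.measurableSet] with x hx
    rw [norm_smul, Real.norm_eq_abs]
    exact mul_le_mul (hrabs x hx) (hL x hx) (norm_nonneg _) ((abs_nonneg _).trans (hrabs x hx))
  have hmom : ∀ i, inner ℝ (∫ x in cell K y a i, r x • x) (e i) =
      ∫ x in cell K y a i, inner ℝ x (e i) * r x := fun i => by
    rw [real_inner_comm, ← integral_inner (hrxI.mono_set (hsub i))]
    congr 1
    funext x
    rw [inner_smul_right, real_inner_comm, mul_comm]
  unfold val mom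
  rw [Finset.mul_sum, ← Finset.sum_add_distrib]
  refine Finset.sum_congr rfl fun i _ => ?_
  rw [hmom, ← integral_const_mul, ← integral_add ((hI _).mono_set (hsub i))
    (((hI _).mono_set (hsub i)).const_mul t)]
  congr 1
  funext x
  rw [hyy i, inner_add_right, inner_smul_right]
  ring

/-- Sites moving on segments are injective except at finitely many times. -/
lemma finite_noninj {y₀ : ι → E d} (hy₀ : Function.Injective y₀) (e : ι → E d) :
    {s : ℝ | ¬ Function.Injective fun i => y₀ i + s • e i}.Finite := by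
  classical
  have hsub : {s : ℝ | ¬ Function.Injective fun i => y₀ i + s • e i} ⊆
      ⋃ i, ⋃ j, {s : ℝ | i ≠ j ∧ y₀ i + s • e i = y₀ j + s • e j} := by
    intro s hs
    simp only [mem_ofPred_eq, Function.Injective, not_forall] at hs
    obtain ⟨i, j, hij, hne⟩ := hs
    exact mem_iUnion.2 ⟨i, mem_iUnion.2 ⟨j, hne, hij⟩⟩
  refine (Set.finite_iUnion fun i => Set.finite_iUnion fun j => ?_).subset hsub
  refine Set.Subsingleton.finite ?_
  rintro s ⟨hij, hs⟩ s' ⟨-, hs'⟩
  have hne : y₀ i - y₀ j ≠ 0 := sub_ne_zero.2 fun h => hij (hy₀ h)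
  have h1 : y₀ i - y₀ j = s • (e j - e i) := by
    rw [smul_sub, sub_eq_sub_iff_add_eq_add, hs]
    abel
  have h2 : y₀ i - y₀ j = s' • (e j - e i) := by
    rw [smul_sub, sub_eq_sub_iff_add_eq_add, hs']
    abel
  have hne' : e j - e i ≠ 0 := by
    intro h
    rw [h, smul_zero] at h1
    exact hne h1
  have h3 : (s - s') • (e j - e i) = 0 := by
    rw [sub_smul, ← h1, ← h2, sub_self]
  rcases smul_eq_zero.1 h3 with h | h
  · linarith
  · exact absurd h hne'

/-- The mixed second difference of the optimal value, in the source density and in the sites. -/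
theorem mixed_difference [Nonempty ι] {K : Set (E d)} (hK : IsCompact K) (hconv : Convex ℝ K)
    {L : ℝ} (hL0 : 0 < L) (hL : ∀ x ∈ K, ‖x‖ ≤ L) {y₀ y₁ : ι → E d}
    (hy₀ : Function.Injective y₀) (hy₁ : Function.Injective y₁)
    {r : E d → ℝ} (hrm : Measurable r) (hr : ∀ x ∈ K, 3 / 4 ≤ r x ∧ r x ≤ 5 / 4)
    (hr1 : ∫ x in K, r x = ∫ _x in K, (1 : ℝ))
    {m : ι → ℝ} (hm : ∀ i, 0 < m i) (hsum : ∑ i, m i = ∫ _x in K, (1 : ℝ)) :
    ∃ a₁ a₀ : ι → ℝ, ∀ b₀ b₁ : ι → ℝ,
      dual K r m y₁ a₁ + dual K (fun _ => 1) m y₀ a₀ - dual K r m y₀ b₀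
          - dual K (fun _ => 1) m y₁ b₁ ≤
        7 * L * √(∫ x in K, (r x - 1) ^ 2) * √(∑ i, m i * ‖y₁ i - y₀ i‖ ^ 2) := by
  classical
  set e : ι → E d := fun i => y₁ i - y₀ i with he
  set yp : ℝ → ι → E d := fun s i => y₀ i + s • e i with hyp
  set S : Set ℝ := {s | ¬ Function.Injective (yp s)} with hS
  have hSfin : S.Finite := finite_noninj hy₀ e
  have hyp0 : yp 0 = y₀ := by
    funext i
    simp [hyp]
  have hyp1 : yp 1 = y₁ := by
    funext i
    simp [hyp, he]
  have h0S : (0 : ℝ) ∉ S := by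
    simp only [hS, mem_ofPred_eq, not_not, hyp0]
    exact hy₀
  have h1S : (1 : ℝ) ∉ S := by
    simp only [hS, mem_ofPred_eq, not_not, hyp1]
    exact hy₁
  have hinj : ∀ s, s ∉ S → Function.Injective (yp s) := fun s hs => not_not.1 hs
  have hrn : ∀ x ∈ K, 0 ≤ r x ∧ r x ≤ 5 / 4 := fun x hx =>
    ⟨by linarith [(hr x hx).1], (hr x hx).2⟩
  have h1n : ∀ x ∈ K, 0 ≤ (fun _ : E d => (1 : ℝ)) x ∧ (fun _ : E d => (1 : ℝ)) x ≤ 1 :=
    fun _ _ => ⟨zero_le_one, le_rfl⟩
  have h1m : Measurable fun _ : E d => (1 : ℝ) := measurable_const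
  have hex_r : ∀ s, s ∉ S → ∃ a, Sol K r m (yp s) a := fun s hs =>
    exists_sol hK (hinj s hs) hrm hrn hm (hsum.trans hr1.symm)
  have hex_1 : ∀ s, s ∉ S → ∃ a, Sol K (fun _ => 1) m (yp s) a := fun s hs =>
    exists_sol hK (hinj s hs) h1m h1n hm hsum
  choose! ar har using hex_r
  choose! a1 ha1 using hex_1
  set B : ℝ := 7 * L * √(∫ x in K, (r x - 1) ^ 2) * √(∑ i, m i * ‖y₁ i - y₀ i‖ ^ 2) with hB
  have hstep : ∀ s s' : ℝ, ∀ i, yp s' i = yp s i + (s' - s) • e i := fun s s' i => by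
    simp only [hyp, sub_smul]
    abel
  have hchain := mixed_chain (g₁ := fun s => val K r (yp s) (ar s))
    (g₂ := fun s => val K (fun _ => 1) (yp s) (a1 s))
    (Q₁ := fun s => mom K r (yp s) (ar s) e)
    (Q₂ := fun s => mom K (fun _ => 1) (yp s) (a1 s) e) (B := B) hSfin h0S h1S
    (fun s hs s' hs' => val_step hK (hinj s hs.2) (hinj s' hs'.2) hrm hrn (har s hs.2) (har s' hs'.2)
      e (s' - s) (hstep s s') hL)
    (fun s hs s' hs' => val_step hK (hinj s hs.2) (hinj s' hs'.2) h1m h1n (ha1 s hs.2)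
      (ha1 s' hs'.2) e (s' - s) (hstep s s') hL)
    (fun s hs => by
      have h := pairing_bound hK hconv hL0 hL (hinj s hs.2) hrm hr hm (ha1 s hs.2) (har s hs.2) e
      refine le_trans (le_of_eq ?_) h
      simp only [mom, one_smul]
      rw [← Finset.sum_sub_distrib]
      refine Finset.sum_congr rfl fun i _ => ?_
      rw [inner_sub_left])
  refine ⟨ar 1, a1 0, fun b₀ b₁ => ?_⟩
  have h1 : dual K r m y₁ (ar 1) = val K r (yp 1) (ar 1) := by
    have := dual_eq_of_sol hK (hinj 1 h1S) hrm hrn (har 1 h1S)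
    rw [hyp1] at this ⊢
    exact this
  have h2 : dual K (fun _ => 1) m y₀ (a1 0) = val K (fun _ => 1) (yp 0) (a1 0) := by
    have := dual_eq_of_sol hK (hinj 0 h0S) h1m h1n (ha1 0 h0S)
    rw [hyp0] at this ⊢
    exact this
  have h3 : val K r (yp 0) (ar 0) ≤ dual K r m y₀ b₀ := by
    have := primal_le_dual hK (hinj 0 h0S) hrm hrn (har 0 h0S) y₀ b₀
    rw [← hyp0] at this ⊢
    exact this
  have h4 : val K (fun _ => 1) (yp 1) (a1 1) ≤ dual K (fun _ => 1) m y₁ b₁ := by
    have := primal_le_dual hK (hinj 1 h1S) h1m h1n (ha1 1 h1S) y₁ b₁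
    rw [← hyp1] at this ⊢
    exact this
  rw [h1, h2]
  linarith

end Vale.Agent.Lib.P074.T
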