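import Mathlib
import Vale.Agent.Lib.P074.T.Cells

/-!
# Finite approximation of a coupling, with injective sites at both ends.
-/

open MeasureTheory Metric Set Filter Topology
open scoped ENNReal NNReal

namespace Vale.Agent.Lib.P074.T

variable {d : ℕ}

/-- Integration of a function of a finite valued measurable map. -/
lemma discret_integral_comp_finite {Ω X : Type*} [MeasurableSpace Ω] [MeasurableSpace X]
    [MeasurableSingletonClass X] {π : Measure Ω} [IsFiniteMeasure π] {P : Ω → X}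
    (hP : Measurable P) (F : Finset X) (hF : ∀ z, P z ∈ F) (f : X → ℝ) :
    Integrable (fun z => f (P z)) π ∧
    ∫ z, f (P z) ∂π = ∑ ℓ ∈ F, π.real (P ⁻¹' {ℓ}) * f ℓ := by
  classical
  have hm : ∀ ℓ, MeasurableSet (P ⁻¹' {ℓ}) := fun ℓ => hP (measurableSet_singleton ℓ)
  have key : (fun z => f (P z)) = fun z => ∑ ℓ ∈ F, (P ⁻¹' {ℓ}).indicator (fun _ => f ℓ) z := by
    funext z
    rw [Finset.sum_eq_single (P z)]
    · simp
    · intro b _ hb
      have : z ∉ P ⁻¹' {b} := by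
        simp only [mem_preimage, mem_singleton_iff]
        exact fun h => hb h.symm
      simp [this]
    · intro h
      exact absurd (hF z) h
  rw [key]
  constructor
  · exact integrable_finsetSum _ fun ℓ _ => (integrable_const _).indicator (hm ℓ)
  · rw [integral_finsetSum _ fun ℓ _ => (integrable_const _).indicator (hm ℓ)]
    refine Finset.sum_congr rfl fun ℓ _ => ?_
    rw [integral_indicator_const _ (hm ℓ), smul_eq_mul]

/-- A segment between two distinct pairs of points meets the other one at most once. -/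
lemma discret_subsingleton {V : Type*} [AddCommGroup V] [Module ℝ V] {ℓ ℓ' : V × V} (h : ℓ ≠ ℓ') :
    ({t : ℝ | (1 - t) • ℓ.1 + t • ℓ.2 = (1 - t) • ℓ'.1 + t • ℓ'.2}).Subsingleton := by
  intro t ht t' ht'
  by_contra hne
  simp only [mem_ofPred_eq] at ht ht'
  have hne' : t' - t ≠ 0 := sub_ne_zero.mpr (Ne.symm hne)
  have h1 : (t' - t) • (ℓ.1 - ℓ'.1) = 0 := by
    have e1 : (1 - t) • (ℓ.1 - ℓ'.1) + t • (ℓ.2 - ℓ'.2) = 0 := by
      have := sub_eq_zero.mpr ht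
      rw [← this]
      module
    have e2 : (1 - t') • (ℓ.1 - ℓ'.1) + t' • (ℓ.2 - ℓ'.2) = 0 := by
      have := sub_eq_zero.mpr ht'
      rw [← this]
      module
    have : (t' - t) • (ℓ.1 - ℓ'.1) =
        t' • ((1 - t) • (ℓ.1 - ℓ'.1) + t • (ℓ.2 - ℓ'.2)) -
          t • ((1 - t') • (ℓ.1 - ℓ'.1) + t' • (ℓ.2 - ℓ'.2)) := by
      module
    rw [this, e1, e2]
    simp
  have h2 : (t' - t) • (ℓ.2 - ℓ'.2) = 0 := by
    have e1 : (1 - t) • (ℓ.1 - ℓ'.1) + t • (ℓ.2 - ℓ'.2) = 0 := by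
      have := sub_eq_zero.mpr ht
      rw [← this]
      module
    have e2 : (1 - t') • (ℓ.1 - ℓ'.1) + t' • (ℓ.2 - ℓ'.2) = 0 := by
      have := sub_eq_zero.mpr ht'
      rw [← this]
      module
    have : (t' - t) • (ℓ.2 - ℓ'.2) =
        (1 - t) • ((1 - t') • (ℓ.1 - ℓ'.1) + t' • (ℓ.2 - ℓ'.2)) -
          (1 - t') • ((1 - t) • (ℓ.1 - ℓ'.1) + t • (ℓ.2 - ℓ'.2)) := by
      module
    rw [this, e1, e2]
    simp
  have h1' := (smul_eq_zero.mp h1).resolve_left hne'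
  have h2' := (smul_eq_zero.mp h2).resolve_left hne'
  exact h (Prod.ext (sub_eq_zero.mp h1') (sub_eq_zero.mp h2'))

/-- The set of parameters at which two sites of a finite family coincide is finite. -/
lemma discret_bad_finite {V : Type*} [AddCommGroup V] [Module ℝ V] (L : Finset (V × V)) :
    ({t : ℝ | ∃ ℓ ∈ L, ∃ ℓ' ∈ L, ℓ ≠ ℓ' ∧
      (1 - t) • ℓ.1 + t • ℓ.2 = (1 - t) • ℓ'.1 + t • ℓ'.2}).Finite := by
  classical
  have hfin : (⋃ q ∈ (L ×ˢ L).filter (fun q => q.1 ≠ q.2),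
      {t : ℝ | (1 - t) • q.1.1 + t • q.1.2 = (1 - t) • q.2.1 + t • q.2.2}).Finite := by
    refine Set.Finite.biUnion (Finset.finite_toSet _) fun q hq => ?_
    have hq' : q.1 ≠ q.2 := (Finset.mem_filter.mp (Finset.mem_coe.mp hq)).2
    exact (discret_subsingleton hq').finite
  refine hfin.subset ?_
  rintro t ⟨ℓ, hℓ, ℓ', hℓ', hne, heq⟩
  simp only [mem_iUnion, exists_prop]
  exact ⟨(ℓ, ℓ'), Finset.mem_filter.mpr ⟨Finset.mem_product.mpr ⟨hℓ, hℓ'⟩, hne⟩, heq⟩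

/-- Discretization of a coupling `π` of two probability measures carried by a compact set:
finitely many positive masses `w i` of total mass one, injective families of sites `y₀`, `y₁`,
reproducing the integrals of Lipschitz functions against `μ`, `ν` up to `Lip * δ`, and with
`∑ w i * ‖y₁ i - y₀ i‖ ^ 2 ≤ 2 * cost + 8 * δ ^ 2`. -/
theorem exists_discretization {Y : Set (E d)} (hY : IsCompact Y) (hYne : Y.Nonempty)
    {μ ν : Measure (E d)} [IsProbabilityMeasure μ] [IsProbabilityMeasure ν]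
    (hμ : μ Yᶜ = 0) (hν : ν Yᶜ = 0) {π : Measure (E d × E d)}
    (hπ₁ : π.map Prod.fst = μ) (hπ₂ : π.map Prod.snd = ν)
    (hI : ∫⁻ z, ENNReal.ofReal (‖z.1 - z.2‖ ^ 2) ∂π ≠ ∞) {δ : ℝ} (hδ : 0 < δ) :
    ∃ (N : ℕ) (_ : NeZero N) (w : Fin N → ℝ) (y₀ y₁ : Fin N → E d),
      Function.Injective y₀ ∧ Function.Injective y₁ ∧ (∀ i, 0 < w i) ∧ ∑ i, w i = 1 ∧
      (∀ (g : E d → ℝ) (Lip : ℝ), 0 ≤ Lip → (∀ u v, g u - g v ≤ Lip * ‖u - v‖) →
        |∑ i, w i * g (y₀ i) - ∫ u, g u ∂μ| ≤ Lip * δ ∧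
        |∑ i, w i * g (y₁ i) - ∫ u, g u ∂ν| ≤ Lip * δ) ∧
      ∑ i, w i * ‖y₁ i - y₀ i‖ ^ 2 ≤
        2 * (∫⁻ z, ENNReal.ofReal (‖z.1 - z.2‖ ^ 2) ∂π).toReal + 8 * δ ^ 2 := by
  classical
  -- `π` is a probability measure
  have hπuniv : π univ = 1 := by
    have h : (π.map Prod.fst) univ = μ univ := by rw [hπ₁]
    rw [Measure.map_apply measurable_fst MeasurableSet.univ] at h
    simpa using h
  have : IsProbabilityMeasure π := ⟨hπuniv⟩
  have hYm : MeasurableSet Y := hY.measurableSet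
  have hae₁ : ∀ᵐ z ∂π, z.1 ∈ Y := by
    have h0 : π (Prod.fst ⁻¹' Yᶜ) = 0 := by
      rw [← Measure.map_apply measurable_fst hYm.compl, hπ₁]
      exact hμ
    exact ae_iff.2 h0
  have hae₂ : ∀ᵐ z ∂π, z.2 ∈ Y := by
    have h0 : π (Prod.snd ⁻¹' Yᶜ) = 0 := by
      rw [← Measure.map_apply measurable_snd hYm.compl, hπ₂]
      exact hν
    exact ae_iff.2 h0
  -- bound on `Y`
  obtain ⟨R, hR⟩ := hY.isBounded.exists_norm_le
  have hR0 : 0 ≤ R := by
    obtain ⟨u, hu⟩ := hYne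
    exact (norm_nonneg u).trans (hR u hu)
  -- the quantization map
  obtain ⟨t, htY, htf, hcov⟩ := hY.finite_cover_balls (half_pos hδ)
  have htne : t.Nonempty := by
    obtain ⟨u, hu⟩ := hYne
    have h := hcov hu
    simp only [mem_iUnion, exists_prop] at h
    obtain ⟨x, hx, _⟩ := h
    exact ⟨x, hx⟩
  obtain ⟨e, rfl⟩ := htf.countable.exists_eq_range htne
  have hcov' : Y ⊆ ⋃ k, ball (e k) (δ / 2) := by
    intro u hu
    have h := hcov hu
    simp only [mem_iUnion, exists_prop] at h ⊢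
    obtain ⟨x, ⟨k, rfl⟩, hk⟩ := h
    exact ⟨k, hk⟩
  obtain ⟨s, hs⟩ := hY.elim_finite_subcover (fun k => ball (e k) (δ / 2)) (fun _ => isOpen_ball) hcov'
  let p : SimpleFunc (E d) (E d) := SimpleFunc.nearestPt e (s.sup id)
  have hpdist : ∀ u ∈ Y, ‖p u - u‖ ≤ δ / 2 := by
    intro u hu
    have h := hs hu
    simp only [mem_iUnion, exists_prop] at h
    obtain ⟨k, hk, hku⟩ := h
    have hle : k ≤ s.sup id := Finset.le_sup (f := id) hk
    have h2 := SimpleFunc.edist_nearestPt_le e u hle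
    rw [edist_dist, edist_dist] at h2
    have h3 := (ENNReal.ofReal_le_ofReal_iff dist_nonneg).1 h2
    rw [← dist_eq_norm]
    rw [mem_ball, dist_comm] at hku
    exact h3.trans hku.le
  have hpY : ∀ u, p u ∈ Y := by
    intro u
    exact htY ⟨_, rfl⟩
  have hpnorm : ∀ u, ‖p u‖ ≤ R := fun u => hR _ (hpY u)
  -- the labels
  let P : E d × E d → E d × E d := fun z => (p z.1, p z.2)
  have hPm : Measurable P :=
    (p.measurable.comp measurable_fst).prodMk (p.measurable.comp measurable_snd)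
  let F : Finset (E d × E d) := p.range ×ˢ p.range
  have hF : ∀ z, P z ∈ F := fun z =>
    Finset.mem_product.mpr ⟨SimpleFunc.mem_range_self p z.1, SimpleFunc.mem_range_self p z.2⟩
  let W : E d × E d → ℝ := fun ℓ => π.real (P ⁻¹' {ℓ})
  let L : Finset (E d × E d) := F.filter (fun ℓ => W ℓ ≠ 0)
  have hWpos : ∀ ℓ ∈ L, 0 < W ℓ := fun ℓ hℓ =>
    lt_of_le_of_ne (measureReal_nonneg (μ := π)) (Ne.symm (Finset.mem_filter.mp hℓ).2)
  have hintL : ∀ f : E d × E d → ℝ, Integrable (fun z => f (P z)) π ∧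
      ∫ z, f (P z) ∂π = ∑ ℓ ∈ L, W ℓ * f ℓ := by
    intro f
    obtain ⟨h1, h2⟩ := discret_integral_comp_finite (π := π) hPm F hF f
    refine ⟨h1, h2.trans ?_⟩
    symm
    apply Finset.sum_filter_of_ne
    intro ℓ _ h
    exact fun h0 => h (by simp only [W] at h0 ⊢; rw [h0, zero_mul])
  have hsum1 : ∑ ℓ ∈ L, W ℓ = 1 := by
    have h := (hintL (fun _ => 1)).2
    simp only [mul_one] at h
    rw [← h]
    simp
  have hLne : L.Nonempty := by
    by_contra hne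
    rw [Finset.not_nonempty_iff_eq_empty] at hne
    rw [hne] at hsum1
    simp at hsum1
  -- the parameters
  set η : ℝ := δ / (4 * (R + 1)) with hη
  have hηpos : 0 < η := div_pos hδ (by positivity)
  obtain ⟨t₀, ht₀, ht₀B⟩ := (Set.Ioo_infinite hηpos).exists_notMem_finite (discret_bad_finite L)
  obtain ⟨t₁, ht₁, ht₁B⟩ := (Set.Ioo_infinite (show 1 - η < 1 by linarith)).exists_notMem_finite
    (discret_bad_finite L)
  have hsm : ∀ τ : ℝ, |τ| < η → |τ| * (2 * R) ≤ δ / 2 := by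
    intro τ hτ
    have h1 : |τ| * (4 * (R + 1)) < δ := (lt_div_iff₀ (by positivity)).1 hτ
    nlinarith [abs_nonneg τ]
  let Y₀ : E d × E d → E d := fun ℓ => (1 - t₀) • ℓ.1 + t₀ • ℓ.2
  let Y₁ : E d × E d → E d := fun ℓ => (1 - t₁) • ℓ.1 + t₁ • ℓ.2
  have hY₀inj : ∀ ℓ ∈ L, ∀ ℓ' ∈ L, Y₀ ℓ = Y₀ ℓ' → ℓ = ℓ' := by
    intro ℓ hℓ ℓ' hℓ' h
    by_contra hne
    exact ht₀B ⟨ℓ, hℓ, ℓ', hℓ', hne, h⟩
  have hY₁inj : ∀ ℓ ∈ L, ∀ ℓ' ∈ L, Y₁ ℓ = Y₁ ℓ' → ℓ = ℓ' := by
    intro ℓ hℓ ℓ' hℓ' h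
    by_contra hne
    exact ht₁B ⟨ℓ, hℓ, ℓ', hℓ', hne, h⟩
  have hdiff : ∀ a b : E d, ‖p a - p b‖ ≤ 2 * R := by
    intro a b
    calc ‖p a - p b‖ ≤ ‖p a‖ + ‖p b‖ := norm_sub_le _ _
      _ ≤ 2 * R := by linarith [hpnorm a, hpnorm b]
  have hclose₀ : ∀ z : E d × E d, z.1 ∈ Y → ‖Y₀ (P z) - z.1‖ ≤ δ := by
    intro z hz
    have h1 : Y₀ (P z) - z.1 = (p z.1 - z.1) + t₀ • (p z.2 - p z.1) := by
      simp only [Y₀, P]
      module
    rw [h1]
    calc ‖(p z.1 - z.1) + t₀ • (p z.2 - p z.1)‖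
        ≤ ‖p z.1 - z.1‖ + ‖t₀ • (p z.2 - p z.1)‖ := norm_add_le _ _
      _ ≤ δ / 2 + |t₀| * (2 * R) := by
          rw [norm_smul, Real.norm_eq_abs]
          gcongr
          · exact hpdist _ hz
          · exact hdiff _ _
      _ ≤ δ := by
          have := hsm t₀ (by rw [abs_of_pos ht₀.1]; exact ht₀.2)
          linarith
  have hclose₁ : ∀ z : E d × E d, z.2 ∈ Y → ‖Y₁ (P z) - z.2‖ ≤ δ := by
    intro z hz
    have h1 : Y₁ (P z) - z.2 = (p z.2 - z.2) + (1 - t₁) • (p z.1 - p z.2) := by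
      simp only [Y₁, P]
      module
    rw [h1]
    calc ‖(p z.2 - z.2) + (1 - t₁) • (p z.1 - p z.2)‖
        ≤ ‖p z.2 - z.2‖ + ‖(1 - t₁) • (p z.1 - p z.2)‖ := norm_add_le _ _
      _ ≤ δ / 2 + |1 - t₁| * (2 * R) := by
          rw [norm_smul, Real.norm_eq_abs]
          gcongr
          · exact hpdist _ hz
          · exact hdiff _ _
      _ ≤ δ := by
          have := hsm (1 - t₁) (by
            rw [abs_of_pos (by linarith [ht₁.2])]
            linarith [ht₁.1])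
          linarith
  -- reindexing
  let ℓf : Fin L.card → E d × E d := fun i => (L.equivFin.symm i : E d × E d)
  have hℓf : ∀ i, ℓf i ∈ L := fun i => (L.equivFin.symm i).2
  have hℓfinj : Function.Injective ℓf := fun i j h =>
    L.equivFin.symm.injective (Subtype.ext h)
  have hreindex : ∀ G : E d × E d → ℝ, ∑ i, G (ℓf i) = ∑ ℓ ∈ L, G ℓ := by
    intro G
    rw [← Finset.sum_coe_sort L G]
    exact Equiv.sum_comp L.equivFin.symm (fun x : L => G x)
  have hcard : L.card ≠ 0 := Finset.card_ne_zero.mpr hLne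
  refine ⟨L.card, ⟨hcard⟩, fun i => W (ℓf i), fun i => Y₀ (ℓf i), fun i => Y₁ (ℓf i),
    ?_, ?_, fun i => hWpos _ (hℓf i), ?_, ?_, ?_⟩
  · intro i j h
    exact hℓfinj (hY₀inj _ (hℓf i) _ (hℓf j) h)
  · intro i j h
    exact hℓfinj (hY₁inj _ (hℓf i) _ (hℓf j) h)
  · rw [hreindex W]
    exact hsum1
  · intro g Lip hLip hg
    have hgabs : ∀ u v, |g u - g v| ≤ Lip * ‖u - v‖ := by
      intro u v
      rw [abs_le]
      constructor
      · have := hg v u
        rw [norm_sub_rev] at this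
        linarith
      · exact hg u v
    have hgcont : Continuous g := by
      have hl : LipschitzWith Lip.toNNReal g := by
        apply LipschitzWith.of_dist_le_mul
        intro u v
        rw [Real.dist_eq, dist_eq_norm, Real.coe_toNNReal _ hLip]
        exact hgabs u v
      exact hl.continuous
    have hgm : Measurable g := hgcont.measurable
    have aux : ∀ (q : E d × E d → E d) (ρ : Measure (E d)) (Y' : E d × E d → E d),
        Measurable q → π.map q = ρ → (∀ᵐ z ∂π, ‖Y' (P z) - q z‖ ≤ δ) →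
        |∑ i, W (ℓf i) * g (Y' (ℓf i)) - ∫ u, g u ∂ρ| ≤ Lip * δ := by
      intro q ρ Y' hq hρ hclose
      obtain ⟨hi1, hi2⟩ := hintL (fun ℓ => g (Y' ℓ))
      have hi3 : Integrable (fun z => g (q z)) π := by
        refine Integrable.mono' (g := fun z => |g (Y' (P z))| + Lip * δ)
          (hi1.abs.add (integrable_const _)) (hgm.comp hq).aestronglyMeasurable ?_
        filter_upwards [hclose] with z hz
        rw [Real.norm_eq_abs]
        have h1 := hgabs (q z) (Y' (P z))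
        rw [norm_sub_rev] at h1
        have h2 : |g (q z)| ≤ |g (Y' (P z))| + |g (q z) - g (Y' (P z))| := by
          have := abs_add_le (g (Y' (P z))) (g (q z) - g (Y' (P z)))
          simpa using this
        have h3 : Lip * ‖Y' (P z) - q z‖ ≤ Lip * δ := mul_le_mul_of_nonneg_left hz hLip
        linarith
      have e1 : ∑ i, W (ℓf i) * g (Y' (ℓf i)) = ∫ z, g (Y' (P z)) ∂π := by
        rw [hi2, hreindex (fun ℓ => W ℓ * g (Y' ℓ))]
      have e2 : ∫ u, g u ∂ρ = ∫ z, g (q z) ∂π := by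
        rw [← hρ, integral_map hq.aemeasurable hgm.aestronglyMeasurable]
      rw [e1, e2, ← integral_sub hi1 hi3, ← Real.norm_eq_abs]
      have hbd : ∀ᵐ z ∂π, ‖g (Y' (P z)) - g (q z)‖ ≤ Lip * δ := by
        filter_upwards [hclose] with z hz
        rw [Real.norm_eq_abs]
        exact (hgabs _ _).trans (mul_le_mul_of_nonneg_left hz hLip)
      have := norm_integral_le_of_norm_le_const hbd
      simpa using this
    refine ⟨aux Prod.fst μ Y₀ measurable_fst hπ₁ ?_, aux Prod.snd ν Y₁ measurable_snd hπ₂ ?_⟩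
    · filter_upwards [hae₁] with z hz using hclose₀ z hz
    · filter_upwards [hae₂] with z hz using hclose₁ z hz
  · -- the cost
    obtain ⟨hi1, hi2⟩ := hintL (fun ℓ => ‖Y₁ ℓ - Y₀ ℓ‖ ^ 2)
    have e1 : ∑ i, W (ℓf i) * ‖Y₁ (ℓf i) - Y₀ (ℓf i)‖ ^ 2 =
        ∫ z, ‖Y₁ (P z) - Y₀ (P z)‖ ^ 2 ∂π := by
      rw [hi2, hreindex (fun ℓ => W ℓ * ‖Y₁ ℓ - Y₀ ℓ‖ ^ 2)]
    have hcm : Measurable (fun z : E d × E d => ‖z.1 - z.2‖ ^ 2) := by
      fun_prop
    have hci : Integrable (fun z : E d × E d => ‖z.1 - z.2‖ ^ 2) π := by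
      refine Integrable.of_bound hcm.aestronglyMeasurable ((2 * R) ^ 2) ?_
      filter_upwards [hae₁, hae₂] with z h1 h2
      rw [Real.norm_eq_abs, abs_of_nonneg (by positivity)]
      have : ‖z.1 - z.2‖ ≤ 2 * R := by
        calc ‖z.1 - z.2‖ ≤ ‖z.1‖ + ‖z.2‖ := norm_sub_le _ _
          _ ≤ 2 * R := by linarith [hR _ h1, hR _ h2]
      gcongr
    have e2 : ∫ z, ‖z.1 - z.2‖ ^ 2 ∂π = (∫⁻ z, ENNReal.ofReal (‖z.1 - z.2‖ ^ 2) ∂π).toReal := by
      exact integral_eq_lintegral_of_nonneg_ae (Eventually.of_forall fun z => by positivity)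
        hcm.aestronglyMeasurable
    rw [e1, ← e2]
    have hmono : ∫ z, ‖Y₁ (P z) - Y₀ (P z)‖ ^ 2 ∂π ≤
        ∫ z, (2 * ‖z.1 - z.2‖ ^ 2 + 8 * δ ^ 2) ∂π := by
      refine integral_mono_ae hi1 ((hci.const_mul 2).add (integrable_const _)) ?_
      filter_upwards [hae₁, hae₂] with z h1 h2
      have h3 := hclose₀ z h1
      have h4 := hclose₁ z h2
      have h5 : ‖Y₁ (P z) - Y₀ (P z)‖ ≤ ‖z.1 - z.2‖ + 2 * δ := by
        have : Y₁ (P z) - Y₀ (P z) = (Y₁ (P z) - z.2) - (z.1 - z.2) - (Y₀ (P z) - z.1) := by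
          abel
        rw [this]
        calc ‖(Y₁ (P z) - z.2) - (z.1 - z.2) - (Y₀ (P z) - z.1)‖
            ≤ ‖(Y₁ (P z) - z.2) - (z.1 - z.2)‖ + ‖Y₀ (P z) - z.1‖ := norm_sub_le _ _
          _ ≤ ‖Y₁ (P z) - z.2‖ + ‖z.1 - z.2‖ + ‖Y₀ (P z) - z.1‖ := by
              gcongr
              exact norm_sub_le _ _
          _ ≤ ‖z.1 - z.2‖ + 2 * δ := by linarith
      have h6 : 0 ≤ ‖z.1 - z.2‖ := norm_nonneg _
      have h7 : 0 ≤ ‖Y₁ (P z) - Y₀ (P z)‖ := norm_nonneg _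
      have h8 : ‖Y₁ (P z) - Y₀ (P z)‖ ^ 2 ≤ (‖z.1 - z.2‖ + 2 * δ) ^ 2 := by
        gcongr
      nlinarith [sq_nonneg (‖z.1 - z.2‖ - 2 * δ)]
    refine hmono.trans (le_of_eq ?_)
    rw [integral_add (hci.const_mul 2) (integrable_const _), integral_const_mul]
    simp

end Vale.Agent.Lib.P074.T
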