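import Mathlib
import Vale.Agent.Lib.P074.Q.Final
import Vale.Agent.Lib.P074.T.Chain
import Vale.Agent.Lib.P074.T.Discret

/-!
# The perturbed source density, and the four bounds at the ends of the chain.
-/

open MeasureTheory Metric Set Filter Topology
open scoped ENNReal NNReal

namespace Vale.Agent.Lib.P074.T

variable {d : ℕ} {ι : Type*} [Fintype ι]

/-- The perturbed density: move the mass `τ ζ` by the translation `h`. -/
noncomputable def pert (τ : ℝ) (ζ : E d → ℝ) (h : E d) (x : E d) : ℝ :=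
  1 + τ * (ζ (x - h) - ζ x)

section pert

variable {K : Set (E d)} {τ Z : ℝ} {ζ : E d → ℝ} {h : E d}

lemma measurable_pert (hζm : Measurable ζ) : Measurable (pert τ ζ h) := by
  unfold pert
  fun_prop

lemma pert_bounds (hτ : 0 ≤ τ) (hτZ : τ * Z ≤ 1 / 4) (hζ : ∀ x, 0 ≤ ζ x ∧ ζ x ≤ Z) (x : E d) :
    3 / 4 ≤ pert τ ζ h x ∧ pert τ ζ h x ≤ 5 / 4 := by
  unfold pert
  have h1 := (hζ (x - h)).1
  have h2 := (hζ (x - h)).2
  have h3 := (hζ x).1
  have h4 := (hζ x).2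
  constructor <;> nlinarith [mul_le_mul_of_nonneg_left h2 hτ, mul_le_mul_of_nonneg_left h4 hτ,
    mul_nonneg hτ h1, mul_nonneg hτ h3]

/-- a continuous function times a bounded measurable function is integrable on a compact set. -/
lemma integrableOn_cont_mul (hK : IsCompact K) {G ξ : E d → ℝ} (hG : Continuous G)
    (hξm : Measurable ξ) {Z' : ℝ} (hξ : ∀ x, |ξ x| ≤ Z') :
    IntegrableOn (fun x => G x * ξ x) K := by
  obtain ⟨M, hM⟩ := hK.exists_bound_of_continuousOn hG.continuousOn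
  refine integrableOn_of_bound (M := M * Z') hK (hG.measurable.mul hξm) ?_
  intro x hx
  rw [abs_mul]
  have h1 : |G x| ≤ M := hM x hx
  exact mul_le_mul h1 (hξ x) (abs_nonneg _) (le_trans (abs_nonneg _) h1)

/-- The translated mass: change of variables. -/
lemma integral_translate (hζ0 : ∀ x, ¬ (x ∈ K ∧ x + h ∈ K) → ζ x = 0) (G : E d → ℝ) :
    ∫ x in K, G x * ζ (x - h) = ∫ x in K, G (x + h) * ζ x := by
  rw [setIntegral_eq_integral_of_forall_compl_eq_zero, setIntegral_eq_integral_of_forall_compl_eq_zero]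
  · have h1 : (fun x => G x * ζ (x - h)) = fun x => (fun u => G (u + h) * ζ u) (x - h) := by
      funext x
      simp
    rw [h1, integral_sub_right_eq_self (fun u => G (u + h) * ζ u) h]
  · intro x hx
    rw [hζ0 x (fun h' => hx h'.1), mul_zero]
  · intro x hx
    rw [hζ0 (x - h) (fun h' => hx (by simpa using h'.2)), mul_zero]

/-- Change of variables for the perturbed density, for `g` continuous. -/
theorem integral_mul_pert (hK : IsCompact K) (hζm : Measurable ζ) (hζ : ∀ x, 0 ≤ ζ x ∧ ζ x ≤ Z)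
    (hζ0 : ∀ x, ¬ (x ∈ K ∧ x + h ∈ K) → ζ x = 0) {g : E d → ℝ} (hg : Continuous g) :
    ∫ x in K, g x * pert τ ζ h x =
      (∫ x in K, g x) + τ * ∫ x in K, ζ x * (g (x + h) - g x) := by
  have hζabs : ∀ x, |ζ x| ≤ Z := fun x => by
    rw [abs_of_nonneg (hζ x).1]; exact (hζ x).2
  have hm1 : Measurable fun x => ζ (x - h) := hζm.comp (measurable_id.sub_const h)
  have hi0 : IntegrableOn g K := hg.continuousOn.integrableOn_compact hK
  have hi1 : IntegrableOn (fun x => g x * ζ (x - h)) K :=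
    integrableOn_cont_mul hK hg hm1 (fun x => hζabs _)
  have hi2 : IntegrableOn (fun x => g x * ζ x) K := integrableOn_cont_mul hK hg hζm hζabs
  have hg' : Continuous fun x => g (x + h) := hg.comp (continuous_id.add continuous_const)
  have hi3 : IntegrableOn (fun x => g (x + h) * ζ x) K := integrableOn_cont_mul hK hg' hζm hζabs
  have e1 : ∀ x, g x * pert τ ζ h x = g x + τ * (g x * ζ (x - h) - g x * ζ x) := by
    intro x
    unfold pert
    ring
  have e2 : ∀ x, ζ x * (g (x + h) - g x) = g (x + h) * ζ x - g x * ζ x := by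
    intro x
    ring
  simp_rw [e1, e2]
  have hi12 : IntegrableOn (fun x => τ * (g x * ζ (x - h) - g x * ζ x)) K :=
    (hi1.sub hi2).const_mul τ
  rw [integral_add hi0 hi12, integral_const_mul, integral_sub hi1 hi2,
    integral_sub hi3 hi2, integral_translate hζ0]

/-- The perturbed density has the same total mass. -/
theorem integral_pert (hK : IsCompact K) (hζm : Measurable ζ) (hζ : ∀ x, 0 ≤ ζ x ∧ ζ x ≤ Z)
    (hζ0 : ∀ x, ¬ (x ∈ K ∧ x + h ∈ K) → ζ x = 0) :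
    ∫ x in K, pert τ ζ h x = ∫ _x in K, (1 : ℝ) := by
  have h1 := integral_mul_pert (τ := τ) hK hζm hζ hζ0 (g := fun _ => (1 : ℝ)) continuous_const
  simpa using h1

/-- The `L²` norm of the perturbation. -/
theorem integral_pert_sub_one_sq (hK : IsCompact K) (hζm : Measurable ζ)
    (hζ : ∀ x, 0 ≤ ζ x ∧ ζ x ≤ Z) (hζ0 : ∀ x, ¬ (x ∈ K ∧ x + h ∈ K) → ζ x = 0) :
    ∫ x in K, (pert τ ζ h x - 1) ^ 2 ≤ 4 * τ ^ 2 * ∫ x in K, ζ x ^ 2 := by
  have hζabs : ∀ x, |ζ x| ≤ Z := fun x => by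
    rw [abs_of_nonneg (hζ x).1]; exact (hζ x).2
  have hm1 : Measurable fun x => ζ (x - h) := hζm.comp (measurable_id.sub_const h)
  have hsq : ∀ {ξ : E d → ℝ}, Measurable ξ → (∀ x, |ξ x| ≤ Z) → IntegrableOn (fun x => ξ x ^ 2) K := by
    intro ξ hξm hξ
    refine integrableOn_of_bound (M := Z * Z) hK (hξm.pow_const 2) ?_
    intro x _
    rw [abs_pow, sq]
    exact mul_le_mul (hξ x) (hξ x) (abs_nonneg _) (le_trans (abs_nonneg _) (hξ x))
  have hi1 := hsq hm1 (fun x => hζabs _)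
  have hi2 := hsq hζm hζabs
  have hZ : 0 ≤ Z := le_trans (abs_nonneg _) (hζabs 0)
  have e1 : ∫ x in K, ζ (x - h) ^ 2 = ∫ x in K, ζ x ^ 2 := by
    rw [setIntegral_eq_integral_of_forall_compl_eq_zero, setIntegral_eq_integral_of_forall_compl_eq_zero]
    · exact integral_sub_right_eq_self (fun u => ζ u ^ 2) h
    · intro x hx
      rw [hζ0 x (fun h' => hx h'.1)]
      norm_num
    · intro x hx
      rw [hζ0 (x - h) (fun h' => hx (by simpa using h'.2))]
      norm_num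
  have hle : ∀ x, (pert τ ζ h x - 1) ^ 2 ≤ 2 * τ ^ 2 * ζ (x - h) ^ 2 + 2 * τ ^ 2 * ζ x ^ 2 := by
    intro x
    unfold pert
    have h1 : (1 + τ * (ζ (x - h) - ζ x) - 1) ^ 2 = τ ^ 2 * (ζ (x - h) - ζ x) ^ 2 := by ring
    rw [h1]
    nlinarith [sq_nonneg τ, sq_nonneg (ζ (x - h) + ζ x),
      mul_nonneg (sq_nonneg τ) (sq_nonneg (ζ (x - h) + ζ x))]
  have hi3 : IntegrableOn (fun x => 2 * τ ^ 2 * ζ (x - h) ^ 2 + 2 * τ ^ 2 * ζ x ^ 2) K :=
    (hi1.const_mul _).add (hi2.const_mul _)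
  have hi4 : IntegrableOn (fun x => (pert τ ζ h x - 1) ^ 2) K := by
    refine integrableOn_of_bound (M := ((|τ| * (Z + Z)) ^ 2)) hK
      (((measurable_pert hζm).sub_const 1).pow_const 2) ?_
    intro x _
    rw [abs_pow, pow_le_pow_iff_left₀ (abs_nonneg _) (by positivity) (by norm_num)]
    unfold pert
    have h1 : 1 + τ * (ζ (x - h) - ζ x) - 1 = τ * (ζ (x - h) - ζ x) := by ring
    rw [h1, abs_mul]
    apply mul_le_mul_of_nonneg_left _ (abs_nonneg _)
    refine le_trans (abs_sub _ _) (add_le_add (hζabs _) (hζabs _))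
  calc ∫ x in K, (pert τ ζ h x - 1) ^ 2
      ≤ ∫ x in K, (2 * τ ^ 2 * ζ (x - h) ^ 2 + 2 * τ ^ 2 * ζ x ^ 2) :=
        setIntegral_mono hi4 hi3 (fun x => hle x)
    _ = 4 * τ ^ 2 * ∫ x in K, ζ x ^ 2 := by
        rw [integral_add (hi1.const_mul _) (hi2.const_mul _), integral_const_mul, integral_const_mul, e1]
        ring

end pert

section conj

variable {K : Set (E d)}

/-- The conjugate on `K`. -/
noncomputable def conjK (K : Set (E d)) (f : E d → ℝ) (u : E d) : ℝ :=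
  ⨆ x : K, (inner ℝ (x : E d) u - f x)

lemma conjK_bdd (hK : IsCompact K) {f : E d → ℝ} (hf : Continuous f) (u : E d) :
    BddAbove (range fun x : K => inner ℝ (x : E d) u - f x) := by
  have hc : ContinuousOn (fun x : E d => inner ℝ x u - f x) K :=
    ((continuous_id.inner continuous_const).sub hf).continuousOn
  have := hK.bddAbove_image hc
  refine this.mono ?_
  rintro _ ⟨x, rfl⟩
  exact ⟨x, x.2, rfl⟩

lemma le_conjK (hK : IsCompact K) {f : E d → ℝ} (hf : Continuous f) (u : E d) {x : E d}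
    (hx : x ∈ K) : inner ℝ x u - f x ≤ conjK K f u :=
  le_ciSup (f := fun x : K => inner ℝ (x : E d) u - f x) (conjK_bdd hK hf u) ⟨x, hx⟩

lemma conjK_le (hne : K.Nonempty) {f : E d → ℝ} {u : E d} {c : ℝ}
    (h : ∀ x ∈ K, inner ℝ x u - f x ≤ c) : conjK K f u ≤ c := by
  have : Nonempty K := hne.to_subtype
  exact ciSup_le fun x => h x x.2

lemma conjK_lip (hK : IsCompact K) (hne : K.Nonempty) {f : E d → ℝ} (hf : Continuous f) {L : ℝ}
    (hL : ∀ x ∈ K, ‖x‖ ≤ L) (u v : E d) : conjK K f u - conjK K f v ≤ L * ‖u - v‖ := by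
  have h1 : conjK K f u ≤ conjK K f v + L * ‖u - v‖ := by
    refine conjK_le hne fun x hx => ?_
    have h2 := le_conjK hK hf v hx
    have h3 : inner ℝ x u = inner ℝ x v + inner ℝ x (u - v) := by
      rw [inner_sub_right]; ring
    have h4 : inner ℝ x (u - v) ≤ ‖x‖ * ‖u - v‖ := real_inner_le_norm _ _
    have h5 : ‖x‖ * ‖u - v‖ ≤ L * ‖u - v‖ :=
      mul_le_mul_of_nonneg_right (hL x hx) (norm_nonneg _)
    linarith
  linarith

end conj

/-- A function with the one sided Lipschitz bound is continuous. -/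
lemma continuous_of_lip {ψ : E d → ℝ} {L : ℝ} (hL0 : 0 ≤ L) (hψ : ∀ u v, ψ u - ψ v ≤ L * ‖u - v‖) :
    Continuous ψ := by
  have : LipschitzWith (Real.toNNReal L) ψ := by
    refine LipschitzWith.of_le_add_mul _ fun u v => ?_
    have := hψ u v
    rw [Real.coe_toNNReal _ hL0, dist_eq_norm]
    linarith
  exact this.continuous

/-- The transport of the integral of a Lipschitz function under the map `T`. -/
lemma volume_mul_integral_map {K : Set (E d)} (hK : IsCompact K) (hint : (interior K).Nonempty)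
    {μ : Measure (E d)} {T : E d → E d} (hTm : Measurable T) (hTmap : (uniformProb K).map T = μ)
    {ψ : E d → ℝ} (hψc : Continuous ψ) :
    (volume K).toReal * ∫ u, ψ u ∂μ = ∫ x in K, ψ (T x) := by
  have hV0 : volume K ≠ 0 := by
    have h1 : volume (interior K) ≠ 0 := (isOpen_interior.measure_pos volume hint).ne'
    intro h0
    exact h1 (measure_mono_null interior_subset h0)
  have hVt : volume K ≠ ⊤ := hK.measure_lt_top.ne
  have hVr : (volume K).toReal ≠ 0 := ENNReal.toReal_ne_zero.2 ⟨hV0, hVt⟩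
  rw [← hTmap, integral_map hTm.aemeasurable hψc.aestronglyMeasurable]
  unfold uniformProb
  rw [integral_smul_measure, ENNReal.toReal_inv, smul_eq_mul, ← mul_assoc,
    mul_inv_cancel₀ hVr, one_mul]

/-- The quantized mass against a Lipschitz function. -/
lemma sum_quant_bound {K : Set (E d)} (hK : IsCompact K) (hint : (interior K).Nonempty)
    {μ : Measure (E d)} {T : E d → E d} (hTm : Measurable T) (hTmap : (uniformProb K).map T = μ)
    {L : ℝ} (hL0 : 0 < L) {ψ : E d → ℝ} (hψ : ∀ u v, ψ u - ψ v ≤ L * ‖u - v‖)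
    {w : ι → ℝ} {y : ι → E d} {δ : ℝ}
    (hw : ∀ (g : E d → ℝ), (∀ u v, g u - g v ≤ L * ‖u - v‖) →
      |∑ i, w i * g (y i) - ∫ u, g u ∂μ| ≤ L * δ) :
    |∑ i, ((volume K).toReal * w i) * ψ (y i) - ∫ x in K, ψ (T x)| ≤ (volume K).toReal * (L * δ) := by
  have hψc := continuous_of_lip hL0.le hψ
  have h1 := hw ψ hψ
  have hV : 0 ≤ (volume K).toReal := ENNReal.toReal_nonneg
  rw [← volume_mul_integral_map hK hint hTm hTmap hψc]
  have h2 : ∑ i, ((volume K).toReal * w i) * ψ (y i) = (volume K).toReal * ∑ i, w i * ψ (y i) := by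
    rw [Finset.mul_sum]
    refine Finset.sum_congr rfl fun i _ => ?_
    ring
  rw [h2, ← mul_sub, abs_mul, abs_of_nonneg hV]
  exact mul_le_mul_of_nonneg_left h1 hV

section ints

variable {K Y : Set (E d)}

lemma integrableOn_inner_T (hK : IsCompact K) (hY : IsCompact Y) {T : E d → E d}
    (hTm : Measurable T) (hTY : ∀ x, T x ∈ Y) {L : ℝ} (hL : ∀ x ∈ K, ‖x‖ ≤ L) :
    IntegrableOn (fun x => inner ℝ x (T x)) K := by
  obtain ⟨R, hR⟩ := hY.isBounded.exists_norm_le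
  refine integrableOn_of_bound (M := L * R) hK (measurable_id.inner hTm) ?_
  intro x hx
  refine le_trans (abs_real_inner_le_norm _ _) ?_
  exact mul_le_mul (hL x hx) (hR _ (hTY x)) (norm_nonneg _) (le_trans (norm_nonneg _) (hL x hx))

lemma integrableOn_zeta_inner (hK : IsCompact K) (hY : IsCompact Y) {T : E d → E d}
    (hTm : Measurable T) (hTY : ∀ x, T x ∈ Y) {ζ : E d → ℝ} {Z : ℝ} (hζm : Measurable ζ)
    (hζ : ∀ x, 0 ≤ ζ x ∧ ζ x ≤ Z) (h : E d) :
    IntegrableOn (fun x => ζ x * inner ℝ h (T x)) K := by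
  obtain ⟨R, hR⟩ := hY.isBounded.exists_norm_le
  refine integrableOn_of_bound (M := Z * (‖h‖ * R)) hK
    (hζm.mul (measurable_const.inner hTm)) ?_
  intro x _
  rw [abs_mul, abs_of_nonneg (hζ x).1]
  have h1 : |inner ℝ h (T x)| ≤ ‖h‖ * R :=
    le_trans (abs_real_inner_le_norm _ _) (mul_le_mul_of_nonneg_left (hR _ (hTY x)) (norm_nonneg _))
  exact mul_le_mul (hζ x).2 h1 (abs_nonneg _) (le_trans (hζ x).1 (hζ x).2)

lemma integrableOn_psi_T (hK : IsCompact K) (hY : IsCompact Y) {T : E d → E d}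
    (hTm : Measurable T) (hTY : ∀ x, T x ∈ Y) {ψ : E d → ℝ} (hψc : Continuous ψ) :
    IntegrableOn (fun x => ψ (T x)) K := by
  obtain ⟨M, hM⟩ := hY.exists_bound_of_continuousOn hψc.continuousOn
  refine integrableOn_of_bound (M := M) hK (hψc.measurable.comp hTm) ?_
  intro x _
  exact hM _ (hTY x)

lemma integrableOn_zeta_diff (hK : IsCompact K) {ζ : E d → ℝ} {Z : ℝ} (hζm : Measurable ζ)
    (hζ : ∀ x, 0 ≤ ζ x ∧ ζ x ≤ Z) (h : E d) {f : E d → ℝ} (hf : Continuous f) :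
    IntegrableOn (fun x => ζ x * (f (x + h) - f x)) K := by
  have hζabs : ∀ x, |ζ x| ≤ Z := fun x => by
    rw [abs_of_nonneg (hζ x).1]; exact (hζ x).2
  have hc : Continuous fun x => f (x + h) - f x :=
    (hf.comp (continuous_id.add continuous_const)).sub hf
  have := integrableOn_cont_mul hK hc hζm hζabs
  refine this.congr_fun (fun x _ => ?_) (hK.measurableSet)
  simp only
  ring

end ints

/-- The lower bound of the dual functional, valid for all weights: Fenchel at `x` and at `x + h`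
with the exact map `T`.  Here `V` is the volume of `K`, the masses are `V * w i`, `T` pushes the
uniform measure to `μ`, and `δ` controls the quantization error. -/
theorem dual_lower {K Y : Set (E d)} (hK : IsCompact K) (hconv : Convex ℝ K)
    (hint : (interior K).Nonempty) (hY : IsCompact Y) {L : ℝ} (hL0 : 0 < L)
    (hL : ∀ x ∈ K, ‖x‖ ≤ L) {μ : Measure (E d)} [IsProbabilityMeasure μ]
    {T : E d → E d} (hTm : Measurable T) (hTY : ∀ x, T x ∈ Y)
    (hTmap : (uniformProb K).map T = μ)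
    [Nonempty ι] {w : ι → ℝ} {y : ι → E d} {δ : ℝ} (hδ : 0 ≤ δ)
    (hw : ∀ (g : E d → ℝ), (∀ u v, g u - g v ≤ L * ‖u - v‖) →
      |∑ i, w i * g (y i) - ∫ u, g u ∂μ| ≤ L * δ)
    (hw0 : ∀ i, 0 ≤ w i) {τ Z : ℝ} {ζ : E d → ℝ} {h : E d} (hτ : 0 ≤ τ) (hτZ : τ * Z ≤ 1 / 4)
    (hζm : Measurable ζ) (hζ : ∀ x, 0 ≤ ζ x ∧ ζ x ≤ Z)
    (hζ0 : ∀ x, ¬ (x ∈ K ∧ x + h ∈ K) → ζ x = 0) (a : ι → ℝ) :
    (∫ x in K, inner ℝ x (T x)) + τ * (∫ x in K, ζ x * inner ℝ h (T x))
        - (volume K).toReal * (L * δ) ≤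
      dual K (pert τ ζ h) (fun i => (volume K).toReal * w i) y a := by
  have hKne : K.Nonempty := hint.mono interior_subset
  have hV : 0 ≤ (volume K).toReal := ENNReal.toReal_nonneg
  set f : E d → ℝ := pot y a with hf
  have hfc : Continuous f := continuous_pot y a
  set ψ : E d → ℝ := conjK K f with hψ
  have hψL : ∀ u v, ψ u - ψ v ≤ L * ‖u - v‖ := conjK_lip hK hKne hfc hL
  have hψc : Continuous ψ := continuous_of_lip hL0.le hψL
  have hψa : ∀ i, ψ (y i) ≤ a i := by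
    intro i
    refine conjK_le hKne fun x _ => ?_
    have := le_pot y a x i
    simp only [hf]
    linarith
  have hsum := abs_le.1 (sum_quant_bound hK hint hTm hTmap hL0 hψL hw)
  have hsum2 : ∑ i, ((volume K).toReal * w i) * ψ (y i) ≤ ∑ i, ((volume K).toReal * w i) * a i :=
    Finset.sum_le_sum fun i _ =>
      mul_le_mul_of_nonneg_left (hψa i) (mul_nonneg hV (hw0 i))
  have hmain := integral_mul_pert (τ := τ) hK hζm hζ hζ0 hfc
  have hKm : MeasurableSet K := hK.measurableSet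
  have hA := integrableOn_inner_T hK hY hTm hTY hL
  have hB := integrableOn_zeta_inner hK hY hTm hTY hζm hζ h
  have hC : IntegrableOn f K := hfc.continuousOn.integrableOn_compact hK
  have hD := integrableOn_zeta_diff hK hζm hζ h hfc
  have hE := integrableOn_psi_T hK hY hTm hTY hψc
  have hpt : ∀ x ∈ K, inner ℝ x (T x) + τ * (ζ x * inner ℝ h (T x))
      ≤ f x + τ * (ζ x * (f (x + h) - f x)) + ψ (T x) := by
    intro x hx
    have h1 := le_conjK hK hfc (T x) hx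
    have htz0 : 0 ≤ τ * ζ x := mul_nonneg hτ (hζ x).1
    have htz1 : τ * ζ x ≤ 1 / 4 := by
      have := mul_le_mul_of_nonneg_left (hζ x).2 hτ
      linarith
    by_cases hxh : x + h ∈ K
    · have h2 := le_conjK hK hfc (T x) hxh
      have h3 : inner ℝ (x + h) (T x) = inner ℝ x (T x) + inner ℝ h (T x) := inner_add_left _ _ _
      rw [h3] at h2
      have h4 := mul_le_mul_of_nonneg_left h2 htz0
      have h5 := mul_le_mul_of_nonneg_left h1 (by linarith : 0 ≤ 1 - τ * ζ x)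
      nlinarith
    · have hz : ζ x = 0 := hζ0 x fun h' => hxh h'.2
      rw [hz]
      simp only [zero_mul, mul_zero, add_zero]
      linarith
  have hint1 : ∫ x in K, (inner ℝ x (T x) + τ * (ζ x * inner ℝ h (T x)))
      ≤ ∫ x in K, (f x + τ * (ζ x * (f (x + h) - f x)) + ψ (T x)) :=
    setIntegral_mono_on (hA.add (hB.const_mul τ)) ((hC.add (hD.const_mul τ)).add hE) hKm hpt
  rw [integral_add hA (hB.const_mul τ), integral_const_mul] at hint1
  have hBD : IntegrableOn (fun x => f x + τ * (ζ x * (f (x + h) - f x))) K := hC.add (hD.const_mul τ)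
  rw [integral_add hBD hE, integral_add hC (hD.const_mul τ), integral_const_mul] at hint1
  unfold dual
  rw [hmain]
  linarith [hsum.1, hsum.2]

/-- The upper bound of the dual functional at the weights `ψ (y i)`, for a dual pair of `T`. -/
theorem dual_upper {K Y : Set (E d)} (hK : IsCompact K) (hconv : Convex ℝ K)
    (hint : (interior K).Nonempty) (hY : IsCompact Y) {L : ℝ} (hL0 : 0 < L)
    (hL : ∀ x ∈ K, ‖x‖ ≤ L) {μ : Measure (E d)} [IsProbabilityMeasure μ]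
    {T : E d → E d} (hTm : Measurable T) (hTY : ∀ x, T x ∈ Y)
    (hTmap : (uniformProb K).map T = μ)
    {φ ψ : E d → ℝ} (hφ : Continuous φ) (hψ : ∀ u v, ψ u - ψ v ≤ L * ‖u - v‖)
    (hFen : ∀ x ∈ K, ∀ y, inner ℝ x y ≤ φ x + ψ y)
    (hEq : ∀ᵐ x ∂(volume.restrict K), φ x + ψ (T x) = inner ℝ x (T x))
    [Nonempty ι] {w : ι → ℝ} {y : ι → E d} {δ : ℝ} (hδ : 0 ≤ δ)
    (hw : ∀ (g : E d → ℝ), (∀ u v, g u - g v ≤ L * ‖u - v‖) →
      |∑ i, w i * g (y i) - ∫ u, g u ∂μ| ≤ L * δ)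
    (hw0 : ∀ i, 0 ≤ w i) {τ Z : ℝ} {ζ : E d → ℝ} {h : E d} (hτ : 0 ≤ τ) (hτZ : τ * Z ≤ 1 / 4)
    (hζm : Measurable ζ) (hζ : ∀ x, 0 ≤ ζ x ∧ ζ x ≤ Z)
    (hζ0 : ∀ x, ¬ (x ∈ K ∧ x + h ∈ K) → ζ x = 0) :
    dual K (pert τ ζ h) (fun i => (volume K).toReal * w i) y (fun i => ψ (y i)) ≤
      (∫ x in K, inner ℝ x (T x)) + τ * (∫ x in K, ζ x * (φ (x + h) - φ x))
        + (volume K).toReal * (L * δ) := by
  have hKm : MeasurableSet K := hK.measurableSet
  have hψc : Continuous ψ := continuous_of_lip hL0.le hψ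
  have hsum := abs_le.1 (sum_quant_bound hK hint hTm hTmap hL0 hψ hw)
  have hpot : ∀ x ∈ K, pot y (fun i => ψ (y i)) x ≤ φ x := by
    intro x hx
    refine pot_le fun j => ?_
    have := hFen x hx (y j)
    linarith
  have hrm : Measurable (pert τ ζ h) := measurable_pert hζm
  have hr := pert_bounds (h := h) hτ hτZ hζ
  have hrabs : ∀ x, |pert τ ζ h x| ≤ 5 / 4 := fun x => by
    rw [abs_of_nonneg (by linarith [(hr x).1])]
    exact (hr x).2
  have hpotc : Continuous (pot y fun i => ψ (y i)) := continuous_pot _ _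
  have hi1 : IntegrableOn (fun x => pot y (fun i => ψ (y i)) x * pert τ ζ h x) K :=
    integrableOn_cont_mul hK hpotc hrm hrabs
  have hi2 : IntegrableOn (fun x => φ x * pert τ ζ h x) K :=
    integrableOn_cont_mul hK hφ hrm hrabs
  have hle : ∫ x in K, pot y (fun i => ψ (y i)) x * pert τ ζ h x ≤ ∫ x in K, φ x * pert τ ζ h x :=
    setIntegral_mono_on hi1 hi2 hKm fun x hx =>
      mul_le_mul_of_nonneg_right (hpot x hx) (by linarith [(hr x).1])
  have hmain := integral_mul_pert (τ := τ) hK hζm hζ hζ0 hφ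
  have hA := integrableOn_inner_T hK hY hTm hTY hL
  have hC : IntegrableOn φ K := hφ.continuousOn.integrableOn_compact hK
  have hE := integrableOn_psi_T hK hY hTm hTY hψc
  have heq : ∫ x in K, inner ℝ x (T x) = (∫ x in K, φ x) + ∫ x in K, ψ (T x) := by
    rw [← integral_add hC hE]
    refine integral_congr_ae ?_
    filter_upwards [hEq] with x hx
    exact hx.symm
  unfold dual
  rw [heq]
  linarith [hsum.1, hsum.2]

/-- The translation bound: the main estimate of the argument. -/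
theorem translate_bound {K Y : Set (E d)} (hK : IsCompact K) (hconv : Convex ℝ K)
    (hint : (interior K).Nonempty) (hY : IsCompact Y) (hYne : Y.Nonempty) {L : ℝ} (hL0 : 0 < L)
    (hL : ∀ x ∈ K, ‖x‖ ≤ L) {μ ν : Measure (E d)} [IsProbabilityMeasure μ]
    [IsProbabilityMeasure ν] (hμY : μ Yᶜ = 0) (hνY : ν Yᶜ = 0)
    {T₀ T₁ : E d → E d} (hT₀m : Measurable T₀) (hT₁m : Measurable T₁)
    (hT₀Y : ∀ x, T₀ x ∈ Y) (hT₁Y : ∀ x, T₁ x ∈ Y)
    (hT₀map : (uniformProb K).map T₀ = μ) (hT₁map : (uniformProb K).map T₁ = ν)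
    {φ₀ ψ₀ φ₁ ψ₁ : E d → ℝ} (hφ₀ : Continuous φ₀) (hφ₁ : Continuous φ₁)
    (hψ₀ : ∀ u v, ψ₀ u - ψ₀ v ≤ L * ‖u - v‖) (hψ₁ : ∀ u v, ψ₁ u - ψ₁ v ≤ L * ‖u - v‖)
    (hFen₀ : ∀ x ∈ K, ∀ y, inner ℝ x y ≤ φ₀ x + ψ₀ y)
    (hFen₁ : ∀ x ∈ K, ∀ y, inner ℝ x y ≤ φ₁ x + ψ₁ y)
    (hEq₀ : ∀ᵐ x ∂(volume.restrict K), φ₀ x + ψ₀ (T₀ x) = inner ℝ x (T₀ x))
    (hEq₁ : ∀ᵐ x ∂(volume.restrict K), φ₁ x + ψ₁ (T₁ x) = inner ℝ x (T₁ x))
    {Z : ℝ} {ζ : E d → ℝ} {h : E d} (hζm : Measurable ζ) (hζ : ∀ x, 0 ≤ ζ x ∧ ζ x ≤ Z)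
    (hζ0 : ∀ x, ¬ (x ∈ K ∧ x + h ∈ K) → ζ x = 0)
    {π : Measure (E d × E d)} (hπ₁ : π.map Prod.fst = μ) (hπ₂ : π.map Prod.snd = ν)
    (hI : ∫⁻ z, ENNReal.ofReal (‖z.1 - z.2‖ ^ 2) ∂π ≠ ∞) :
    ∫ x in K, ζ x * (inner ℝ h (T₁ x) - (φ₀ (x + h) - φ₀ x)) ≤
      20 * L * √(volume K).toReal * √(∫ x in K, ζ x ^ 2) *
        √(∫⁻ z, ENNReal.ofReal (‖z.1 - z.2‖ ^ 2) ∂π).toReal := by
  set V : ℝ := (volume K).toReal with hVdef
  set J : ℝ := (∫⁻ z, ENNReal.ofReal (‖z.1 - z.2‖ ^ 2) ∂π).toReal with hJdef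
  have hJ0 : 0 ≤ J := ENNReal.toReal_nonneg
  have hV0 : 0 < V := by
    have h1 : volume (interior K) ≠ 0 := (isOpen_interior.measure_pos volume hint).ne'
    have h2 : volume K ≠ 0 := fun h0 => h1 (measure_mono_null interior_subset h0)
    exact ENNReal.toReal_pos h2 hK.measure_lt_top.ne
  have hZ0 : 0 ≤ Z := le_trans (hζ 0).1 (hζ 0).2
  set Z' : ℝ := max Z 1 with hZ'
  have hZ'1 : 1 ≤ Z' := le_max_right _ _
  have hZZ' : Z ≤ Z' := le_max_left _ _
  set τ : ℝ := 1 / (4 * Z') with hτdef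
  have hτ0 : 0 < τ := by positivity
  have hτZ : τ * Z ≤ 1 / 4 := by
    rw [hτdef, div_mul_eq_mul_div, one_mul, div_le_iff₀ (by positivity)]
    linarith
  set S : ℝ := ∫ x in K, ζ x ^ 2 with hSdef
  have hS0 : 0 ≤ S := setIntegral_nonneg hK.measurableSet fun x _ => sq_nonneg _
  have hKm : MeasurableSet K := hK.measurableSet
  have hpert0 : pert 0 ζ h = fun _ => (1 : ℝ) := by
    funext x
    simp [pert]
  have hkey : ∀ δ : ℝ, 0 < δ →
      τ * ((∫ x in K, ζ x * inner ℝ h (T₁ x)) - ∫ x in K, ζ x * (φ₀ (x + h) - φ₀ x)) - 4 * (V * (L * δ))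
        ≤ 7 * L * (2 * τ * √S) * √(V * (2 * J + 8 * δ ^ 2)) := by
    intro δ hδ
    obtain ⟨N, hN, w, y₀, y₁, hy₀, hy₁, hw0, hw1, hwg, hwc⟩ :=
      exists_discretization hY hYne hμY hνY hπ₁ hπ₂ hI hδ
    have hNe : Nonempty (Fin N) := by
      have := hN
      exact ⟨0⟩
    have hw₀ : ∀ (g : E d → ℝ), (∀ u v, g u - g v ≤ L * ‖u - v‖) →
        |∑ i, w i * g (y₀ i) - ∫ u, g u ∂μ| ≤ L * δ := fun g hg => (hwg g L hL0.le hg).1
    have hw₁ : ∀ (g : E d → ℝ), (∀ u v, g u - g v ≤ L * ‖u - v‖) →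
        |∑ i, w i * g (y₁ i) - ∫ u, g u ∂ν| ≤ L * δ := fun g hg => (hwg g L hL0.le hg).2
    have hw0' : ∀ i, 0 ≤ w i := fun i => (hw0 i).le
    set m : Fin N → ℝ := fun i => V * w i with hm
    have hmpos : ∀ i, 0 < m i := fun i => mul_pos hV0 (hw0 i)
    have hmsum : ∑ i, m i = ∫ _x in K, (1 : ℝ) := by
      simp only [hm]
      rw [← Finset.mul_sum, hw1, mul_one]
      simp [hVdef, Measure.real]
    have hrm : Measurable (pert τ ζ h) := measurable_pert hζm
    have hr := pert_bounds (h := h) hτ0.le hτZ hζ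
    obtain ⟨a₁, a₀, hmix⟩ := mixed_difference hK hconv hL0 hL hy₀ hy₁ hrm
      (fun x _ => hr x) (integral_pert hK hζm hζ hζ0) hmpos hmsum
    have hmix' := hmix (fun i => ψ₀ (y₀ i)) (fun i => ψ₁ (y₁ i))
    have hl1 := dual_lower hK hconv hint hY hL0 hL hT₁m hT₁Y hT₁map hδ.le hw₁ hw0' hτ0.le hτZ hζm
      hζ hζ0 a₁
    have hτ00 : (0 : ℝ) * Z ≤ 1 / 4 := by norm_num
    have hl2 := dual_lower hK hconv hint hY hL0 hL hT₀m hT₀Y hT₀map hδ.le hw₀ hw0' le_rfl hτ00 hζm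
      hζ hζ0 a₀
    have hu1 := dual_upper hK hconv hint hY hL0 hL hT₀m hT₀Y hT₀map hφ₀ hψ₀ hFen₀ hEq₀ hδ.le hw₀ hw0'
      hτ0.le hτZ hζm hζ hζ0
    have hu2 := dual_upper hK hconv hint hY hL0 hL hT₁m hT₁Y hT₁map hφ₁ hψ₁ hFen₁ hEq₁ hδ.le hw₁ hw0'
      le_rfl hτ00 hζm hζ hζ0
    rw [hpert0] at hl2 hu2
    have hsq : ∫ x in K, (pert τ ζ h x - 1) ^ 2 ≤ (2 * τ * √S) ^ 2 := by
      have h1 := integral_pert_sub_one_sq (τ := τ) hK hζm hζ hζ0
      have h2 : (2 * τ * √S) ^ 2 = 4 * τ ^ 2 * S := by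
        rw [mul_pow, Real.sq_sqrt hS0]
        ring
      rw [h2]
      exact h1
    have hsq1 : √(∫ x in K, (pert τ ζ h x - 1) ^ 2) ≤ 2 * τ * √S := by
      rw [← Real.sqrt_sq (by positivity : 0 ≤ 2 * τ * √S)]
      exact Real.sqrt_le_sqrt hsq
    have hmw : ∑ i, m i * ‖y₁ i - y₀ i‖ ^ 2 ≤ V * (2 * J + 8 * δ ^ 2) := by
      have h1 : ∑ i, m i * ‖y₁ i - y₀ i‖ ^ 2 = V * ∑ i, w i * ‖y₁ i - y₀ i‖ ^ 2 := by
        simp only [hm]
        rw [Finset.mul_sum]
        refine Finset.sum_congr rfl fun i _ => ?_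
        ring
      rw [h1]
      exact mul_le_mul_of_nonneg_left hwc hV0.le
    have hsq2 := Real.sqrt_le_sqrt hmw
    have hRHS : 7 * L * √(∫ x in K, (pert τ ζ h x - 1) ^ 2) * √(∑ i, m i * ‖y₁ i - y₀ i‖ ^ 2)
        ≤ 7 * L * (2 * τ * √S) * √(V * (2 * J + 8 * δ ^ 2)) := by
      apply mul_le_mul _ hsq2 (Real.sqrt_nonneg _) (by positivity)
      exact mul_le_mul_of_nonneg_left hsq1 (by positivity)
    simp only [zero_mul, add_zero] at hl2 hu2
    nlinarith
  set A : ℝ := ∫ x in K, ζ x * inner ℝ h (T₁ x) with hA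
  set B : ℝ := ∫ x in K, ζ x * (φ₀ (x + h) - φ₀ x) with hB
  have hX : ∫ x in K, ζ x * (inner ℝ h (T₁ x) - (φ₀ (x + h) - φ₀ x)) = A - B := by
    have h1 := integrableOn_zeta_inner hK hY hT₁m hT₁Y hζm hζ h
    have h2 := integrableOn_zeta_diff hK hζm hζ h hφ₀
    rw [hA, hB, ← integral_sub h1 h2]
    refine integral_congr_ae (Eventually.of_forall fun x => ?_)
    simp only
    ring
  rw [hX]
  have hsqV : 0 ≤ √S := Real.sqrt_nonneg _
  set W : ℝ := √(2 * V * J) with hW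
  have hW0 : 0 ≤ W := Real.sqrt_nonneg _
  set C8 : ℝ := √(8 * V) with hC8
  have hC80 : 0 ≤ C8 := Real.sqrt_nonneg _
  have hsqrtbd : ∀ δ : ℝ, 0 < δ → √(V * (2 * J + 8 * δ ^ 2)) ≤ W + C8 * δ := by
    intro δ hδ
    have hnn : 0 ≤ W + C8 * δ := by positivity
    rw [Real.sqrt_le_left hnn]
    have h1 : (W + C8 * δ) ^ 2 = W ^ 2 + C8 ^ 2 * δ ^ 2 + 2 * W * (C8 * δ) := by ring
    have h2 : W ^ 2 = 2 * V * J := Real.sq_sqrt (by positivity)
    have h3 : C8 ^ 2 = 8 * V := Real.sq_sqrt (by positivity)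
    rw [h1, h2, h3]
    have h4 : 0 ≤ 2 * W * (C8 * δ) := by positivity
    nlinarith
  set κ : ℝ := 4 * V * L + 7 * L * (2 * τ * √S) * C8 + 1 with hκ
  have hκ0 : 0 < κ := by positivity
  have hlim : τ * (A - B) ≤ 7 * L * (2 * τ * √S) * W := by
    refine le_of_forall_pos_le_add fun ε hε => ?_
    have hδ : 0 < ε / κ := div_pos hε hκ0
    have h1 := hkey (ε / κ) hδ
    have h2 := hsqrtbd (ε / κ) hδ
    have h3 : 7 * L * (2 * τ * √S) * √(V * (2 * J + 8 * (ε / κ) ^ 2))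
        ≤ 7 * L * (2 * τ * √S) * (W + C8 * (ε / κ)) :=
      mul_le_mul_of_nonneg_left h2 (by positivity)
    have h4 : κ * (ε / κ) = ε := by field_simp
    have h5 : (4 * V * L + 7 * L * (2 * τ * √S) * C8) * (ε / κ) ≤ ε := by
      have h6 : (4 * V * L + 7 * L * (2 * τ * √S) * C8) ≤ κ := by
        rw [hκ]
        linarith
      have := mul_le_mul_of_nonneg_right h6 hδ.le
      linarith
    nlinarith
  have hτcancel : A - B ≤ 14 * L * √S * W := by
    have h1 : 7 * L * (2 * τ * √S) * W = τ * (14 * L * √S * W) := by ring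
    rw [h1] at hlim
    exact le_of_mul_le_mul_left hlim hτ0
  have hWeq : W = √2 * (√V * √J) := by
    rw [hW, mul_assoc, Real.sqrt_mul (by norm_num), Real.sqrt_mul hV0.le]
  have hsq2 : √2 ≤ 10 / 7 := by
    rw [Real.sqrt_le_left (by norm_num)]
    norm_num
  have hnn : 0 ≤ L * √S * (√V * √J) := by positivity
  calc A - B ≤ 14 * L * √S * W := hτcancel
    _ = 14 * √2 * (L * √S * (√V * √J)) := by rw [hWeq]; ring
    _ ≤ 20 * (L * √S * (√V * √J)) := by
        apply mul_le_mul_of_nonneg_right _ hnn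
        nlinarith
    _ = 20 * L * √V * √S * √J := by ring

end Vale.Agent.Lib.P074.T
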