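import Mathlib
import Vale.Agent.Lib.P074.Defs
import Vale.Agent.Lib.P074.Q.Final
import Vale.Agent.Lib.P074.T.Four

/-!
# The exponent `1/3` is admissible.
-/

open MeasureTheory Metric Set Filter Topology
open scoped ENNReal NNReal

namespace Vale.Agent.Lib.P074.T

variable {d : ℕ}

open Classical in
/-- The test function: the positive part of `v` on the points `x` of `K` with `x + h` in `K`. -/
noncomputable def zetaFn (K : Set (E d)) (h : E d) (v : E d → ℝ) (x : E d) : ℝ :=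
  if x ∈ K ∧ x + h ∈ K then max (v x) 0 else 0

open Classical in
/-- The increment of `f` along `h`, on the points `x` of `K` with `x + h` in `K`. -/
noncomputable def gFn (K : Set (E d)) (h : E d) (f : E d → ℝ) (x : E d) : ℝ :=
  if x ∈ K ∧ x + h ∈ K then f (x + h) - f x else 0

lemma measurableSet_eroded {K : Set (E d)} (hK : IsCompact K) (h : E d) :
    MeasurableSet {x | x ∈ K ∧ x + h ∈ K} :=
  hK.measurableSet.inter ((measurable_add_const h) hK.measurableSet)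

lemma measurable_zetaFn {K : Set (E d)} (hK : IsCompact K) (h : E d) {v : E d → ℝ}
    (hv : Measurable v) : Measurable (zetaFn K h v) := by
  unfold zetaFn
  exact Measurable.ite (measurableSet_eroded hK h) (hv.max measurable_const) measurable_const

lemma measurable_gFn {K : Set (E d)} (hK : IsCompact K) (h : E d) {f : E d → ℝ}
    (hf : Measurable f) : Measurable (gFn K h f) := by
  unfold gFn
  exact Measurable.ite (measurableSet_eroded hK h)
    ((hf.comp (measurable_add_const h)).sub hf) measurable_const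

/-- The volume lost by the translation. -/
lemma volume_eroded_le {K : Set (E d)} (hK : IsCompact K) (hconv : Convex ℝ K)
    {c : E d} {r₀ : ℝ} (hr₀ : 0 < r₀) (hball : closedBall c r₀ ⊆ K) (h : E d) :
    (volume (K \ {x | x ∈ K ∧ x + h ∈ K})).toReal ≤ d * ‖h‖ / r₀ * (volume K).toReal := by
  have hKfin : volume K ≠ ∞ := hK.measure_lt_top.ne
  have e1 := Vale.Agent.Lib.P074.volume_sdiff_translate_le hK hconv hr₀ hball h
  have hset : K \ {x | x ∈ K ∧ x + h ∈ K} = K \ ((fun x => x + h) ⁻¹' K) := by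
    ext x
    simp only [Set.mem_sdiff, mem_setOf_eq, mem_preimage]
    tauto
  rw [hset]
  have h2 : volume (K \ ((fun x => x + h) ⁻¹' K)) ≤
      ENNReal.ofReal (d * ‖h‖ / r₀ * (volume K).toReal) := by
    refine e1.trans (le_of_eq ?_)
    rw [ENNReal.ofReal_mul (by positivity), ENNReal.ofReal_toReal hKfin]
  exact ENNReal.toReal_le_of_le_ofReal (by positivity) h2

/-- The integral of the increment is controlled by the volume lost by the translation. -/
lemma integral_gFn_le {K : Set (E d)} (hK : IsCompact K) (h : E d) {f : E d → ℝ}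
    (hfm : Measurable f) {R : ℝ} (hfb : ∀ x, |f x| ≤ R) :
    ∫ x in K, gFn K h f x ≤ 2 * R * (volume (K \ {x | x ∈ K ∧ x + h ∈ K})).toReal := by
  have hKfin : volume K ≠ ∞ := hK.measure_lt_top.ne
  have hAm := measurableSet_eroded hK h
  have hAK : {x | x ∈ K ∧ x + h ∈ K} ⊆ K := fun x hx => hx.1
  have hR0 : 0 ≤ R := (abs_nonneg _).trans (hfb 0)
  have hgm := measurable_gFn hK h hfm
  have hgb : ∀ x, |gFn K h f x| ≤ 2 * R := by
    intro x
    unfold gFn
    split_ifs with hx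
    · have h1 := hfb (x + h)
      have h2 := hfb x
      have := abs_sub (f (x + h)) (f x)
      linarith
    · simpa using (by positivity : 0 ≤ 2 * R)
  have hgint : IntegrableOn (gFn K h f) K :=
    integrableOn_of_bound hK hgm (fun x _ => hgb x)
  have hs1 := Vale.Agent.Lib.P074.abs_setIntegral_shift_sub_le hKfin hAm hAK h
      (fun x hx => hx.2) hfm hfb
  have hs0 := Vale.Agent.Lib.P074.abs_setIntegral_shift_sub_le hKfin hAm hAK (0 : E d)
      (fun x hx => by simpa using hAK hx) hfm hfb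
  simp only [add_zero] at hs0
  have hAfin : volume {x | x ∈ K ∧ x + h ∈ K} ≠ ∞ :=
    ne_top_of_le_ne_top hKfin (measure_mono hAK)
  have hfs : IntegrableOn (fun x => f (x + h)) {x | x ∈ K ∧ x + h ∈ K} :=
    Measure.integrableOn_of_bounded hAfin
      (hfm.comp (measurable_add_const h)).aestronglyMeasurable (M := R)
      (Eventually.of_forall fun x => by simpa [Real.norm_eq_abs] using hfb (x + h))
  have hfs0 : IntegrableOn f {x | x ∈ K ∧ x + h ∈ K} :=
    Measure.integrableOn_of_bounded hAfin hfm.aestronglyMeasurable (M := R)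
      (Eventually.of_forall fun x => by simpa [Real.norm_eq_abs] using hfb x)
  have hgK : ∫ x in K, gFn K h f x =
      (∫ x in {x | x ∈ K ∧ x + h ∈ K}, f (x + h)) - ∫ x in {x | x ∈ K ∧ x + h ∈ K}, f x := by
    have h1 : ∫ x in K, gFn K h f x = ∫ x in {x | x ∈ K ∧ x + h ∈ K}, gFn K h f x := by
      have hsd := setIntegral_sdiff hAm hgint hAK
      have : ∫ x in K \ {x | x ∈ K ∧ x + h ∈ K}, gFn K h f x = 0 := by
        apply setIntegral_eq_zero_of_forall_eq_zero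
        intro x hx
        unfold gFn
        rw [if_neg (show ¬ (x ∈ K ∧ x + h ∈ K) from hx.2)]
      linarith
    rw [h1, ← integral_sub hfs hfs0]
    apply setIntegral_congr_fun hAm
    intro x hx
    unfold gFn
    beta_reduce
    rw [if_pos (show x ∈ K ∧ x + h ∈ K from hx)]
  rw [hgK]
  have h3 := abs_le.mp hs1
  have h4 := abs_le.mp hs0
  linarith [h3.2, h4.1]

/-- Comparison of the positive part with the test function. -/
lemma integral_pos_le {K : Set (E d)} (hK : IsCompact K) (h : E d) {v : E d → ℝ}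
    (hvm : Measurable v) {R : ℝ} (hR0 : 0 ≤ R) (hvb : ∀ x, |v x| ≤ 2 * R) :
    ∫ x in K, (max (v x) 0) ^ 2 ≤ (∫ x in K, zetaFn K h v x ^ 2) +
      (2 * R) ^ 2 * (volume (K \ {x | x ∈ K ∧ x + h ∈ K})).toReal := by
  have hKfin : volume K ≠ ∞ := hK.measure_lt_top.ne
  have hAm := measurableSet_eroded hK h
  have hAK : {x | x ∈ K ∧ x + h ∈ K} ⊆ K := fun x hx => hx.1
  have hmaxle : ∀ x, max (v x) 0 ≤ 2 * R := fun x =>
    max_le ((le_abs_self _).trans (hvb x)) (by positivity)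
  have hum : Measurable (fun x => (max (v x) 0) ^ 2) := (hvm.max measurable_const).pow_const 2
  have hub : ∀ x, ‖(max (v x) 0) ^ 2‖ ≤ (2 * R) ^ 2 := by
    intro x
    rw [Real.norm_eq_abs, abs_of_nonneg (by positivity)]
    exact pow_le_pow_left₀ (le_max_right _ _) (hmaxle x) 2
  have huint : IntegrableOn (fun x => (max (v x) 0) ^ 2) K :=
    integrableOn_of_bound hK hum (fun x _ => by simpa [Real.norm_eq_abs] using hub x)
  have hZm : Measurable (fun x => zetaFn K h v x ^ 2) := (measurable_zetaFn hK h hvm).pow_const 2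
  have hZb : ∀ x, |zetaFn K h v x ^ 2| ≤ (2 * R) ^ 2 := by
    intro x
    rw [abs_of_nonneg (by positivity)]
    unfold zetaFn
    split_ifs with hx
    · exact pow_le_pow_left₀ (le_max_right _ _) (hmaxle x) 2
    · simp only [ne_eq, OfNat.ofNat_ne_zero, not_false_eq_true, zero_pow]
      positivity
  have hZint : IntegrableOn (fun x => zetaFn K h v x ^ 2) K :=
    integrableOn_of_bound hK hZm (fun x _ => hZb x)
  have h1 : ∫ x in K, (max (v x) 0) ^ 2 =
      (∫ x in K \ {x | x ∈ K ∧ x + h ∈ K}, (max (v x) 0) ^ 2) +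
        ∫ x in {x | x ∈ K ∧ x + h ∈ K}, (max (v x) 0) ^ 2 := by
    rw [setIntegral_sdiff hAm huint hAK]; ring
  have h2 : ∫ x in K \ {x | x ∈ K ∧ x + h ∈ K}, (max (v x) 0) ^ 2 ≤
      (2 * R) ^ 2 * (volume (K \ {x | x ∈ K ∧ x + h ∈ K})).toReal := by
    have hfin' : volume (K \ {x | x ∈ K ∧ x + h ∈ K}) < ∞ :=
      lt_top_iff_ne_top.mpr (ne_top_of_le_ne_top hKfin (measure_mono sdiff_subset))
    have := norm_setIntegral_le_of_norm_le_const (μ := volume)
      (s := K \ {x | x ∈ K ∧ x + h ∈ K}) (f := fun x => (max (v x) 0) ^ 2)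
      (C := (2 * R) ^ 2) hfin' (fun x _ => hub x)
    exact (le_abs_self _).trans (by simpa [Measure.real] using this)
  have h3 : ∫ x in {x | x ∈ K ∧ x + h ∈ K}, (max (v x) 0) ^ 2 = ∫ x in K, zetaFn K h v x ^ 2 := by
    have h4 : ∫ x in K, zetaFn K h v x ^ 2 =
        (∫ x in K \ {x | x ∈ K ∧ x + h ∈ K}, zetaFn K h v x ^ 2) +
          ∫ x in {x | x ∈ K ∧ x + h ∈ K}, zetaFn K h v x ^ 2 := by
      rw [setIntegral_sdiff hAm hZint hAK]; ring
    have h5 : ∫ x in K \ {x | x ∈ K ∧ x + h ∈ K}, zetaFn K h v x ^ 2 = 0 := by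
      apply setIntegral_eq_zero_of_forall_eq_zero
      intro x hx
      unfold zetaFn
      rw [if_neg (show ¬ (x ∈ K ∧ x + h ∈ K) from hx.2)]
      simp
    rw [h4, h5, zero_add]
    apply setIntegral_congr_fun hAm
    intro x hx
    unfold zetaFn
    beta_reduce
    rw [if_pos (show x ∈ K ∧ x + h ∈ K from hx)]
  rw [h1, h3]
  linarith

/-- The pointwise inequality of the stencil. -/
lemma stencil_pointwise_third {K : Set (E d)} (hK : IsCompact K) {T₀ T₁ : E d → E d}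
    {φ₀ : E d → ℝ}
    (hsub₀ : ∀ᵐ x ∂(volume.restrict K), ∀ z, φ₀ x + inner ℝ (T₀ x) (z - x) ≤ φ₀ z)
    {e : E d} {t : ℝ} (ht : 0 < t) {R : ℝ} (hR0 : 0 ≤ R)
    (hvb : ∀ x, |inner ℝ e (T₁ x - T₀ x)| ≤ 2 * R) :
    ∀ᵐ x ∂(volume.restrict K),
      t * zetaFn K (t • e) (fun x => inner ℝ e (T₁ x - T₀ x)) x ^ 2 -
          t * (2 * R) * gFn K (t • e) (fun x => inner ℝ e (T₀ x)) x ≤
        zetaFn K (t • e) (fun x => inner ℝ e (T₁ x - T₀ x)) x *
          (inner ℝ (t • e) (T₁ x) - (φ₀ (x + t • e) - φ₀ x)) := by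
  have hKm : MeasurableSet K := hK.measurableSet
  have hsub' : ∀ᵐ y ∂(volume : Measure (E d)), y ∈ K →
      ∀ z, φ₀ y + inner ℝ (T₀ y) (z - y) ≤ φ₀ z := (ae_restrict_iff' hKm).mp hsub₀
  have hsub₁ : ∀ᵐ x ∂(volume : Measure (E d)), x + t • e ∈ K →
      ∀ z, φ₀ (x + t • e) + inner ℝ (T₀ (x + t • e)) (z - (x + t • e)) ≤ φ₀ z :=
    (measurePreserving_add_right volume (t • e)).quasiMeasurePreserving.ae hsub'
  rw [ae_restrict_iff' hKm]
  filter_upwards [hsub', hsub₁] with x h0 h1 hxK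
  unfold zetaFn gFn
  by_cases hxA : x ∈ K ∧ x + t • e ∈ K
  · rw [if_pos hxA, if_pos hxA]
    beta_reduce
    have hxh : x + t • e ∈ K := hxA.2
    have g0 := h0 hxK
    have g1 := h1 hxh
    have e1 : x - (x + t • e) = -(t • e) := by abel
    have e3 : x + t • e - x = t • e := by abel
    have s1 : φ₀ (x + t • e) - t * inner ℝ e (T₀ (x + t • e)) ≤ φ₀ x := by
      have := g1 x
      rw [e1, inner_neg_right, inner_smul_right, real_inner_comm] at this
      linarith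
    have s3 : φ₀ x + t * inner ℝ e (T₀ x) ≤ φ₀ (x + t • e) := by
      have := g0 (x + t • e)
      rw [e3, inner_smul_right, real_inner_comm] at this
      linarith
    have hinnerh : inner ℝ (t • e) (T₁ x) = t * inner ℝ e (T₁ x) := real_inner_smul_left _ _ _
    rw [hinnerh]
    set b : ℝ := inner ℝ e (T₀ (x + t • e)) with hb
    set f₀ : ℝ := inner ℝ e (T₀ x) with hf₀
    set a₁ : ℝ := inner ℝ e (T₁ x) with ha₁
    have hvx : inner ℝ e (T₁ x - T₀ x) = a₁ - f₀ := by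
      rw [inner_sub_right]
    have hvb' := hvb x
    rw [hvx] at hvb' ⊢
    have hg0 : 0 ≤ b - f₀ := by
      have : 0 ≤ t * (b - f₀) := by linarith
      exact (mul_nonneg_iff_of_pos_left ht).mp this
    set z : ℝ := max (a₁ - f₀) 0 with hz
    have hz0 : 0 ≤ z := le_max_right _ _
    have hz1 : z ≤ 2 * R := max_le ((le_abs_self _).trans hvb') (by positivity)
    have hζv : z * (a₁ - f₀) = z ^ 2 := by
      rw [hz]
      rcases le_total (a₁ - f₀) 0 with hle | hle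
      · rw [max_eq_right hle]; ring
      · rw [max_eq_left hle]; ring
    have step1 : z * (t * a₁ - t * b) ≤ z * (t * a₁ - (φ₀ (x + t • e) - φ₀ x)) := by
      apply mul_le_mul_of_nonneg_left _ hz0
      linarith
    have step2 : t * z ^ 2 - t * (2 * R) * (b - f₀) ≤ z * (t * a₁ - t * b) := by
      have e2 : z * (t * a₁ - t * b) = t * (z * (a₁ - f₀)) - t * z * (b - f₀) := by ring
      rw [e2, hζv]
      have : t * z * (b - f₀) ≤ t * (2 * R) * (b - f₀) :=
        mul_le_mul_of_nonneg_right (mul_le_mul_of_nonneg_left hz1 ht.le) hg0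
      linarith
    linarith
  · rw [if_neg hxA, if_neg hxA]
    simp

/-- The stencil estimate in one direction. -/
theorem stencil_dir {K Y : Set (E d)} (hK : IsCompact K) (hconv : Convex ℝ K)
    (hint : (interior K).Nonempty) (hY : IsCompact Y) (hYne : Y.Nonempty)
    {c : E d} {r₀ : ℝ} (hr₀ : 0 < r₀) (hball : closedBall c r₀ ⊆ K)
    {L : ℝ} (hL0 : 0 < L) (hL : ∀ x ∈ K, ‖x‖ ≤ L) {R : ℝ} (hR0 : 0 ≤ R) (hR : ∀ y ∈ Y, ‖y‖ ≤ R)
    {μ ν : Measure (E d)} [IsProbabilityMeasure μ]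
    [IsProbabilityMeasure ν] (hμY : μ Yᶜ = 0) (hνY : ν Yᶜ = 0)
    {T₀ T₁ : E d → E d} (hT₀m : Measurable T₀) (hT₁m : Measurable T₁)
    (hT₀Y : ∀ x, T₀ x ∈ Y) (hT₁Y : ∀ x, T₁ x ∈ Y)
    (hT₀map : (uniformProb K).map T₀ = μ) (hT₁map : (uniformProb K).map T₁ = ν)
    {φ₀ ψ₀ φ₁ ψ₁ : E d → ℝ} (hφ₀ : Continuous φ₀) (hφ₁ : Continuous φ₁)
    (hψ₀ : ∀ u v, ψ₀ u - ψ₀ v ≤ L * ‖u - v‖) (hψ₁ : ∀ u v, ψ₁ u - ψ₁ v ≤ L * ‖u - v‖)
    (hFen₀ : ∀ x ∈ K, ∀ y, inner ℝ x y ≤ φ₀ x + ψ₀ y)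
    (hFen₁ : ∀ x ∈ K, ∀ y, inner ℝ x y ≤ φ₁ x + ψ₁ y)
    (hEq₀ : ∀ᵐ x ∂(volume.restrict K), φ₀ x + ψ₀ (T₀ x) = inner ℝ x (T₀ x))
    (hEq₁ : ∀ᵐ x ∂(volume.restrict K), φ₁ x + ψ₁ (T₁ x) = inner ℝ x (T₁ x))
    (hsub₀ : ∀ᵐ x ∂(volume.restrict K), ∀ z, φ₀ x + inner ℝ (T₀ x) (z - x) ≤ φ₀ z)
    {e : E d} (he : ‖e‖ = 1) {t : ℝ} (ht : 0 < t)
    {π : Measure (E d × E d)} (hπ₁ : π.map Prod.fst = μ) (hπ₂ : π.map Prod.snd = ν)
    (hI : ∫⁻ z, ENNReal.ofReal (‖z.1 - z.2‖ ^ 2) ∂π ≠ ∞) :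
    t * ∫ x in K, (max (inner ℝ e (T₁ x - T₀ x)) 0) ^ 2 ≤
      20 * L * √(volume K).toReal * √(∫ x in K, ‖T₁ x - T₀ x‖ ^ 2) *
        √(∫⁻ z, ENNReal.ofReal (‖z.1 - z.2‖ ^ 2) ∂π).toReal +
      8 * R ^ 2 * d * (volume K).toReal / r₀ * t ^ 2 := by
  have hnorm : ‖t • e‖ = t := by rw [norm_smul, he, mul_one, Real.norm_eq_abs, abs_of_pos ht]
  have hvm : Measurable (fun x => inner ℝ e (T₁ x - T₀ x)) :=
    measurable_const.inner (hT₁m.sub hT₀m)
  have hfm : Measurable (fun x => inner ℝ e (T₀ x)) := measurable_const.inner hT₀m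
  have hT₀R : ∀ x, ‖T₀ x‖ ≤ R := fun x => hR _ (hT₀Y x)
  have hT₁R : ∀ x, ‖T₁ x‖ ≤ R := fun x => hR _ (hT₁Y x)
  have hsubR : ∀ x, ‖T₁ x - T₀ x‖ ≤ 2 * R := fun x => by
    have := norm_sub_le (T₁ x) (T₀ x)
    linarith [hT₀R x, hT₁R x]
  have hvle : ∀ x, |inner ℝ e (T₁ x - T₀ x)| ≤ ‖T₁ x - T₀ x‖ := fun x => by
    have := abs_real_inner_le_norm e (T₁ x - T₀ x)
    rwa [he, one_mul] at this
  have hvb : ∀ x, |inner ℝ e (T₁ x - T₀ x)| ≤ 2 * R := fun x => (hvle x).trans (hsubR x)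
  have hfb : ∀ x, |inner ℝ e (T₀ x)| ≤ R := fun x => by
    have := abs_real_inner_le_norm e (T₀ x)
    rw [he, one_mul] at this
    exact this.trans (hT₀R x)
  have hmaxle : ∀ x, max (inner ℝ e (T₁ x - T₀ x)) 0 ≤ ‖T₁ x - T₀ x‖ := fun x =>
    max_le ((le_abs_self _).trans (hvle x)) (norm_nonneg _)
  -- abbreviations for the two functions
  obtain ⟨ζ, hζdef⟩ : ∃ ζ : E d → ℝ, ζ = zetaFn K (t • e) (fun x => inner ℝ e (T₁ x - T₀ x)) :=
    ⟨_, rfl⟩
  obtain ⟨g, hgdef⟩ : ∃ g : E d → ℝ, g = gFn K (t • e) (fun x => inner ℝ e (T₀ x)) := ⟨_, rfl⟩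
  have hζm : Measurable ζ := hζdef ▸ measurable_zetaFn hK _ hvm
  have hgm : Measurable g := hgdef ▸ measurable_gFn hK _ hfm
  have hζb : ∀ x, 0 ≤ ζ x ∧ ζ x ≤ 2 * R := by
    intro x
    rw [hζdef]
    unfold zetaFn
    split_ifs with hx
    · exact ⟨le_max_right _ _, (hmaxle x).trans (hsubR x)⟩
    · exact ⟨le_rfl, by positivity⟩
  have hζ0 : ∀ x, ¬ (x ∈ K ∧ x + t • e ∈ K) → ζ x = 0 := by
    intro x hx
    rw [hζdef]
    unfold zetaFn
    rw [if_neg hx]
  have hZint : IntegrableOn (fun x => ζ x ^ 2) K := by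
    apply integrableOn_of_bound hK (hζm.pow_const 2) (M := (2 * R) ^ 2)
    intro x _
    rw [abs_of_nonneg (by positivity)]
    exact pow_le_pow_left₀ (hζb x).1 (hζb x).2 2
  have hJint : IntegrableOn (fun x => ‖T₁ x - T₀ x‖ ^ 2) K := by
    apply integrableOn_of_bound hK (((hT₁m.sub hT₀m).norm).pow_const 2) (M := (2 * R) ^ 2)
    intro x _
    rw [abs_of_nonneg (by positivity)]
    exact pow_le_pow_left₀ (norm_nonneg _) (hsubR x) 2
  have hZJ : ∫ x in K, ζ x ^ 2 ≤ ∫ x in K, ‖T₁ x - T₀ x‖ ^ 2 := by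
    apply integral_mono hZint hJint
    intro x
    apply pow_le_pow_left₀ (hζb x).1
    simp only [hζdef]
    unfold zetaFn
    split_ifs with hx
    · exact hmaxle x
    · exact norm_nonneg _
  have hgint : IntegrableOn g K := by
    apply integrableOn_of_bound hK hgm (M := 2 * R)
    intro x _
    rw [hgdef]
    unfold gFn
    split_ifs with hx
    · have h1 := hfb (x + t • e)
      have h2 := hfb x
      have := abs_sub (inner ℝ e (T₀ (x + t • e))) (inner ℝ e (T₀ x))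
      linarith
    · simpa using (by positivity : 0 ≤ 2 * R)
  -- the translation bound
  have hXub := translate_bound hK hconv hint hY hYne hL0 hL hμY hνY hT₀m hT₁m hT₀Y hT₁Y hT₀map
    hT₁map hφ₀ hφ₁ hψ₀ hψ₁ hFen₀ hFen₁ hEq₀ hEq₁ hζm hζb hζ0 hπ₁ hπ₂ hI
  have hpt := stencil_pointwise_third hK hsub₀ ht hR0 hvb (T₁ := T₁)
  rw [← hζdef, ← hgdef] at hpt
  have hLHSint : IntegrableOn (fun x => t * ζ x ^ 2 - t * (2 * R) * g x) K :=
    (hZint.const_mul t).sub (hgint.const_mul _)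
  have hXint : IntegrableOn
      (fun x => ζ x * (inner ℝ (t • e) (T₁ x) - (φ₀ (x + t • e) - φ₀ x))) K := by
    obtain ⟨M₁, hM₁⟩ := hK.exists_bound_of_continuousOn
      ((hφ₀.comp (continuous_id.add continuous_const)).sub hφ₀).continuousOn
    have hbd : ∀ x ∈ K, |ζ x * (inner ℝ (t • e) (T₁ x) - (φ₀ (x + t • e) - φ₀ x))| ≤
        2 * R * (t * R + M₁) := by
      intro x hx
      rw [abs_mul, abs_of_nonneg (hζb x).1]
      have h1 : |inner ℝ (t • e) (T₁ x)| ≤ t * R := by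
        calc |inner ℝ (t • e) (T₁ x)| ≤ ‖t • e‖ * ‖T₁ x‖ := abs_real_inner_le_norm _ _
          _ ≤ t * R := by rw [hnorm]; exact mul_le_mul_of_nonneg_left (hT₁R x) ht.le
      have h2 : |φ₀ (x + t • e) - φ₀ x| ≤ M₁ := by simpa using hM₁ x hx
      have h3 : |inner ℝ (t • e) (T₁ x) - (φ₀ (x + t • e) - φ₀ x)| ≤ t * R + M₁ := by
        calc _ ≤ |inner ℝ (t • e) (T₁ x)| + |φ₀ (x + t • e) - φ₀ x| := abs_sub _ _
          _ ≤ _ := by linarith
      exact mul_le_mul (hζb x).2 h3 (abs_nonneg _) (by positivity)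
    apply integrableOn_of_bound hK _ hbd
    refine hζm.mul ?_
    refine (measurable_const.inner hT₁m).sub ?_
    exact ((hφ₀.comp (continuous_id.add continuous_const)).sub hφ₀).measurable
  have hXlb := integral_mono_ae hLHSint hXint hpt
  rw [integral_sub (hZint.const_mul t) (hgint.const_mul _), integral_const_mul,
    integral_const_mul] at hXlb
  have hgI : ∫ x in K, g x ≤
      2 * R * (volume (K \ {x | x ∈ K ∧ x + t • e ∈ K})).toReal := by
    rw [hgdef]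
    exact integral_gFn_le hK _ hfm hfb
  have hsplit := integral_pos_le hK (t • e) hvm hR0 hvb
  rw [← hζdef] at hsplit
  have hvol := volume_eroded_le hK hconv hr₀ hball (t • e)
  rw [hnorm] at hvol
  -- conclusion in real numbers
  generalize (volume (K \ {x | x ∈ K ∧ x + t • e ∈ K})).toReal = a at hgI hsplit hvol
  generalize (∫ x in K, (max (inner ℝ e (T₁ x - T₀ x)) 0) ^ 2) = U at hsplit ⊢
  generalize (∫ x in K, g x) = G at hXlb hgI
  have hsqrtZ : √(∫ x in K, ζ x ^ 2) ≤ √(∫ x in K, ‖T₁ x - T₀ x‖ ^ 2) := Real.sqrt_le_sqrt hZJ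
  generalize (∫ x in K, ζ x * (inner ℝ (t • e) (T₁ x) - (φ₀ (x + t • e) - φ₀ x))) = X at hXlb hXub
  generalize hZsq : (∫ x in K, ζ x ^ 2) = Zsq at *
  generalize (∫ x in K, ‖T₁ x - T₀ x‖ ^ 2) = J at *
  generalize (∫⁻ z, ENNReal.ofReal (‖z.1 - z.2‖ ^ 2) ∂π).toReal = I at *
  generalize (volume K).toReal = V at *
  have hI0 : 0 ≤ √I := Real.sqrt_nonneg _
  have hsqrtV : 0 ≤ √V := Real.sqrt_nonneg _
  have hΞ : 20 * L * √V * √Zsq * √I ≤ 20 * L * √V * √J * √I := by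
    apply mul_le_mul_of_nonneg_right _ hI0
    exact mul_le_mul_of_nonneg_left hsqrtZ (by positivity)
  have h5 : t * Zsq ≤ 20 * L * √V * √J * √I + t * (2 * R) * (2 * R * a) := by
    have h6 : t * (2 * R) * G ≤ t * (2 * R) * (2 * R * a) :=
      mul_le_mul_of_nonneg_left hgI (by positivity)
    linarith
  have h7 : t * U ≤ t * Zsq + t * ((2 * R) ^ 2 * a) := by
    have := mul_le_mul_of_nonneg_left hsplit ht.le
    linarith
  have h8 : 8 * R ^ 2 * t * a ≤ 8 * R ^ 2 * d * V / r₀ * t ^ 2 := by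
    have h9 : 8 * R ^ 2 * t * a ≤ 8 * R ^ 2 * t * (d * t / r₀ * V) :=
      mul_le_mul_of_nonneg_left hvol (by positivity)
    have h10 : 8 * R ^ 2 * t * (d * t / r₀ * V) = 8 * R ^ 2 * d * V / r₀ * t ^ 2 := by
      field_simp
    linarith
  nlinarith [h5, h7, h8]

/-- From the family of inequalities in `t` to the bound for `J √J`. -/
theorem mul_sqrt_le_of_forall {J A B : ℝ} (hJ : 0 ≤ J) (hA : 0 ≤ A) (hB : 0 ≤ B)
    (h : ∀ t : ℝ, 0 < t → t * J ≤ A * √J + B * t ^ 2) : J * √J ≤ 4 * A * B := by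
  rcases hJ.eq_or_lt with h0 | hpos
  · rw [← h0]; simp; positivity
  have hs : 0 < √J := Real.sqrt_pos.2 hpos
  rcases hB.eq_or_lt with hB0 | hBpos
  · exfalso
    have ht : 0 < (A * √J + 1) / J := by positivity
    have := h _ ht
    rw [← hB0] at this
    have e : (A * √J + 1) / J * J = A * √J + 1 := by field_simp
    rw [e] at this
    linarith
  · have ht : 0 < J / (2 * B) := by positivity
    have h1 := h _ ht
    have e1 : J / (2 * B) * J = J ^ 2 / (2 * B) := by field_simp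
    have e2 : B * (J / (2 * B)) ^ 2 = J ^ 2 / (4 * B) := by field_simp; ring
    rw [e1, e2] at h1
    have h2 : J ^ 2 / (4 * B) ≤ A * √J := by
      have e3 : J ^ 2 / (2 * B) = J ^ 2 / (4 * B) + J ^ 2 / (4 * B) := by field_simp; ring
      linarith
    have h3 : J ^ 2 ≤ 4 * A * B * √J := by
      have := (div_le_iff₀ (by positivity : 0 < 4 * B)).mp h2
      linarith
    have h4 : J ^ 2 = J * √J * √J := by
      rw [mul_assoc, Real.mul_self_sqrt hJ]; ring
    rw [h4] at h3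
    exact le_of_mul_le_mul_right h3 hs

/-- The core inequality: for optimal maps with values in `Y` and any coupling. -/
theorem core_third {K Y : Set (E d)} (hK : IsCompact K) (hconv : Convex ℝ K)
    (hint : (interior K).Nonempty) (hY : IsCompact Y) (hYne : Y.Nonempty)
    {c : E d} {r₀ : ℝ} (hr₀ : 0 < r₀) (hball : closedBall c r₀ ⊆ K)
    {L : ℝ} (hL0 : 0 < L) (hL : ∀ x ∈ K, ‖x‖ ≤ L) {R : ℝ} (hR0 : 0 ≤ R) (hR : ∀ y ∈ Y, ‖y‖ ≤ R)
    {μ ν : Measure (E d)} [IsProbabilityMeasure μ]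
    [IsProbabilityMeasure ν] (hμY : μ Yᶜ = 0) (hνY : ν Yᶜ = 0)
    {T₀ T₁ : E d → E d} (hT₀ : IsOptimalMap (uniformProb K) μ T₀)
    (hT₁ : IsOptimalMap (uniformProb K) ν T₁)
    (hT₀Y : ∀ x, T₀ x ∈ Y) (hT₁Y : ∀ x, T₁ x ∈ Y)
    {π : Measure (E d × E d)} (hπ₁ : π.map Prod.fst = μ) (hπ₂ : π.map Prod.snd = ν)
    (hI : ∫⁻ z, ENNReal.ofReal (‖z.1 - z.2‖ ^ 2) ∂π ≠ ∞) :
    (∫ x in K, ‖T₁ x - T₀ x‖ ^ 2) * √(∫ x in K, ‖T₁ x - T₀ x‖ ^ 2) ≤
      4 * (2 * d * (20 * L * √(volume K).toReal)) * (2 * d * (8 * R ^ 2 * d * (volume K).toReal / r₀)) *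
        √(∫⁻ z, ENNReal.ofReal (‖z.1 - z.2‖ ^ 2) ∂π).toReal := by
  classical
  obtain ⟨φ₀, ψ₀, hφ₀c, hψ₀L, hG₀, hEq₀, hsub₀⟩ :=
    Vale.Agent.Lib.P074.exists_dual_pair hK hconv hint hY hT₀ hT₀Y hR hL
  obtain ⟨φ₁, ψ₁, hφ₁c, hψ₁L, hG₁, hEq₁, hsub₁⟩ :=
    Vale.Agent.Lib.P074.exists_dual_pair hK hconv hint hY hT₁ hT₁Y hR hL
  set V : ℝ := (volume K).toReal with hV
  have hV0 : 0 ≤ V := ENNReal.toReal_nonneg
  set J : ℝ := ∫ x in K, ‖T₁ x - T₀ x‖ ^ 2 with hJ
  set I : ℝ := (∫⁻ z, ENNReal.ofReal (‖z.1 - z.2‖ ^ 2) ∂π).toReal with hIdef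
  have hJ0 : 0 ≤ J := integral_nonneg (fun x => by positivity)
  have hT₀m := hT₀.1
  have hT₁m := hT₁.1
  have hsubR : ∀ x, ‖T₁ x - T₀ x‖ ≤ 2 * R := fun x => by
    have := norm_sub_le (T₁ x) (T₀ x)
    linarith [hR _ (hT₀Y x), hR _ (hT₁Y x)]
  have hsten : ∀ (e : E d), ‖e‖ = 1 → ∀ t : ℝ, 0 < t →
      t * ∫ x in K, (max (inner ℝ e (T₁ x - T₀ x)) 0) ^ 2 ≤
        20 * L * √V * √J * √I + 8 * R ^ 2 * d * V / r₀ * t ^ 2 := by
    intro e he t ht
    exact stencil_dir hK hconv hint hY hYne hr₀ hball hL0 hL hR0 hR hμY hνY hT₀m hT₁m hT₀Y hT₁Y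
      hT₀.2.1 hT₁.2.1 hφ₀c hφ₁c hψ₀L hψ₁L hG₀ hG₁ hEq₀ hEq₁ hsub₀ he ht hπ₁ hπ₂ hI
  -- integrability of the coordinates
  have hposm : ∀ e : E d, Measurable (fun x => (max (inner ℝ e (T₁ x - T₀ x)) 0) ^ 2) := fun e =>
    ((measurable_const.inner (hT₁m.sub hT₀m)).max measurable_const).pow_const 2
  have hposb : ∀ (e : E d), ‖e‖ = 1 → ∀ x,
      |(max (inner ℝ e (T₁ x - T₀ x)) 0) ^ 2| ≤ (2 * R) ^ 2 := by
    intro e he x
    rw [abs_of_nonneg (by positivity)]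
    apply pow_le_pow_left₀ (le_max_right _ _)
    apply max_le _ (by positivity)
    have := abs_real_inner_le_norm e (T₁ x - T₀ x)
    rw [he, one_mul] at this
    exact (le_abs_self _).trans (this.trans (hsubR x))
  have hposint : ∀ (e : E d), ‖e‖ = 1 →
      IntegrableOn (fun x => (max (inner ℝ e (T₁ x - T₀ x)) 0) ^ 2) K := fun e he =>
    integrableOn_of_bound hK (hposm e) (fun x _ => hposb e he x)
  -- the coordinate vectors
  have hs1 : ∀ i : Fin d, ‖(EuclideanSpace.single i (1 : ℝ) : E d)‖ = 1 := fun i => by simp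
  have hs2 : ∀ i : Fin d, ‖(-(EuclideanSpace.single i (1 : ℝ)) : E d)‖ = 1 := fun i => by simp
  have hpt : ∀ x, ‖T₁ x - T₀ x‖ ^ 2 = ∑ i : Fin d,
      ((max (inner ℝ (EuclideanSpace.single i (1 : ℝ) : E d) (T₁ x - T₀ x)) 0) ^ 2 +
        (max (inner ℝ (-(EuclideanSpace.single i (1 : ℝ)) : E d) (T₁ x - T₀ x)) 0) ^ 2) := by
    intro x
    rw [EuclideanSpace.real_norm_sq_eq]
    apply Finset.sum_congr rfl
    intro i _
    rw [inner_neg_left, EuclideanSpace.inner_single_left]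
    simp only [map_one, one_mul]
    rcases le_total ((T₁ x - T₀ x).ofLp i) 0 with hle | hle
    · rw [max_eq_right hle, max_eq_left (by linarith)]; ring
    · rw [max_eq_left hle, max_eq_right (by linarith)]; ring
  have hmain : ∀ t : ℝ, 0 < t → t * J ≤ (2 * d * (20 * L * √V) * √I) * √J +
      (2 * d * (8 * R ^ 2 * d * V / r₀)) * t ^ 2 := by
    intro t ht
    have hJeq : J = ∑ i : Fin d,
        ((∫ x in K, (max (inner ℝ (EuclideanSpace.single i (1 : ℝ) : E d) (T₁ x - T₀ x)) 0) ^ 2) +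
          ∫ x in K, (max (inner ℝ (-(EuclideanSpace.single i (1 : ℝ)) : E d) (T₁ x - T₀ x)) 0) ^ 2) := by
      rw [hJ]
      simp_rw [hpt]
      have hadd : ∀ i : Fin d, Integrable (fun x =>
          (max (inner ℝ (EuclideanSpace.single i (1 : ℝ) : E d) (T₁ x - T₀ x)) 0) ^ 2 +
          (max (inner ℝ (-(EuclideanSpace.single i (1 : ℝ)) : E d) (T₁ x - T₀ x)) 0) ^ 2)
          (volume.restrict K) := fun i => (hposint _ (hs1 i)).add (hposint _ (hs2 i))
      rw [integral_finsetSum _ (fun i _ => hadd i)]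
      apply Finset.sum_congr rfl
      intro i _
      rw [integral_add (hposint _ (hs1 i)) (hposint _ (hs2 i))]
    have hterm : ∀ i ∈ (Finset.univ : Finset (Fin d)),
        t * ((∫ x in K, (max (inner ℝ (EuclideanSpace.single i (1 : ℝ) : E d) (T₁ x - T₀ x)) 0) ^ 2) +
          ∫ x in K, (max (inner ℝ (-(EuclideanSpace.single i (1 : ℝ)) : E d) (T₁ x - T₀ x)) 0) ^ 2) ≤
        2 * (20 * L * √V * √J * √I + 8 * R ^ 2 * d * V / r₀ * t ^ 2) := by
      intro i _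
      have h1 := hsten _ (hs1 i) t ht
      have h2 := hsten _ (hs2 i) t ht
      rw [mul_add]
      linarith
    have hJt : t * J = ∑ i : Fin d,
        t * ((∫ x in K, (max (inner ℝ (EuclideanSpace.single i (1 : ℝ) : E d) (T₁ x - T₀ x)) 0) ^ 2) +
          ∫ x in K, (max (inner ℝ (-(EuclideanSpace.single i (1 : ℝ)) : E d) (T₁ x - T₀ x)) 0) ^ 2) := by
      rw [← Finset.mul_sum, ← hJeq]
    calc t * J ≤ ∑ _i : Fin d, 2 * (20 * L * √V * √J * √I + 8 * R ^ 2 * d * V / r₀ * t ^ 2) := by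
          rw [hJt]
          exact Finset.sum_le_sum hterm
      _ = _ := by
          rw [Finset.sum_const, Finset.card_univ, Fintype.card_fin, nsmul_eq_mul]
          ring
  have hA0 : 0 ≤ 2 * d * (20 * L * √V) * √I := by positivity
  have hB0 : 0 ≤ 2 * d * (8 * R ^ 2 * d * V / r₀) := by positivity
  have := mul_sqrt_le_of_forall hJ0 hA0 hB0 hmain
  calc J * √J ≤ _ := this
    _ = _ := by ring

/-- The exponent `1/3` is admissible in every dimension. -/
theorem admissible_third (d : ℕ) : Admissible d (1 / 3) := by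
  classical
  intro K hK hconv hint Y hY hYne
  obtain ⟨c, hc⟩ := hint
  have hint' : (interior K).Nonempty := ⟨c, hc⟩
  obtain ⟨r₀, hr₀, hball⟩ : ∃ r : ℝ, 0 < r ∧ closedBall c r ⊆ K := by
    have : K ∈ 𝓝 c := mem_interior_iff_mem_nhds.1 hc
    exact Metric.nhds_basis_closedBall.mem_iff.1 this
  obtain ⟨R, hR⟩ := hY.isBounded.exists_norm_le
  obtain ⟨L', hL'⟩ := hK.isBounded.exists_norm_le
  obtain ⟨y₀, hy₀⟩ := hYne
  have hYne' : Y.Nonempty := ⟨y₀, hy₀⟩
  have hR0 : 0 ≤ R := (norm_nonneg _).trans (hR y₀ hy₀)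
  have hL'0 : 0 ≤ L' := (norm_nonneg _).trans (hL' c (interior_subset hc))
  set L : ℝ := L' + 1 with hLdef
  have hL0 : 0 < L := by positivity
  have hL : ∀ x ∈ K, ‖x‖ ≤ L := fun x hx => (hL' x hx).trans (by linarith)
  set V : ℝ := (volume K).toReal with hV
  have hVfin : volume K ≠ ∞ := hK.measure_lt_top.ne
  have hVpos : 0 < V := by
    have h1 : 0 < volume (interior K) := isOpen_interior.measure_pos volume ⟨c, hc⟩
    have h2 : 0 < volume K := lt_of_lt_of_le h1 (measure_mono interior_subset)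
    exact ENNReal.toReal_pos h2.ne' hVfin
  set c₀ : ℝ := 4 * (2 * d * (20 * L * √V)) * (2 * d * (8 * R ^ 2 * d * V / r₀)) + 1 with hc₀
  have hc₀0 : 0 < c₀ := by positivity
  set C₀ : ℝ := (V⁻¹) ^ (1 / 2 : ℝ) * c₀ ^ (1 / 3 : ℝ) with hC₀
  have hC₀0 : 0 ≤ C₀ := by positivity
  refine ⟨Real.toNNReal C₀, ?_⟩
  intro μ ν hμ hν hμY hνY Tμ Tν hTμ hTν
  -- modifications of the maps
  set T₀ : E d → E d := fun x => if Tμ x ∈ Y then Tμ x else y₀ with hT₀def
  set T₁ : E d → E d := fun x => if Tν x ∈ Y then Tν x else y₀ with hT₁def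
  have hYm : MeasurableSet Y := hY.measurableSet
  have hT₀m : Measurable T₀ := Measurable.ite (hTμ.1 hYm) hTμ.1 measurable_const
  have hT₁m : Measurable T₁ := Measurable.ite (hTν.1 hYm) hTν.1 measurable_const
  have hT₀Y : ∀ x, T₀ x ∈ Y := by
    intro x
    simp only [hT₀def]
    split_ifs with h
    · exact h
    · exact hy₀
  have hT₁Y : ∀ x, T₁ x ∈ Y := by
    intro x
    simp only [hT₁def]
    split_ifs with h
    · exact h
    · exact hy₀
  have hae₀ : T₀ =ᵐ[uniformProb K] Tμ := by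
    have h1 : (uniformProb K) (Tμ ⁻¹' Yᶜ) = 0 := by
      rw [← Measure.map_apply hTμ.1 hYm.compl, hTμ.2.1]
      exact hμY
    have h2 : ∀ᵐ x ∂(uniformProb K), Tμ x ∈ Y := by
      rw [ae_iff]
      exact h1
    filter_upwards [h2] with x hx
    simp only [hT₀def, if_pos hx]
  have hae₁ : T₁ =ᵐ[uniformProb K] Tν := by
    have h1 : (uniformProb K) (Tν ⁻¹' Yᶜ) = 0 := by
      rw [← Measure.map_apply hTν.1 hYm.compl, hTν.2.1]
      exact hνY
    have h2 : ∀ᵐ x ∂(uniformProb K), Tν x ∈ Y := by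
      rw [ae_iff]
      exact h1
    filter_upwards [h2] with x hx
    simp only [hT₁def, if_pos hx]
  have hopt₀ := Vale.Agent.Lib.P074.optimal_modify hTμ hT₀m hae₀
  have hopt₁ := Vale.Agent.Lib.P074.optimal_modify hTν hT₁m hae₁
  set J : ℝ := ∫ x in K, ‖T₁ x - T₀ x‖ ^ 2 with hJ
  have hJ0 : 0 ≤ J := integral_nonneg (fun x => by positivity)
  -- the bound against the infimum
  have hcoup : ENNReal.ofReal (J ^ 3 / c₀ ^ 2) ≤
      ⨅ (π : Measure (E d × E d)) (_ : π.map Prod.fst = μ ∧ π.map Prod.snd = ν),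
        ∫⁻ z, ENNReal.ofReal (‖z.1 - z.2‖ ^ 2) ∂π := by
    refine le_iInf₂ ?_
    rintro π ⟨hπ₁, hπ₂⟩
    by_cases hI : ∫⁻ z, ENNReal.ofReal (‖z.1 - z.2‖ ^ 2) ∂π = ∞
    · rw [hI]; exact le_top
    have hcore := core_third hK hconv hint' hY hYne' hr₀ hball hL0 hL hR0 hR hμY hνY hopt₀ hopt₁
      hT₀Y hT₁Y hπ₁ hπ₂ hI
    set I : ℝ := (∫⁻ z, ENNReal.ofReal (‖z.1 - z.2‖ ^ 2) ∂π).toReal with hIdef
    have hI0 : 0 ≤ I := ENNReal.toReal_nonneg
    have h1 : J * √J ≤ c₀ * √I := by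
      refine hcore.trans ?_
      apply mul_le_mul_of_nonneg_right _ (Real.sqrt_nonneg _)
      rw [hc₀]
      linarith
    have h2 : J ^ 3 ≤ c₀ ^ 2 * I := by
      have h3 : (J * √J) ^ 2 ≤ (c₀ * √I) ^ 2 :=
        pow_le_pow_left₀ (by positivity) h1 2
      rw [mul_pow, mul_pow, Real.sq_sqrt hJ0, Real.sq_sqrt hI0] at h3
      calc J ^ 3 = J ^ 2 * J := by ring
        _ ≤ _ := h3
    have h3 : J ^ 3 / c₀ ^ 2 ≤ I := by
      rw [div_le_iff₀ (by positivity)]
      linarith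
    calc ENNReal.ofReal (J ^ 3 / c₀ ^ 2) ≤ ENNReal.ofReal I := ENNReal.ofReal_le_ofReal h3
      _ = _ := ENNReal.ofReal_toReal hI
  -- translate to the extended reals
  have hnormint : IntegrableOn (fun x => ‖T₁ x - T₀ x‖ ^ 2) K := by
    apply integrableOn_of_bound hK (((hT₁m.sub hT₀m).norm).pow_const 2) (M := (2 * R) ^ 2)
    intro x _
    rw [abs_of_nonneg (by positivity)]
    apply pow_le_pow_left₀ (norm_nonneg _)
    show ‖T₁ x - T₀ x‖ ≤ 2 * R
    have := norm_sub_le (T₁ x) (T₀ x)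
    linarith [hR _ (hT₀Y x), hR _ (hT₁Y x)]
  have hlin : ∫⁻ x, ENNReal.ofReal (‖Tμ x - Tν x‖ ^ 2) ∂(uniformProb K) =
      ENNReal.ofReal (V⁻¹ * J) := by
    have h1 : ∫⁻ x, ENNReal.ofReal (‖Tμ x - Tν x‖ ^ 2) ∂(uniformProb K) =
        ∫⁻ x, ENNReal.ofReal (‖T₁ x - T₀ x‖ ^ 2) ∂(uniformProb K) := by
      apply lintegral_congr_ae
      filter_upwards [hae₀, hae₁] with x h0 h1
      rw [h0, h1, norm_sub_rev]
    rw [h1]
    unfold uniformProb
    rw [lintegral_smul_measure, smul_eq_mul,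
      ← ofReal_integral_eq_lintegral_ofReal hnormint
        (Filter.Eventually.of_forall (fun x => by positivity)),
      ENNReal.ofReal_mul (by positivity), ENNReal.ofReal_inv_of_pos hVpos, hV,
      ENNReal.ofReal_toReal hVfin]
  unfold L2Dist W2
  rw [hlin]
  have hpow : ENNReal.ofReal (J ^ 3 / c₀ ^ 2) ^ (1 / 6 : ℝ) ≤
      ((⨅ (π : Measure (E d × E d)) (_ : π.map Prod.fst = μ ∧ π.map Prod.snd = ν),
        ∫⁻ z, ENNReal.ofReal (‖z.1 - z.2‖ ^ 2) ∂π) ^ (1 / 2 : ℝ)) ^ (1 / 3 : ℝ) := by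
    rw [← ENNReal.rpow_mul]
    have : (1 / 2 : ℝ) * (1 / 3) = 1 / 6 := by norm_num
    rw [this]
    exact ENNReal.rpow_le_rpow hcoup (by norm_num)
  have hid : (V⁻¹ * J) ^ (1 / 2 : ℝ) = C₀ * (J ^ 3 / c₀ ^ 2) ^ (1 / 6 : ℝ) := by
    have hJ3 : (J ^ 3 / c₀ ^ 2) ^ (1 / 6 : ℝ) = J ^ (1 / 2 : ℝ) / c₀ ^ (1 / 3 : ℝ) := by
      rw [Real.div_rpow (by positivity) (by positivity), ← Real.rpow_natCast J 3,
        ← Real.rpow_natCast c₀ 2, ← Real.rpow_mul hJ0, ← Real.rpow_mul hc₀0.le]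
      norm_num
    rw [hJ3, hC₀, Real.mul_rpow (by positivity) hJ0]
    have hne : c₀ ^ (1 / 3 : ℝ) ≠ 0 := (Real.rpow_pos_of_pos hc₀0 _).ne'
    field_simp
  rw [ENNReal.ofReal_rpow_of_nonneg (by positivity) (by norm_num), hid,
    ENNReal.ofReal_mul hC₀0]
  rw [ENNReal.ofReal_rpow_of_nonneg (by positivity) (by norm_num)] at hpow
  exact mul_le_mul' le_rfl hpow

end Vale.Agent.Lib.P074.T
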